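import Vale.Agent.P153.A3

/-! Part A: reflection positivity in finite volume. Split the sum by the values on the row 0:
`Finset.sum_fiberwise_of_maps_to` with r k = fun i : ℤ => k (i, 0) and the image of `admA 0 n`. In a fibre A let
glue a b x = if 0 ≤ x.2 then a x else b x; for a, b ∈ A it lies in A (every edge lies in {0 ≤ x.2} or in
{x.2 ≤ 0}, where glue a b is a, resp. b), and (a, b) ↦ (glue a b, glue b a) is an involution of A ×ˢ A. With
G k = F (k ∘ rfl0): F (glue a b) = F a, G (glue a b) = G b (`Loc`), so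
card A * ∑ k ∈ A, F k * G k = (∑ a ∈ A, F a) * ∑ b ∈ A, G b (`Finset.sum_nbij'`, `Finset.sum_product`), and
∑ b ∈ A, G b = ∑ b ∈ A, F b since k ↦ k ∘ rfl0 is an involution of A (`adm_rfl0`, rfl0 (i, 0) = (i, 0)). -/

open MeasureTheory Filter Topology

noncomputable section

namespace Vale.Agent.P153

/-- Gluing along the row zero. -/
def a4_glue (a b : Cfg) : Cfg := fun x => if 0 ≤ x.2 then a x else b x

theorem a4_up (a b : Cfg) {x : ℤ × ℤ} (h : 0 ≤ x.2) : a4_glue a b x = a x := if_pos h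

theorem a4_down {a b : Cfg} (e : ∀ i : ℤ, a (i, 0) = b (i, 0)) {x : ℤ × ℤ} (h : x.2 ≤ 0) :
    a4_glue a b x = b x := by
  rcases h.eq_or_lt with h | h
  · obtain ⟨i, j⟩ := x
    obtain rfl : j = 0 := h
    exact (a4_up a b le_rfl).trans (e i)
  · exact if_neg h.not_ge

theorem a4_adm {n : ℕ} {a b : Cfg} (ha : a ∈ Adm 0 n) (hb : b ∈ Adm 0 n)
    (e : ∀ i : ℤ, a (i, 0) = b (i, 0)) : a4_glue a b ∈ Adm 0 n := by
  refine ⟨fun x => ?_, fun x hx => ?_⟩
  · by_cases h : 0 ≤ x.2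
    · rw [a4_up a b h, a4_up a b (x := x + (1, 0)) (by simpa using h),
        a4_up a b (x := x + (0, 1)) (by simp; omega), a4_up a b (x := x + (-1, 1)) (by simp; omega)]
      exact ha.1 x
    · rw [a4_down e (not_le.1 h).le, a4_down e (x := x + (1, 0)) (by simp; omega),
        a4_down e (x := x + (0, 1)) (by simp; omega), a4_down e (x := x + (-1, 1)) (by simp; omega)]
      exact hb.1 x
  · by_cases h : 0 ≤ x.2
    · rw [a4_up a b h, ha.2 x hx]
    · rw [a4_down e (not_le.1 h).le, hb.2 x hx]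

theorem a4_invol (a b : Cfg) : a4_glue (a4_glue a b) (a4_glue b a) = a := by
  funext x
  by_cases h : 0 ≤ x.2 <;> simp [a4_glue, h]

theorem a4_rr (x : ℤ × ℤ) : rfl0 (rfl0 x) = x := by
  ext <;> simp [rfl0]

theorem a4_fib {n : ℕ} {S : Finset (ℤ × ℤ)} {F : Cfg → ℝ} (hF : Loc S F) (hS : ∀ x ∈ S, 0 ≤ x.2)
    (A : Finset Cfg) (r : ℤ → ℤ) (hA : ∀ k, k ∈ A ↔ k ∈ Adm 0 n ∧ ∀ i, k (i, 0) = r i) :
    0 ≤ ∑ k ∈ A, F k * F fun x => k (rfl0 x) := by
  have hg : ∀ a ∈ A, ∀ b ∈ A, ∀ i : ℤ, a (i, 0) = b (i, 0) := fun a ha b hb i =>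
    (((hA a).1 ha).2 i).trans (((hA b).1 hb).2 i).symm
  have hm : ∀ a ∈ A, ∀ b ∈ A, a4_glue a b ∈ A := fun a ha b hb =>
    (hA _).2 ⟨a4_adm ((hA a).1 ha).1 ((hA b).1 hb).1 (hg a ha b hb), fun i =>
      (a4_up a b le_rfl).trans (((hA a).1 ha).2 i)⟩
  have hr : ∀ k ∈ A, (fun x => k (rfl0 x)) ∈ A := fun k hk =>
    (hA _).2 ⟨adm_rfl0 ((hA k).1 hk).1, fun i => by simpa [rfl0] using ((hA k).1 hk).2 i⟩
  have h1 : ∑ b ∈ A, (F fun x => b (rfl0 x)) = ∑ b ∈ A, F b :=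
    Finset.sum_nbij' (fun k x => k (rfl0 x)) (fun k x => k (rfl0 x)) hr hr
      (fun k _ => funext fun x => congrArg k (a4_rr x))
      (fun k _ => funext fun x => congrArg k (a4_rr x)) fun _ _ => rfl
  have h2 : ∑ q ∈ A ×ˢ A, F q.1 * F (fun x => q.2 (rfl0 x)) =
      ∑ q ∈ A ×ˢ A, F q.1 * F fun x => q.1 (rfl0 x) := by
    have hm' : ∀ q ∈ A ×ˢ A, (a4_glue q.1 q.2, a4_glue q.2 q.1) ∈ A ×ˢ A := fun q hq =>
      Finset.mem_product.2 ⟨hm _ (Finset.mem_product.1 hq).1 _ (Finset.mem_product.1 hq).2,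
        hm _ (Finset.mem_product.1 hq).2 _ (Finset.mem_product.1 hq).1⟩
    refine Finset.sum_nbij' (fun q => (a4_glue q.1 q.2, a4_glue q.2 q.1))
      (fun q => (a4_glue q.1 q.2, a4_glue q.2 q.1)) hm' hm'
      (fun q _ => Prod.ext (a4_invol _ _) (a4_invol _ _))
      (fun q _ => Prod.ext (a4_invol _ _) (a4_invol _ _)) fun q hq => ?_
    have e := hg _ (Finset.mem_product.1 hq).1 _ (Finset.mem_product.1 hq).2
    have h3 : ∀ x ∈ S, (rfl0 x).2 ≤ 0 := fun x hx => neg_nonpos.2 (hS x hx)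
    refine congrArg₂ (· * ·) (hF _ _ fun x hx y hy => ?_) (hF _ _ fun x hx y hy => ?_)
    · dsimp only
      rw [a4_up _ _ (hS x hx), a4_up _ _ (hS y hy)]
    · dsimp only
      rw [a4_down e (h3 x hx), a4_down e (h3 y hy)]
  rw [Finset.sum_product, Finset.sum_product] at h2
  simp only [Finset.sum_const, nsmul_eq_mul] at h2
  rw [← Finset.sum_mul_sum, h1, ← Finset.mul_sum] at h2
  rcases A.eq_empty_or_nonempty with rfl | h0
  · simp
  · have h4 : (0 : ℝ) < A.card := Nat.cast_pos.2 h0.card_pos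
    exact (mul_nonneg_iff_of_pos_left h4).1 (h2 ▸ mul_self_nonneg _)

theorem avA_rp (n : ℕ) {S : Finset (ℤ × ℤ)} {F : Cfg → ℝ} (hF : Loc S F) (hS : ∀ x ∈ S, 0 ≤ x.2) :
    0 ≤ avA 0 n fun k => F k * F fun x => k (rfl0 x) := by
  classical
  refine div_nonneg ?_ (Nat.cast_nonneg _)
  rw [← Finset.sum_fiberwise_of_maps_to (g := fun (k : Cfg) (i : ℤ) => k (i, 0))
    (t := (admA 0 n).image fun (k : Cfg) (i : ℤ) => k (i, 0))
    fun k hk => Finset.mem_image_of_mem _ hk]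
  exact Finset.sum_nonneg fun r _ => a4_fib (n := n) hF hS _ r fun k => by
    rw [Finset.mem_filter, mem_admA, funext_iff]

end Vale.Agent.P153
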