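import Vale.Agent.P153.A1
import Vale.Agent.P152.PL

/-! Part A: the Prekopa-Leindler inequality in finite volume. Apply `Vale.Agent.P152.pl` with
ι = ↥(hexA 0 n), ext t = fun x => if h : x ∈ hexA 0 n then t ⟨x, h⟩ else 0, s = the image of `admA 0 n` under
the restriction, f t = if Lip (ext t) then F (ext t) else 0 (classical), and so on, u = v. The two midpoints
of Lipschitz functions are Lipschitz (`abs_le`, `omega`), ext commutes with the midpoints ((0 + 0 + 1) / 2 = 0),
ext (restriction k) = k on `Adm 0 n` (`mem_hexA`); `Finset.sum_image`. -/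

open MeasureTheory Filter Topology

noncomputable section

namespace Vale.Agent.P153

/-- Extension by zero. -/
def a6_ext (n : ℕ) (t : hexA 0 n → ℤ) : Cfg := fun x => if h : x ∈ hexA 0 n then t ⟨x, h⟩ else 0

open Classical in
/-- A function read on the hexagon. -/
def a6_f (n : ℕ) (F : Cfg → ℝ) (t : hexA 0 n → ℤ) : ℝ :=
  if Lip (a6_ext n t) then F (a6_ext n t) else 0

theorem a6_mid {a b : Cfg} (ha : Lip a) (hb : Lip b) (c : ℤ) : Lip fun x => (a x + b x + c) / 2 := by
  intro x
  have h1 := ha x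
  have h2 := hb x
  simp only [abs_le] at h1 h2 ⊢
  omega

theorem a6_res {n : ℕ} {k : Cfg} (hk : k ∈ admA 0 n) : a6_ext n (fun x => k x) = k := by
  funext x
  unfold a6_ext
  split_ifs with h
  · rfl
  · exact ((mem_admA.1 hk).2 x (not_le.1 fun h' => h (mem_hexA.2 h'))).symm

theorem a6_sum (n : ℕ) (F : Cfg → ℝ) :
    ∑ t ∈ (admA 0 n).image fun (k : Cfg) (x : hexA 0 n) => k x, a6_f n F t =
      ∑ k ∈ admA 0 n, F k := by
  rw [Finset.sum_image fun k hk k' hk' e => by rw [← a6_res hk, ← a6_res hk', e]]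
  exact Finset.sum_congr rfl fun k hk => by rw [a6_f, a6_res hk, if_pos (mem_admA.1 hk).1]

theorem a6_out (n : ℕ) (F : Cfg → ℝ) (t : hexA 0 n → ℤ)
    (ht : t ∉ (admA 0 n).image fun (k : Cfg) (x : hexA 0 n) => k x) : a6_f n F t = 0 := by
  refine if_neg fun h => ht (Finset.mem_image.2 ⟨a6_ext n t, mem_admA.2 ⟨h, fun x hx => ?_⟩, ?_⟩)
  · exact dif_neg fun h' => absurd (mem_hexA.1 h') (not_le.2 hx)
  · funext x
    exact dif_pos x.2

theorem a6_nonneg (n : ℕ) {F : Cfg → ℝ} (hF : ∀ k, 0 ≤ F k) (t : hexA 0 n → ℤ) : 0 ≤ a6_f n F t := by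
  unfold a6_f
  split_ifs
  · exact hF _
  · exact le_rfl

theorem avA_pl (n : ℕ) {F G H : Cfg → ℝ} (hF : ∀ k, 0 ≤ F k) (hG : ∀ k, 0 ≤ G k)
    (hH : ∀ k, 0 ≤ H k) (h : ∀ a b : Cfg, Lip a → Lip b →
      F a * G b ≤ H (fun x => (a x + b x) / 2) * H (fun x => (a x + b x + 1) / 2)) :
    avA 0 n F * avA 0 n G ≤ avA 0 n H ^ 2 := by
  have h1 := P152.pl ((admA 0 n).image fun (k : Cfg) (x : hexA 0 n) => k x) (a6_f n F) (a6_f n G)
    (a6_f n H) (a6_f n H) (a6_nonneg n hF) (a6_nonneg n hG) (a6_nonneg n hH) (a6_nonneg n hH)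
    (fun t ht => ⟨a6_out n F t ht, a6_out n G t ht, a6_out n H t ht, a6_out n H t ht⟩) fun s t => ?_
  · simp only [a6_sum] at h1
    rw [avA, avA, avA, div_mul_div_comm, sq, div_mul_div_comm]
    exact div_le_div_of_nonneg_right h1 (by positivity)
  · have h0 := mul_nonneg (a6_nonneg n hH fun i => (s i + t i) / 2)
      (a6_nonneg n hH fun i => (s i + t i + 1) / 2)
    by_cases a : Lip (a6_ext n s)
    · by_cases b : Lip (a6_ext n t)
      · have e1 : a6_ext n (fun i => (s i + t i) / 2) =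
            fun x => (a6_ext n s x + a6_ext n t x) / 2 := by
          funext x
          unfold a6_ext
          split_ifs <;> rfl
        have e2 : a6_ext n (fun i => (s i + t i + 1) / 2) =
            fun x => (a6_ext n s x + a6_ext n t x + 1) / 2 := by
          funext x
          unfold a6_ext
          split_ifs <;> rfl
        have c1 := a6_mid a b 0
        simp only [add_zero] at c1
        rw [a6_f, a6_f, a6_f, a6_f, e1, e2, if_pos a, if_pos b, if_pos c1, if_pos (a6_mid a b 1)]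
        exact h _ _ a b
      · rwa [show a6_f n G t = 0 from if_neg b, mul_zero]
    · rwa [show a6_f n F s = 0 from if_neg a, zero_mul]

end Vale.Agent.P153
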