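import Vale.Agent.P153.A3

/-! Part A: the variance of a height difference is at most the distance. -/

open MeasureTheory Filter Topology
open scoped FinsetFamily

noncomputable section

namespace Vale.Agent.P153

open Classical in
/-- Functions that are constant outside the hexagon, with given values at `0` and `u`. -/
def a7P (N : ℕ) (u : ℤ × ℤ) (b a : ℤ) : Finset Cfg :=
  ((admA 0 N).filter fun k => k u - k 0 = a - b).image fun k x => k x - k 0 + b

lemma a7_out (N : ℕ) : (N : ℤ) < hx (((N : ℤ) + 1, 0) - 0) := by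
  simp only [hx, sub_zero, lt_max_iff, lt_abs]
  omega

lemma a7_mem {N : ℕ} {u : ℤ × ℤ} {b a : ℤ} {f : Cfg} : f ∈ a7P N u b a ↔
    Lip f ∧ (∀ x, (N : ℤ) < hx (x - 0) → f x = f ((N : ℤ) + 1, 0)) ∧ f 0 = b ∧ f u = a := by
  simp only [a7P, Finset.mem_image, Finset.mem_filter, mem_admA]
  constructor
  · rintro ⟨k, ⟨hk, e⟩, rfl⟩
    refine ⟨fun x => ?_, fun x h => by simp only [hk.2 x h, hk.2 _ (a7_out N)], by simp,
      by dsimp only; omega⟩
    simpa using hk.1 x
  · rintro ⟨h1, h2, h3, h4⟩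
    refine ⟨fun x => f x - f ((N : ℤ) + 1, 0), ⟨⟨fun x => ?_, fun x h => by simp [h2 x h]⟩,
      by dsimp only; omega⟩, funext fun x => by dsimp only; omega⟩
    simpa using h1 x

lemma a7_inf {f g : Cfg} (hf : Lip f) (hg : Lip g) : Lip (f ⊓ g) ∧ Lip (f ⊔ g) := by
  constructor <;> intro x <;> have h1 := hf x <;> have h2 := hg x <;>
    simp only [Pi.inf_apply, Pi.sup_apply, abs_le] at h1 h2 ⊢ <;> omega

open Classical in
lemma a7_step (N : ℕ) (u : ℤ × ℤ) {a : ℤ} (ha : 0 ≤ a) :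
    ∑ k ∈ (admA 0 N).filter fun k => k u - k 0 = a, ((k (u + (1, 0)) - k u : ℤ) : ℝ) ≤ 0 := by
  set φ : Cfg → ℝ := fun f => ((max 0 (f (u + (1, 0)) - a + 1) : ℤ) : ℝ) with hφ
  have h0 : 0 ≤ φ := fun f => Int.cast_nonneg (le_max_left _ _)
  have h1 := four_functions_theorem φ 1 1 φ h0 zero_le_one zero_le_one h0 (fun f g => by
    simp only [Pi.one_apply, mul_one, one_mul, hφ, Pi.sup_apply, Int.cast_le]
    omega) (a7P N u 0 a) (a7P N u a a)
  have h2 : a7P N u 0 a ⊼ a7P N u a a ⊆ a7P N u 0 a := fun z hz => by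
    obtain ⟨f, hf, g, hg, rfl⟩ := Finset.mem_infs.1 hz
    rw [a7_mem] at hf hg ⊢
    refine ⟨(a7_inf hf.1 hg.1).1, fun x h => ?_, ?_, ?_⟩ <;> simp only [Pi.inf_apply]
    · rw [hf.2.1 x h, hg.2.1 x h]
    · omega
    · omega
  have h3 : a7P N u 0 a ⊻ a7P N u a a ⊆ a7P N u a a := fun z hz => by
    obtain ⟨f, hf, g, hg, rfl⟩ := Finset.mem_sups.1 hz
    rw [a7_mem] at hf hg ⊢
    refine ⟨(a7_inf hf.1 hg.1).2, fun x h => ?_, ?_, ?_⟩ <;> simp only [Pi.sup_apply]
    · rw [hf.2.1 x h, hg.2.1 x h]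
    · omega
    · omega
  have h4 : ∀ b, ∑ f ∈ a7P N u b a, φ f =
      ∑ f ∈ a7P N u b a, ((f (u + (1, 0)) - a : ℤ) : ℝ) + (a7P N u b a).card := fun b => by
    rw [Finset.card_eq_sum_ones, Nat.cast_sum, ← Finset.sum_add_distrib]
    refine Finset.sum_congr rfl fun f hf => ?_
    rw [a7_mem] at hf
    have := (hf.1 u).1
    rw [abs_le, hf.2.2.2] at this
    simp only [hφ]
    rw [max_eq_right (by omega)]
    push_cast
    ring
  have h5 : ∑ f ∈ a7P N u a a, ((f (u + (1, 0)) - a : ℤ) : ℝ) = 0 := by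
    refine Finset.sum_involution (fun f _ x => 2 * a - f x) (fun f _ => by push_cast; ring)
      (fun f _ h e => h ?_) (fun f hf => ?_) fun f _ => funext fun x => by ring
    · have := congrFun e (u + (1, 0))
      exact Int.cast_eq_zero.2 (by omega)
    · rw [a7_mem] at hf ⊢
      refine ⟨fun x => ?_, fun x h => by rw [hf.2.1 x h], by omega, by omega⟩
      have := hf.1 x
      simp only [abs_le] at this ⊢
      omega
  have h6 : (0 : ℝ) < (a7P N u a a).card := Nat.cast_pos.2 (Finset.card_pos.2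
    ⟨fun _ => a, a7_mem.2 ⟨fun _ => by simp, fun _ _ => rfl, rfl, rfl⟩⟩)
  have h7 := h1.trans (mul_le_mul (Finset.sum_le_sum_of_subset_of_nonneg h2 fun _ _ _ => zero_le_one)
    (Finset.sum_le_sum_of_subset_of_nonneg h3 fun f _ _ => h0 f)
    (Finset.sum_nonneg fun f _ => h0 f) (Finset.sum_nonneg fun _ _ => zero_le_one))
  simp only [Pi.one_apply, Finset.sum_const, nsmul_eq_mul, mul_one] at h7
  rw [h4, h4, h5, zero_add] at h7
  have h8 := le_of_mul_le_mul_right h7 h6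
  rw [a7P, Finset.sum_image fun k hk k' hk' e => ?_] at h8
  · rw [← sub_zero a]
    refine le_of_eq_of_le (Finset.sum_congr rfl fun k hk => ?_) (add_le_iff_nonpos_left.1 h8)
    have := (Finset.mem_filter.1 hk).2
    congr 1
    dsimp only
    omega
  · have k1 := (mem_admA.1 (Finset.mem_filter.1 hk).1).2 _ (a7_out N)
    have k2 := (mem_admA.1 (Finset.mem_filter.1 hk').1).2 _ (a7_out N)
    have k3 := congrFun e ((N : ℤ) + 1, 0)
    funext x
    have k4 := congrFun e x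
    omega

lemma a7_cov (N : ℕ) (u : ℤ × ℤ) : avA 0 N (fun k =>
    ((max 0 (k u - k 0) : ℤ) : ℝ) * ((k (u + (1, 0)) - k u : ℤ) : ℝ)) ≤ 0 := by
  classical
  refine div_nonpos_of_nonpos_of_nonneg ?_ (Nat.cast_nonneg _)
  rw [← Finset.sum_fiberwise_of_maps_to (g := fun k : Cfg => k u - k 0)
    (t := (admA 0 N).image fun k => k u - k 0) fun k hk => Finset.mem_image_of_mem _ hk]
  refine Finset.sum_nonpos fun a _ => ?_
  rw [Finset.sum_congr rfl (g := fun k => ((max 0 a : ℤ) : ℝ) * ((k (u + (1, 0)) - k u : ℤ) : ℝ))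
    fun k hk => by rw [(Finset.mem_filter.1 hk).2], ← Finset.mul_sum]
  rcases le_total 0 a with h | h
  · exact mul_nonpos_of_nonneg_of_nonpos (Int.cast_nonneg (le_max_left _ _))
      (by convert a7_step N u h)
  · rw [max_eq_left h, Int.cast_zero, zero_mul]

theorem avA_var (N n : ℕ) : avA 0 N (fun k => ((k (n, 0) - k 0 : ℤ) : ℝ) ^ 2) ≤ n := by
  induction n with
  | zero => simp [avA, Prod.mk_zero_zero]
  | succ n ih =>
    have h1 := a7_cov N (n, 0)
    have h2 := h1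
    rw [← avA_neg] at h2
    have h3 : (0 : ℝ) < (admA 0 N).card := Nat.cast_pos.2 (card_admA 0 N)
    have e : (((n : ℤ), 0) : ℤ × ℤ) + (1, 0) = (((n + 1 : ℕ) : ℤ), 0) := by simp
    rw [e] at h1 h2
    unfold avA at *
    rw [div_le_iff₀ h3] at h1 h2 ih ⊢
    have h4 : ∑ k ∈ admA 0 N, ((k (((n + 1 : ℕ) : ℤ), 0) - k 0 : ℤ) : ℝ) ^ 2 ≤
        ∑ k ∈ admA 0 N, (((k (n, 0) - k 0 : ℤ) : ℝ) ^ 2 +
          2 * (((max 0 (k (n, 0) - k 0) : ℤ) : ℝ) *
            ((k (((n + 1 : ℕ) : ℤ), 0) - k (n, 0) : ℤ) : ℝ)) +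
          2 * (((max 0 (-k (n, 0) - -k 0) : ℤ) : ℝ) *
            ((-k (((n + 1 : ℕ) : ℤ), 0) - -k (n, 0) : ℤ) : ℝ)) + 1) := by
      refine Finset.sum_le_sum fun k hk => ?_
      have k1 := ((mem_admA.1 hk).1 (n, 0)).1
      rw [e, ← sq_le_one_iff_abs_le_one] at k1
      norm_cast
      rcases le_total 0 (k (n, 0) - k 0) with h | h
      · rw [max_eq_right h, max_eq_left (by omega)]
        nlinarith
      · rw [max_eq_left h, max_eq_right (by omega)]
        nlinarith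
    simp only [Finset.sum_add_distrib, ← Finset.mul_sum, Finset.sum_const, nsmul_eq_mul,
      mul_one] at h4
    push_cast at h1 h2 h4 ih ⊢
    linarith

end Vale.Agent.P153
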