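import Vale.Agent.P153.A2
import Vale.Agent.P153.A4
import Vale.Agent.P153.A6
import Vale.Agent.P153.A7

/-! Part A: the properties of the limit measure. -/

open MeasureTheory Filter Topology

noncomputable section

namespace Vale.Agent.P153

lemma Loc.compA {S : Finset (ℤ × ℤ)} {F : Cfg → ℝ} (h : Loc S F) (φ : ℤ × ℤ → ℤ × ℤ) :
    Loc (S.image φ) fun k => F fun x => k (φ x) := fun _ _ e =>
  h _ _ fun _ hx _ hy => e _ (Finset.mem_image_of_mem _ hx) _ (Finset.mem_image_of_mem _ hy)

theorem good_of_lim {P : Measure Cfg} [IsProbabilityMeasure P] (h : IsLimit P) : Good P := by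
  refine ⟨lip_of_lim h, fun S F hF y => ?_, fun S F hF => ?_, fun S F hF => ?_, fun S F hF => ?_,
    fun S F hF hS => ?_, fun S F G H hF hG hH h1 h2 h3 h4 => ?_, ?_⟩
  · exact tendsto_nhds_unique (tend_avA h y (hF.compA (· + y)))
      ((tend_avA h 0 hF).congr fun n => (avA_shift n F y).symm)
  · exact tendsto_nhds_unique (tend_avA h 0 (hF.compA rot))
      ((tend_avA h 0 hF).congr fun n => (avA_rot n F).symm)
  · exact tendsto_nhds_unique (tend_avA h 0 (hF.compA rfl0))
      ((tend_avA h 0 hF).congr fun n => (avA_rfl0 n F).symm)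
  · refine tendsto_nhds_unique (tend_avA h 0 (S := S) fun k k' e => hF _ _ fun x hx y hy => ?_)
      ((tend_avA h 0 hF).congr fun n => (avA_neg n F).symm)
    have := e x hx y hy
    omega
  · refine ge_of_tendsto' (tend_avA h 0 (S := S ∪ S.image rfl0) fun k k' e => ?_)
      fun n => avA_rp n hF hS
    exact congrArg₂ (· * ·)
      (hF k k' fun x hx y hy => e x (Finset.mem_union_left _ hx) y (Finset.mem_union_left _ hy))
      (hF.compA rfl0 k k' fun x hx y hy =>
        e x (Finset.mem_union_right _ hx) y (Finset.mem_union_right _ hy))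
  · exact le_of_tendsto_of_tendsto' ((tend_avA h 0 hF).mul (tend_avA h 0 hG))
      ((tend_avA h 0 hH).pow 2) fun n => avA_pl n h1 h2 h3 h4
  · have h1 : ∀ n : ℕ, ∫ k, ((k (n, 0) - k 0 : ℤ) : ℝ) ^ 2 ∂P ≤ n := fun n =>
      le_of_tendsto' (tend_avA h 0 (S := {((n : ℤ), 0), 0}) fun k k' e => by
        rw [e _ (by simp) _ (by simp)]) fun N => avA_var N n
    refine squeeze_zero (fun n => div_nonneg (integral_nonneg fun _ => sq_nonneg _) (sq_nonneg _))
      (fun n => ?_) tendsto_one_div_atTop_nhds_zero_nat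
    refine (div_le_div_of_nonneg_right (h1 n) (sq_nonneg _)).trans (le_of_eq ?_)
    by_cases h0 : (n : ℝ) = 0
    · simp [h0]
    · field_simp

end Vale.Agent.P153
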