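import Vale.Agent.P153.Defs

/-! Part A: finite volume averages. FROZEN. -/

open MeasureTheory Filter Topology

noncomputable section

namespace Vale.Agent.P153

lemma Lip.row {k : Cfg} (h : Lip k) (x : ℤ × ℤ) (m : ℕ) : |k (x + ((m : ℤ), 0)) - k x| ≤ m := by
  induction m with
  | zero => simp [Prod.mk_zero_zero]
  | succ m ih =>
    have h1 := (h (x + ((m : ℤ), 0))).1
    have e : x + ((m : ℤ), 0) + (1, 0) = x + (((m + 1 : ℕ) : ℤ), 0) := by
      ext <;> simp [add_assoc]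
    rw [e] at h1
    rw [abs_le] at h1 ih ⊢
    push_cast at h1 ih ⊢
    omega

/-- The hexagon. -/
def hexA (c : ℤ × ℤ) (n : ℕ) : Finset (ℤ × ℤ) :=
  (Finset.Icc (c - ((n : ℤ), (n : ℤ))) (c + ((n : ℤ), (n : ℤ)))).filter fun x => hx (x - c) ≤ n

lemma mem_hexA {c x : ℤ × ℤ} {n : ℕ} : x ∈ hexA c n ↔ hx (x - c) ≤ n := by
  simp only [hexA, Finset.mem_filter, Finset.mem_Icc, Prod.le_def, Prod.fst_sub, Prod.snd_sub,
    Prod.fst_add, Prod.snd_add, hx, max_le_iff, abs_le]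
  omega

lemma adm_bd {c : ℤ × ℤ} {n : ℕ} {k : Cfg} (h : k ∈ Adm c n) (x : ℤ × ℤ) : |k x| ≤ 2 * n + 1 := by
  by_cases h1 : (n : ℤ) < hx (x - c)
  · rw [h.2 x h1, abs_zero]
    positivity
  · have h2 := h.1.row x (2 * n + 1)
    rw [h.2 (x + _), zero_sub, abs_neg] at h2
    · exact_mod_cast h2
    · simp only [hx, lt_max_iff, lt_abs, Prod.fst_sub,
        Prod.fst_add] at h1 ⊢
      push_cast
      omega

lemma adm_finite (c : ℤ × ℤ) (n : ℕ) : (Adm c n).Finite := by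
  have h : (Set.pi Set.univ fun _ : hexA c n => Set.Icc (-(2 * n + 1 : ℤ)) (2 * n + 1)).Finite :=
    Set.Finite.pi fun _ => Set.finite_Icc _ _
  refine Set.Finite.of_finite_image (f := fun (k : Cfg) (x : hexA c n) => k x) (h.subset ?_) ?_
  · rintro _ ⟨k, hk, rfl⟩ x -
    exact abs_le.1 (adm_bd hk x)
  · intro k hk k' hk' e
    funext x
    by_cases h1 : (n : ℤ) < hx (x - c)
    · rw [hk.2 x h1, hk'.2 x h1]
    · exact congrFun e ⟨x, mem_hexA.2 (not_lt.1 h1)⟩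

/-- The finite set of admissible functions. -/
def admA (c : ℤ × ℤ) (n : ℕ) : Finset Cfg := (adm_finite c n).toFinset

lemma mem_admA {c : ℤ × ℤ} {n : ℕ} {k : Cfg} : k ∈ admA c n ↔ k ∈ Adm c n :=
  Set.Finite.mem_toFinset _

lemma lip_zero : Lip 0 := fun _ => by simp

lemma card_admA (c : ℤ × ℤ) (n : ℕ) : 0 < (admA c n).card :=
  Finset.card_pos.2 ⟨0, mem_admA.2 ⟨lip_zero, fun _ _ => rfl⟩⟩

/-- The average under the uniform measure on `Adm c n`. -/
def avA (c : ℤ × ℤ) (n : ℕ) (F : Cfg → ℝ) : ℝ := (∑ k ∈ admA c n, F k) / (admA c n).card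

end Vale.Agent.P153
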