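import Vale.Agent.P153.A1

/-! Part A: local averages converge.
`lip_of_lim`: a cylinder {k | ∀ x ∈ S, k x = η x} with hexP c n S η = 0 for all n is null
(`tendsto_nhds_unique`, `measureReal_eq_zero_iff`). For an edge x, y = x + e and integers a, b with
1 < |b - a| take S = {x, y}, η = fun z => if z = x then a else b; for `k 0 = a ≠ 0` take S = {0}. Countable
unions (`ae_all_iff`).
`tend_avA`: let M bound |x.1| + |x.2| on S; for Lip k with k 0 = 0 one has |k x| ≤ |x.1| + |x.2| (`Lip.row`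
and the same along columns). Let T = Fintype.piFinset fun _ : S => Finset.Icc (-M) M and extend t ∈ T by
zero to η t. For Lip k: F k = F (k - k 0) = ∑ t ∈ T, F (η t) * indicator (∀ x ∈ S, k x - k 0 = η t x)
(exactly one t fits; `Loc`). Integrate (`integral_congr_ae`, `integral_finset_sum`,
`integral_indicator_one`; cylinders are measurable) and average (`Set.ncard_coe_finset`,
`Finset.sum_comm`, `Finset.card_filter`), then `tendsto_finset_sum`. -/

open MeasureTheory Filter Topology

noncomputable section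

namespace Vale.Agent.P153

lemma a2_null {P : Measure Cfg} [IsProbabilityMeasure P] (h : IsLimit P) (S : Finset (ℤ × ℤ))
    (η : Cfg) (hη : ∀ k, Lip k → ¬∀ x ∈ S, k x - k 0 = η x) :
    ∀ᵐ k ∂P, ¬∀ x ∈ S, k x = η x := by
  have h0 : ∀ n, hexP 0 n S η = 0 := fun n => by
    have e : {k ∈ Adm 0 n | ∀ x ∈ S, k x - k 0 = η x} = ∅ :=
      Set.eq_empty_of_forall_notMem fun k hk => hη k hk.1.1 hk.2
    rw [hexP, e]
    simp
  have h1 := h 0 S η
  simp only [h0] at h1
  have h2 := tendsto_nhds_unique h1 tendsto_const_nhds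
  rw [measureReal_eq_zero_iff] at h2
  rw [ae_iff]
  simpa only [not_not] using h2

lemma a2_edge {P : Measure Cfg} [IsProbabilityMeasure P] (h : IsLimit P) {e : ℤ × ℤ} (he : e ≠ 0)
    (hl : ∀ k, Lip k → ∀ x, |k (x + e) - k x| ≤ 1) : ∀ᵐ k ∂P, ∀ x, |k (x + e) - k x| ≤ 1 := by
  refine ae_all_iff.2 fun x => ?_
  have hx : x + e ≠ x := by simpa using he
  have h1 : ∀ᵐ k ∂P, ∀ a b : ℤ, 1 < |b - a| → ¬(k x = a ∧ k (x + e) = b) := by
    refine ae_all_iff.2 fun a => ae_all_iff.2 fun b => ?_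
    by_cases hab : 1 < |b - a|
    · have h2 := a2_null h {x, x + e} (fun z => if z = x then a else b) fun k hk h3 => by
        have h4 := h3 x (by simp)
        have h5 := h3 (x + e) (by simp)
        simp only [if_true, if_neg hx] at h4 h5
        have h6 := hl k hk x
        have h7 : b - a = k (x + e) - k x := by omega
        rw [h7] at hab
        omega
      filter_upwards [h2] with k hk _ h3
      refine hk fun z hz => ?_
      rcases Finset.mem_insert.1 hz with rfl | hz
      · simp [h3.1]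
      · rw [Finset.mem_singleton.1 hz, if_neg hx, h3.2]
    · exact Eventually.of_forall fun k h3 => absurd h3 hab
  filter_upwards [h1] with k hk
  by_contra h2
  exact hk _ _ (not_le.1 h2) ⟨rfl, rfl⟩

theorem lip_of_lim {P : Measure Cfg} [IsProbabilityMeasure P] (h : IsLimit P) :
    ∀ᵐ k ∂P, Lip k ∧ k 0 = 0 := by
  have h0 : ∀ᵐ k ∂P, ∀ a : ℤ, a ≠ 0 → k 0 ≠ a := by
    refine ae_all_iff.2 fun a => ?_
    by_cases ha : a = 0
    · exact Eventually.of_forall fun k h3 => absurd ha h3
    · have h2 := a2_null h {0} (fun _ => a) fun k _ h3 => by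
        have h4 := h3 0 (by simp)
        exact ha (by omega)
      filter_upwards [h2] with k hk _ h3
      exact hk fun z hz => by rw [Finset.mem_singleton.1 hz, h3]
  filter_upwards [h0, a2_edge h (e := (1, 0)) (by decide) fun k hk x => (hk x).1,
    a2_edge h (e := (0, 1)) (by decide) fun k hk x => (hk x).2.1,
    a2_edge h (e := (-1, 1)) (by decide) fun k hk x => (hk x).2.2] with k k0 k1 k2 k3
  refine ⟨fun x => ⟨k1 x, k2 x, k3 x⟩, ?_⟩
  by_contra h1
  exact k0 _ h1 rfl

lemma a2_line (g : ℤ → ℤ) (hg : ∀ i, |g (i + 1) - g i| ≤ 1) (m : ℤ) : |g m - g 0| ≤ |m| := by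
  induction m using Int.induction_on with
  | zero => simp
  | succ i ih =>
    have h1 := hg i
    rw [abs_of_nonneg (show (0 : ℤ) ≤ i by positivity)] at ih
    rw [abs_of_nonneg (show (0 : ℤ) ≤ i + 1 by positivity)]
    rw [abs_le] at h1 ih ⊢
    omega
  | pred i ih =>
    have h1 := hg (-(i : ℤ) - 1)
    rw [sub_add_cancel] at h1
    rw [abs_of_nonpos (show -(i : ℤ) ≤ 0 by omega)] at ih
    rw [abs_of_nonpos (show -(i : ℤ) - 1 ≤ 0 by omega)]
    rw [abs_le] at h1 ih ⊢
    omega

lemma a2_bd {k : Cfg} (hk : Lip k) (x : ℤ × ℤ) : |k x - k 0| ≤ |x.1| + |x.2| := by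
  obtain ⟨a, b⟩ := x
  have h1 := a2_line (fun i => k (i, 0)) (fun i => by simpa using (hk (i, 0)).1) a
  have h2 := a2_line (fun i => k (a, i)) (fun i => by simpa using (hk (a, i)).2.1) b
  have h3 := abs_sub_le (k (a, b)) (k (a, 0)) (k (0, 0))
  change |k (a, b) - k (0, 0)| ≤ |a| + |b|
  linarith

/-- Extension by zero. -/
def a2_ext (S : Finset (ℤ × ℤ)) (t : S → ℤ) : Cfg := fun x => if h : x ∈ S then t ⟨x, h⟩ else 0

/-- The possible patterns. -/
def a2_T (S : Finset (ℤ × ℤ)) : Finset (S → ℤ) :=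
  Fintype.piFinset fun x : S => Finset.Icc (-(|x.1.1| + |x.1.2|)) (|x.1.1| + |x.1.2|)

lemma a2_sum {S : Finset (ℤ × ℤ)} {F : Cfg → ℝ} (hF : Loc S F) {k : Cfg} (hk : Lip k) :
    F k = ∑ t ∈ a2_T S, F (a2_ext S t) *
      if ∀ x ∈ S, k x - k 0 = a2_ext S t x then 1 else 0 := by
  rw [Finset.sum_eq_single_of_mem (fun x : S => k x - k 0)]
  · rw [if_pos fun x hx => by simp [a2_ext, hx], mul_one]
    exact hF _ _ fun x hx y hy => by simp [a2_ext, hx, hy]
  · exact Fintype.mem_piFinset.2 fun x => Finset.mem_Icc.2 (abs_le.1 (a2_bd hk x))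
  · intro t _ ht
    rw [if_neg, mul_zero]
    intro h1
    refine ht (funext fun x => ?_)
    rw [h1 x x.2, a2_ext, dif_pos x.2]

lemma a2_meas (S : Finset (ℤ × ℤ)) (η : Cfg) : MeasurableSet {k : Cfg | ∀ x ∈ S, k x = η x} := by
  have e : {k : Cfg | ∀ x ∈ S, k x = η x} = ⋂ x ∈ S, (fun k : Cfg => k x) ⁻¹' {η x} := by
    ext k; simp
  rw [e]
  exact S.measurableSet_biInter fun x _ => measurable_pi_apply x (measurableSet_singleton _)

theorem tend_avA {P : Measure Cfg} [IsProbabilityMeasure P] (h : IsLimit P) (c : ℤ × ℤ)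
    {S : Finset (ℤ × ℤ)} {F : Cfg → ℝ} (hF : Loc S F) :
    Tendsto (fun n => avA c n F) atTop (𝓝 (∫ k, F k ∂P)) := by
  have h1 : ∀ n, avA c n F = ∑ t ∈ a2_T S, F (a2_ext S t) * hexP c n S (a2_ext S t) := fun n => by
    rw [avA, Finset.sum_congr rfl fun k hk => a2_sum hF (mem_admA.1 hk).1, Finset.sum_comm,
      Finset.sum_div]
    refine Finset.sum_congr rfl fun t _ => ?_
    have e1 : {k ∈ Adm c n | ∀ x ∈ S, k x - k 0 = a2_ext S t x} =
        ↑((admA c n).filter fun k => ∀ x ∈ S, k x - k 0 = a2_ext S t x) := by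
      ext k; simp [mem_admA]
    have e2 : Adm c n = ↑(admA c n) := by
      ext k; simp [mem_admA]
    rw [hexP, e1, Set.ncard_coe_finset, e2, Set.ncard_coe_finset, ← Finset.mul_sum,
      Finset.card_filter, mul_div_assoc]
    push_cast
    rfl
  have h2 : ∫ k, F k ∂P =
      ∑ t ∈ a2_T S, F (a2_ext S t) * P.real {k | ∀ x ∈ S, k x = a2_ext S t x} := by
    have e : F =ᵐ[P] fun k => ∑ t ∈ a2_T S, F (a2_ext S t) *
        {k : Cfg | ∀ x ∈ S, k x = a2_ext S t x}.indicator 1 k := by
      filter_upwards [lip_of_lim h] with k hk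
      rw [a2_sum hF hk.1]
      refine Finset.sum_congr rfl fun t _ => ?_
      simp only [hk.2, sub_zero, Set.indicator_apply, Set.mem_ofPred_eq, Pi.one_apply]
    rw [integral_congr_ae e, integral_finsetSum _ fun t _ =>
      ((integrable_const 1).indicator (a2_meas S _)).const_mul _]
    exact Finset.sum_congr rfl fun t _ => by
      rw [integral_const_mul, integral_indicator_one (a2_meas S _)]
  simp only [h1, h2]
  exact tendsto_finsetSum _ fun t _ => (h c S _).const_mul _

end Vale.Agent.P153
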