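import Vale.Agent.P153.A1

/-! Part A: symmetries in finite volume. General lemma: a map `φ : Cfg → Cfg` with an inverse `ψ`,
mapping `Adm c n` to `Adm c' n` and back, gives avA c n (F ∘ φ) = avA c' n F (`Finset.sum_nbij'`,
`Finset.card_nbij'`). The inverse of `rot` is (i, j) ↦ (i + j, -i); `rfl0` is an involution; `hx` is
invariant (`simp only [hx, rot]`, `abs_neg`, `max_comm`, or `abs` cases and `omega`); an edge goes to an
edge, possibly reversed (`abs_sub_comm`; apply `Lip` at the other end point). -/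

open MeasureTheory Filter Topology

noncomputable section

namespace Vale.Agent.P153

theorem Lip.shift {k : Cfg} (h : Lip k) (y : ℤ × ℤ) : Lip fun x => k (x + y) := by
  intro x
  have h1 := h (x + y)
  simpa only [add_right_comm x y] using h1

theorem Lip.rot {k : Cfg} (h : Lip k) : Lip fun x => k (rot x) := by
  intro x
  have e1 : P153.rot (x + (1, 0)) = P153.rot x + (0, 1) := by
    ext <;> simp only [P153.rot, Prod.fst_add, Prod.snd_add] <;> ring
  have e2 : P153.rot (x + (0, 1)) = P153.rot x + (-1, 1) := by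
    ext <;> simp only [P153.rot, Prod.fst_add, Prod.snd_add] <;> ring
  have e3 : P153.rot (x + (-1, 1)) + (1, 0) = P153.rot x := by
    ext <;> simp only [P153.rot, Prod.fst_add, Prod.snd_add] <;> ring
  have h3 := (h (P153.rot (x + (-1, 1)))).1
  rw [e3, abs_sub_comm] at h3
  refine ⟨?_, ?_, h3⟩
  · simp only [e1]
    exact (h _).2.1
  · simp only [e2]
    exact (h _).2.2

theorem Lip.rfl0 {k : Cfg} (h : Lip k) : Lip fun x => k (rfl0 x) := by
  intro x
  have e1 : P153.rfl0 (x + (1, 0)) = P153.rfl0 x + (1, 0) := by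
    ext <;> simp only [P153.rfl0, Prod.fst_add, Prod.snd_add] <;> ring
  have e2 : P153.rfl0 (x + (0, 1)) + (-1, 1) = P153.rfl0 x := by
    ext <;> simp only [P153.rfl0, Prod.fst_add, Prod.snd_add] <;> ring
  have e3 : P153.rfl0 (x + (-1, 1)) + (0, 1) = P153.rfl0 x := by
    ext <;> simp only [P153.rfl0, Prod.fst_add, Prod.snd_add] <;> ring
  have h2 := (h (P153.rfl0 (x + (0, 1)))).2.2
  have h3 := (h (P153.rfl0 (x + (-1, 1)))).2.1
  rw [e2, abs_sub_comm] at h2
  rw [e3, abs_sub_comm] at h3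
  refine ⟨?_, h2, h3⟩
  simp only [e1]
  exact (h _).1

theorem Lip.neg {k : Cfg} (h : Lip k) : Lip fun x => -k x := by
  intro x
  simpa only [neg_sub_neg, abs_sub_comm (k x)] using h x

theorem adm_rfl0 {n : ℕ} {k : Cfg} (h : k ∈ Adm 0 n) : (fun x => k (rfl0 x)) ∈ Adm 0 n := by
  refine ⟨h.1.rfl0, fun x hn => h.2 _ ?_⟩
  simp only [hx, rfl0, sub_zero, lt_max_iff, lt_abs] at hn ⊢
  omega

theorem a3_rot {n : ℕ} {k : Cfg} (h : k ∈ Adm 0 n) : (fun x => k (rot x)) ∈ Adm 0 n := by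
  refine ⟨h.1.rot, fun x hn => h.2 _ ?_⟩
  simp only [hx, rot, sub_zero, lt_max_iff, lt_abs] at hn ⊢
  omega

theorem a3_neg {n : ℕ} {k : Cfg} (h : k ∈ Adm 0 n) : (fun x => -k x) ∈ Adm 0 n :=
  ⟨h.1.neg, fun x hn => neg_eq_zero.2 (h.2 x hn)⟩

theorem a3_av {c c' : ℤ × ℤ} {n : ℕ} (φ ψ : Cfg → Cfg) (h1 : ∀ k ∈ Adm c n, φ k ∈ Adm c' n)
    (h2 : ∀ k ∈ Adm c' n, ψ k ∈ Adm c n) (l : ∀ k, ψ (φ k) = k) (r : ∀ k, φ (ψ k) = k)
    (F : Cfg → ℝ) : avA c n (fun k => F (φ k)) = avA c' n F := by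
  have a : ∀ G : Cfg → ℝ, ∑ k ∈ admA c n, G (φ k) = ∑ k ∈ admA c' n, G k := fun G =>
    Finset.sum_nbij' φ ψ (fun k hk => mem_admA.2 (h1 k (mem_admA.1 hk)))
      (fun k hk => mem_admA.2 (h2 k (mem_admA.1 hk))) (fun k _ => l k) (fun k _ => r k)
      fun _ _ => rfl
  have b := a fun _ => 1
  simp only [Finset.sum_const, nsmul_eq_mul, mul_one] at b
  unfold avA
  rw [a F, b]

theorem avA_shift (n : ℕ) (F : Cfg → ℝ) (y : ℤ × ℤ) :
    avA y n (fun k => F fun x => k (x + y)) = avA 0 n F := by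
  refine a3_av (fun k x => k (x + y)) (fun k x => k (x + -y))
    (fun k hk => ⟨hk.1.shift y, fun x hn => hk.2 _ ?_⟩)
    (fun k hk => ⟨hk.1.shift (-y), fun x hn => hk.2 _ ?_⟩) (fun k => ?_) (fun k => ?_) F
  · rwa [add_sub_cancel_right, ← sub_zero x]
  · rwa [sub_zero, ← sub_eq_add_neg]
  · funext x
    simp only [neg_add_cancel_right]
  · funext x
    simp only [add_neg_cancel_right]

theorem avA_rot (n : ℕ) (F : Cfg → ℝ) : avA 0 n (fun k => F fun x => k (rot x)) = avA 0 n F := by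
  have e : ∀ x : ℤ × ℤ, rot (rot (rot (rot (rot (rot x))))) = x := fun x => by
    ext <;> simp only [rot] <;> ring
  exact a3_av (fun k x => k (rot x)) (fun k x => k (rot (rot (rot (rot (rot x))))))
    (fun k hk => a3_rot hk) (fun k hk => a3_rot (a3_rot (a3_rot (a3_rot (a3_rot hk)))))
    (fun k => funext fun x => congrArg k (e x)) (fun k => funext fun x => congrArg k (e x)) F

theorem avA_rfl0 (n : ℕ) (F : Cfg → ℝ) : avA 0 n (fun k => F fun x => k (rfl0 x)) = avA 0 n F := by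
  have e : ∀ x : ℤ × ℤ, rfl0 (rfl0 x) = x := fun x => by
    ext <;> simp only [rfl0] <;> ring
  exact a3_av (fun k x => k (rfl0 x)) (fun k x => k (rfl0 x))
    (fun k hk => adm_rfl0 hk) (fun k hk => adm_rfl0 hk)
    (fun k => funext fun x => congrArg k (e x)) (fun k => funext fun x => congrArg k (e x)) F

theorem avA_neg (n : ℕ) (F : Cfg → ℝ) : avA 0 n (fun k => F fun x => -k x) = avA 0 n F := by
  exact a3_av (fun k x => -k x) (fun k x => -k x) (fun k hk => a3_neg hk) (fun k hk => a3_neg hk)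
    (fun k => funext fun x => neg_neg _) (fun k => funext fun x => neg_neg _) F

end Vale.Agent.P153
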