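import Vale.Agent.P153.Defs

/-! Exponential moments of linear observables from the discrete Prekopa-Leindler inequality. -/

open MeasureTheory Filter Topology

noncomputable section

namespace Vale.Agent.P153

theorem a5_step {k : Cfg} {e : ℤ × ℤ} (h : ∀ x, |k (x + e) - k x| ≤ 1) (x : ℤ × ℤ) (n : ℤ) :
    |k (x + n • e) - k x| ≤ |n| := by
  induction n using Int.induction_on with
  | zero => simp
  | succ n ih =>
    have h1 := h (x + (n : ℤ) • e)
    have e1 : x + ((n : ℤ) + 1) • e = x + (n : ℤ) • e + e := by rw [add_smul, one_smul, add_assoc]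
    rw [e1]
    rw [abs_le] at h1 ih ⊢
    rw [abs_of_nonneg (by omega)] at ih ⊢
    omega
  | pred n ih =>
    have h1 := h (x + (-(n : ℤ) - 1) • e)
    have e1 : x + (-(n : ℤ) - 1) • e + e = x + (-(n : ℤ)) • e := by
      rw [sub_smul, one_smul, add_assoc, sub_add_cancel]
    rw [e1] at h1
    rw [abs_le] at h1 ih ⊢
    rw [abs_of_nonpos (by omega)] at ih ⊢
    omega

theorem a5_lip {k : Cfg} (h : Lip k) (h0 : k 0 = 0) (x : ℤ × ℤ) : |k x| ≤ |x.1| + |x.2| := by
  have h1 := a5_step (fun y => (h y).1) 0 x.1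
  have h2 := a5_step (fun y => (h y).2.1) (0 + x.1 • ((1, 0) : ℤ × ℤ)) x.2
  have e : (0 + x.1 • ((1, 0) : ℤ × ℤ)) + x.2 • ((0, 1) : ℤ × ℤ) = x := by
    ext <;> simp
  rw [e] at h2
  rw [h0, sub_zero] at h1
  calc |k x| = |k (0 + x.1 • ((1, 0) : ℤ × ℤ)) + (k x - k (0 + x.1 • ((1, 0) : ℤ × ℤ)))| := by
        congr 1; ring
    _ ≤ _ := (abs_add_le _ _).trans (add_le_add h1 h2)

theorem a5_meas (w : ℤ × ℤ →₀ ℝ) : Measurable (ev w) := by
  unfold ev Finsupp.sum
  refine Finset.measurable_sum _ fun x _ => Measurable.const_mul ?_ _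
  exact (Measurable.of_discrete (f := fun n : ℤ => (n : ℝ))).comp (measurable_pi_apply x)

theorem a5_loc {w : ℤ × ℤ →₀ ℝ} (hw : Zs w) : Loc (insert 0 w.support) (ev w) := by
  have key : ∀ k : Cfg, ev w k = ∑ x ∈ w.support, w x * ((k x - k 0 : ℤ) : ℝ) := by
    intro k
    have h0 : ∑ x ∈ w.support, w x = 0 := hw
    simp only [Int.cast_sub, mul_sub, Finset.sum_sub_distrib, ← Finset.sum_mul, h0, zero_mul,
      sub_zero]
    rfl
  intro k k' h
  rw [key, key]
  exact Finset.sum_congr rfl fun x hx => by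
    rw [h x (Finset.mem_insert_of_mem hx) 0 (Finset.mem_insert_self _ _)]

theorem a5_bdd {P : Measure Cfg} (h : Good P) (w : ℤ × ℤ →₀ ℝ) :
    ∃ B : ℝ, ∀ᵐ k ∂P, |ev w k| ≤ B := by
  refine ⟨∑ x ∈ w.support, |w x| * ((|x.1| + |x.2| : ℤ) : ℝ), ?_⟩
  filter_upwards [h.lip] with k hk
  refine (Finset.abs_sum_le_sum_abs _ _).trans (Finset.sum_le_sum fun x _ => ?_)
  rw [abs_mul]
  refine mul_le_mul_of_nonneg_left ?_ (abs_nonneg _)
  exact_mod_cast a5_lip hk.1 hk.2 x

theorem a5_mid (w : ℤ × ℤ →₀ ℝ) (a b m : Cfg) (hm : ∀ x, |a x + b x - 2 * m x| ≤ 1) :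
    |ev w a + ev w b - 2 * ev w m| ≤ l1 w := by
  have e : ev w a + ev w b - 2 * ev w m =
      ∑ x ∈ w.support, w x * ((a x + b x - 2 * m x : ℤ) : ℝ) := by
    simp only [ev, Finsupp.sum, Finset.mul_sum, ← Finset.sum_add_distrib,
      ← Finset.sum_sub_distrib]
    exact Finset.sum_congr rfl fun x _ => by push_cast; ring
  rw [e]
  refine (Finset.abs_sum_le_sum_abs _ _).trans (Finset.sum_le_sum fun x _ => ?_)
  rw [abs_mul]
  refine mul_le_of_le_one_right (abs_nonneg _) ?_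
  exact_mod_cast hm x

variable {P : Measure Cfg} [IsProbabilityMeasure P]

omit [IsProbabilityMeasure P] in
theorem a5_pl (h : Good P) {S : Finset (ℤ × ℤ)} {X : Cfg → ℝ} (hX : Loc S X) (hm : Measurable X)
    {L : ℝ} (hmid : ∀ a b m : Cfg, (∀ x, |a x + b x - 2 * m x| ≤ 1) → X a + X b - 2 * X m ≤ L)
    {t t' u : ℝ} (hu : 2 * u + L ≤ t + t') :
    P.real {k | t ≤ X k} * P.real {k | t' ≤ X k} ≤ P.real {k | u ≤ X k} ^ 2 := by
  have hs : ∀ s : ℝ, MeasurableSet {k | s ≤ X k} := fun s => measurableSet_le measurable_const hm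
  have hl : ∀ s : ℝ, Loc S ({k | s ≤ X k}.indicator 1) := fun s k k' hk => by
    simp only [Set.indicator, Set.mem_ofPred_eq, hX k k' hk, Pi.one_apply]
  have h0 : ∀ (s : ℝ) (k : Cfg), (0 : ℝ) ≤ {k | s ≤ X k}.indicator 1 k := fun s k =>
    Set.indicator_nonneg (fun _ _ => zero_le_one) k
  rw [← integral_indicator_one (hs t), ← integral_indicator_one (hs t'),
    ← integral_indicator_one (hs u)]
  refine h.pl S _ _ _ (hl t) (hl t') (hl u) (h0 t) (h0 t') (h0 u) fun a b _ _ => ?_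
  by_cases ha : t ≤ X a
  · by_cases hb : t' ≤ X b
    · have h1 := hmid a b (fun x => (a x + b x) / 2) fun x => by rw [abs_le]; omega
      have h2 := hmid a b (fun x => (a x + b x + 1) / 2) fun x => by rw [abs_le]; omega
      have h3 : u ≤ X fun x => (a x + b x) / 2 := by linarith
      have h4 : u ≤ X fun x => (a x + b x + 1) / 2 := by linarith
      simp only [Set.indicator, Set.mem_ofPred_eq, ha, hb, h3, h4, if_true, Pi.one_apply, le_refl]
    · rw [Set.indicator_of_notMem (s := {k | t' ≤ X k}) hb, mul_zero]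
      exact mul_nonneg (h0 _ _) (h0 _ _)
  · rw [Set.indicator_of_notMem (s := {k | t ≤ X k}) ha, zero_mul]
    exact mul_nonneg (h0 _ _) (h0 _ _)

theorem a5_tail (h : Good P) {S : Finset (ℤ × ℤ)} {X : Cfg → ℝ} (hX : Loc S X)
    (hm : Measurable X) {L : ℝ} (hL : 0 < L) (hi : Integrable (fun k => X k ^ 2) P)
    (h2 : ∫ k, X k ^ 2 ∂P ≤ L ^ 2)
    (hmid : ∀ a b m : Cfg, (∀ x, |a x + b x - 2 * m x| ≤ 1) → X a + X b - 2 * X m ≤ L) (n : ℕ) :
    P.real {k | 5 * n * L ≤ X k} ≤ (3 / 5) ^ n := by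
  have hch : P.real {k | 4 * L ^ 2 ≤ X k ^ 2} ≤ 1 / 4 := by
    have h1 := mul_meas_ge_le_integral_of_nonneg (Eventually.of_forall fun k => sq_nonneg (X k))
      hi (4 * L ^ 2)
    have h3 : 0 < L ^ 2 := by positivity
    nlinarith
  have hup : P.real {k | 2 * L ≤ X k} ≤ 1 / 4 :=
    (measureReal_mono fun k (hk : 2 * L ≤ X k) => show 4 * L ^ 2 ≤ X k ^ 2 by nlinarith).trans hch
  have hq : 3 / 4 ≤ P.real {k | -(2 * L) ≤ X k} := by
    have h1 : P.real {k | -(2 * L) ≤ X k}ᶜ ≤ 1 / 4 :=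
      (measureReal_mono fun k (hk : ¬ -(2 * L) ≤ X k) =>
        show 4 * L ^ 2 ≤ X k ^ 2 by nlinarith [not_le.1 hk]).trans hch
    rw [probReal_compl_eq_one_sub (measurableSet_le measurable_const hm)] at h1
    linarith
  have key : ∀ n : ℕ, 1 ≤ n → P.real {k | (5 * n - 3) * L ≤ X k} ≤ 3 / 4 * (3 / 5) ^ (n + 1) := by
    intro n
    induction n using Nat.strong_induction_on with
    | _ n ih =>
      intro hn
      rcases eq_or_lt_of_le hn with rfl | hn'
      · have e : (5 * ((1 : ℕ) : ℝ) - 3) * L = 2 * L := by push_cast; ring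
        rw [e]
        refine hup.trans (by norm_num)
      · have h1 := ih (n / 2) (by omega) (by omega)
        have h3 : (2 * (n / 2 : ℕ) : ℝ) ≤ n := by exact_mod_cast Nat.mul_div_le n 2
        have h4 := a5_pl h hX hm hmid (t := (5 * n - 3) * L) (t' := -(2 * L))
          (u := (5 * (n / 2 : ℕ) - 3) * L) (by nlinarith)
        have h5 := pow_le_pow_left₀ measureReal_nonneg h1 2
        have h6 : ((3 / 5 : ℝ) ^ (n / 2 + 1)) ^ 2 ≤ (3 / 5) ^ (n + 1) := by
          rw [← pow_mul]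
          exact pow_le_pow_of_le_one (by norm_num) (by norm_num) (by omega)
        have h7 : P.real {k | (5 * n - 3) * L ≤ X k} * (3 / 4) ≤
            P.real {k | (5 * n - 3) * L ≤ X k} * P.real {k | -(2 * L) ≤ X k} :=
          mul_le_mul_of_nonneg_left hq measureReal_nonneg
        rw [mul_pow] at h5
        linarith
  rcases Nat.eq_zero_or_pos n with rfl | hn
  · rw [pow_zero]
    exact measureReal_le_one
  · refine (measureReal_mono fun k (hk : 5 * n * L ≤ X k) =>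
      show (5 * n - 3) * L ≤ X k by nlinarith).trans ((key n hn).trans ?_)
    have : (0 : ℝ) < (3 / 5) ^ n := by positivity
    rw [pow_succ]
    nlinarith

theorem a5_exp {X : Cfg → ℝ} (hm : Measurable X) {B L : ℝ} (hL : 0 < L)
    (hB : ∀ᵐ k ∂P, |X k| ≤ B) (ht : ∀ n : ℕ, P.real {k | 5 * n * L ≤ |X k|} ≤ 2 * (3 / 5) ^ n) :
    ∫ k, Real.exp (|X k| / (20 * L)) ∂P ≤ 20 := by
  have hs : ∀ n : ℕ, MeasurableSet {k | 5 * n * L ≤ |X k|} := fun n =>
    measurableSet_le measurable_const hm.abs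
  have hi : ∀ n : ℕ, Integrable
      (fun k => {k | 5 * n * L ≤ |X k|}.indicator (fun _ => (4 / 3 : ℝ) ^ (n + 1)) k) P :=
    fun n => (integrable_const _).indicator (hs n)
  set N := ⌊B / (5 * L)⌋₊ + 1
  have h1 : ∫ k, Real.exp (|X k| / (20 * L)) ∂P ≤ ∫ k, ∑ n ∈ Finset.range N,
      {k | 5 * n * L ≤ |X k|}.indicator (fun _ => (4 / 3 : ℝ) ^ (n + 1)) k ∂P := by
    refine integral_mono_of_nonneg (Eventually.of_forall fun k => (Real.exp_pos _).le)
      (integrable_finsetSum _ fun n _ => hi n) ?_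
    filter_upwards [hB] with k hk
    have h5 : 0 < 5 * L := by positivity
    have hn : ⌊|X k| / (5 * L)⌋₊ ∈ Finset.range N :=
      Finset.mem_range.2 (Nat.lt_succ_of_le (Nat.floor_mono (by gcongr)))
    refine le_trans ?_ (Finset.single_le_sum (f := fun n : ℕ =>
      {k | 5 * n * L ≤ |X k|}.indicator (fun _ => (4 / 3 : ℝ) ^ (n + 1)) k)
      (fun n _ => Set.indicator_nonneg (fun _ _ => by positivity) k) hn)
    have a1 : (⌊|X k| / (5 * L)⌋₊ : ℝ) ≤ |X k| / (5 * L) := Nat.floor_le (by positivity)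
    have a2 : |X k| / (5 * L) < ⌊|X k| / (5 * L)⌋₊ + 1 := Nat.lt_floor_add_one _
    rw [le_div_iff₀ h5] at a1
    rw [Set.indicator_of_mem (show k ∈ {k' | 5 * (⌊|X k| / (5 * L)⌋₊ : ℕ) * L ≤ |X k'|} from
      show 5 * (⌊|X k| / (5 * L)⌋₊ : ℝ) * L ≤ |X k| by linarith)]
    have a3 : Real.exp (1 / 4) ≤ 4 / 3 :=
      (Real.exp_bound_div_one_sub_of_interval (by norm_num) (by norm_num)).trans (by norm_num)
    have a4 : |X k| / (20 * L) = |X k| / (5 * L) * (1 / 4) := by field_simp; ring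
    calc Real.exp (|X k| / (20 * L))
        ≤ Real.exp ((⌊|X k| / (5 * L)⌋₊ + 1 : ℕ) * (1 / 4)) := by
          rw [a4]
          push_cast
          gcongr
      _ = Real.exp (1 / 4) ^ (⌊|X k| / (5 * L)⌋₊ + 1) := Real.exp_nat_mul _ _
      _ ≤ _ := pow_le_pow_left₀ (Real.exp_pos _).le a3 _
  refine h1.trans ?_
  rw [integral_finsetSum _ fun n _ => hi n]
  have h2 : ∀ n ∈ Finset.range N, ∫ k, {k | 5 * n * L ≤ |X k|}.indicator
      (fun _ => (4 / 3 : ℝ) ^ (n + 1)) k ∂P ≤ 8 / 3 * (4 / 5) ^ n := by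
    intro n _
    rw [integral_indicator_const _ (hs n), smul_eq_mul]
    refine (mul_le_mul_of_nonneg_right (ht n) (by positivity)).trans (le_of_eq ?_)
    have e : (4 / 5 : ℝ) ^ n = (3 / 5) ^ n * (4 / 3) ^ n := by rw [← mul_pow]; norm_num
    rw [e, pow_succ]
    ring
  refine (Finset.sum_le_sum h2).trans ?_
  rw [← Finset.mul_sum, geom_sum_eq (by norm_num)]
  have : (0 : ℝ) < (4 / 5) ^ N := by positivity
  have e : ((4 / 5 : ℝ) ^ N - 1) / (4 / 5 - 1) = 5 * (1 - (4 / 5) ^ N) := by ring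
  rw [e]
  linarith

theorem mom_of_good {P : Measure Cfg} [IsProbabilityMeasure P] (h : Good P) : Mom P := by
  refine ⟨20, by norm_num, fun w hw L hL hle => ?_⟩
  obtain ⟨B, hB⟩ := a5_bdd h w
  have hm := a5_meas w
  have hl1 : 0 ≤ l1 w := Finset.sum_nonneg fun _ _ => abs_nonneg _
  have hs := Real.sqrt_nonneg (∫ k, ev w k ^ 2 ∂P)
  have hi : Integrable (fun k => ev w k ^ 2) P := by
    refine Integrable.of_bound (hm.pow_const 2).aestronglyMeasurable (B ^ 2) ?_
    filter_upwards [hB] with k hk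
    rw [Real.norm_eq_abs, abs_pow]
    exact pow_le_pow_left₀ (abs_nonneg _) hk 2
  have h2 : ∫ k, ev w k ^ 2 ∂P ≤ L ^ 2 := by
    rw [← Real.sqrt_le_left hL.le]
    linarith
  have t1 := a5_tail h (a5_loc hw) hm hL hi h2 fun a b m hab => by
    linarith [(abs_le.1 (a5_mid w a b m hab)).2]
  have t2 := a5_tail h (X := fun k => -ev w k) (S := insert 0 w.support)
    (fun k k' hk => by simp only [a5_loc hw k k' hk]) hm.neg hL (by simpa only [neg_sq] using hi)
    (by simpa only [neg_sq] using h2) fun a b m hab => by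
      linarith [(abs_le.1 (a5_mid w a b m hab)).1]
  refine a5_exp hm hL hB fun n => ?_
  have e : {k | 5 * n * L ≤ |ev w k|} = {k | 5 * n * L ≤ ev w k} ∪ {k | 5 * n * L ≤ -ev w k} := by
    ext k
    simp only [Set.mem_ofPred_eq, Set.mem_union, le_abs]
  rw [e]
  refine (measureReal_union_le _ _).trans ?_
  linarith [t1 n, t2 n]

end Vale.Agent.P153
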