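import Vale.Agent.P153.H1S

/-! The weights of a test function. -/

open MeasureTheory Filter Topology

noncomputable section

namespace Vale.Agent.P153

open Classical in
/-- The finitely supported weight of `fld δ f`. -/
def Wt (δ : ℝ) (f : ℂ → ℝ) : ℤ × ℤ →₀ ℝ :=
  if h : (Function.support (wt δ f)).Finite then Finsupp.ofSupportFinite _ h else 0

variable {δ : ℝ} {f g : ℂ → ℝ}

theorem wt_supp (hδ : 0 < δ) {x : ℤ × ℤ} (h : wt δ f x ≠ 0) :
    ∃ z ∈ tsupport f, ‖z - δ * pos x‖ < δ := by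
  by_contra h0
  refine h ?_
  have e : ∀ z : ℂ, hat (z / δ - pos x) * f z = 0 := fun z => by
    by_contra h1
    refine h0 ⟨z, subset_tsupport _ (right_ne_zero_of_mul h1), ?_⟩
    have h2 := hat_supp (left_ne_zero_of_mul h1)
    have h3 : (δ : ℂ) ≠ 0 := Complex.ofReal_ne_zero.2 hδ.ne'
    rw [show z - δ * pos x = δ * (z / δ - pos x) by field_simp, norm_mul, Complex.norm_real,
      Real.norm_of_nonneg hδ.le]
    exact mul_lt_of_lt_one_right hδ h2
  simp only [wt, e, integral_zero]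

theorem h2_fin (hδ : 0 < δ) (hs : HasCompactSupport f) : ∃ T : Finset (ℤ × ℤ),
    ∀ z, f z ≠ 0 → ∀ x ∉ T, hat (z / δ - pos x) = 0 := by
  obtain ⟨R, hR⟩ := hs.isBounded.exists_norm_le
  refine ⟨(pos_finite 0 (R / δ + 1)).toFinset, fun z hz x hx => by_contra fun h => hx ?_⟩
  have h1 := hat_supp h
  have h2 : ‖z / δ‖ ≤ R / δ := by
    rw [norm_div, Complex.norm_real, Real.norm_of_nonneg hδ.le]
    exact div_le_div_of_nonneg_right (hR z (subset_tsupport _ hz)) hδ.le
  have h3 := norm_sub_le (z / δ - pos x) (z / δ)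
  rw [Set.Finite.mem_toFinset]
  show ‖0 - pos x‖ ≤ R / δ + 1
  rw [show 0 - pos x = z / δ - pos x - z / δ by ring]
  linarith

theorem h2_mem {T : Finset (ℤ × ℤ)} (hT : ∀ z, f z ≠ 0 → ∀ x ∉ T, hat (z / δ - pos x) = 0)
    {x : ℤ × ℤ} (h : wt δ f x ≠ 0) : x ∈ T := by
  by_contra h0
  refine h ?_
  have e : ∀ z : ℂ, hat (z / δ - pos x) * f z = 0 := fun z => by
    by_cases hz : f z = 0
    · rw [hz, mul_zero]
    · rw [hT z hz x h0, zero_mul]
  simp only [wt, e, integral_zero]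

theorem h2_sum (hc : Continuous f) (hs : HasCompactSupport f) {T : Finset (ℤ × ℤ)}
    (hT : ∀ z, f z ≠ 0 → ∀ x ∉ T, hat (z / δ - pos x) = 0) (c : ℤ × ℤ → ℝ) :
    Integrable (fun z : ℂ => (∑ᶠ x, c x * hat (z / δ - pos x)) * f z) ∧
      ∫ z : ℂ, (∑ᶠ x, c x * hat (z / δ - pos x)) * f z = ∑ x ∈ T, c x * wt δ f x := by
  have e : (fun z : ℂ => (∑ᶠ x, c x * hat (z / δ - pos x)) * f z) =
      fun z => ∑ x ∈ T, c x * (hat (z / δ - pos x) * f z) := funext fun z => by
    by_cases hz : f z = 0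
    · simp [hz]
    · rw [finsum_eq_sum_of_support_subset (s := T) _ fun x hx => by_contra fun h =>
        hx (by simp only [hT z hz x h, mul_zero]), Finset.sum_mul]
      simp only [mul_assoc]
  have h1 : ∀ x, Integrable fun z : ℂ => c x * (hat (z / δ - pos x) * f z) := fun x =>
    (((hat_cont.comp (by fun_prop)).mul hc).integrable_of_hasCompactSupport
      hs.mul_left).const_mul _
  rw [e]
  refine ⟨integrable_finsetSum _ fun x _ => h1 x, ?_⟩
  rw [integral_finsetSum _ fun x _ => h1 x]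
  simp only [integral_const_mul, wt]

theorem h2_int (hδ : 0 < δ) (hf : Test f) (k : Cfg) :
    Integrable fun z : ℂ => interp k (z / δ) * f z := by
  obtain ⟨T, hT⟩ := h2_fin hδ hf.2.1
  exact (h2_sum hf.1.continuous hf.2.1 hT fun x => (k x : ℝ)).1

theorem Wt_apply (hδ : 0 < δ) (hs : HasCompactSupport f) (x : ℤ × ℤ) : Wt δ f x = wt δ f x := by
  obtain ⟨T, hT⟩ := h2_fin hδ hs
  have h : (Function.support (wt δ f)).Finite := T.finite_toSet.subset fun y hy => h2_mem hT hy
  rw [Wt, dif_pos h, Finsupp.ofSupportFinite_coe]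

theorem h2_wsum (hδ : 0 < δ) (hs : HasCompactSupport f) {T : Finset (ℤ × ℤ)}
    (hT : ∀ z, f z ≠ 0 → ∀ x ∉ T, hat (z / δ - pos x) = 0) (G : ℤ × ℤ → ℝ → ℝ)
    (hG : ∀ x, G x 0 = 0) : (Wt δ f).sum G = ∑ x ∈ T, G x (wt δ f x) := by
  rw [Finsupp.sum_of_support_subset _ (s := T) (fun x hx => h2_mem hT ?_) _ fun x _ => hG x]
  · simp only [Wt_apply hδ hs]
  · rw [← Wt_apply hδ hs]
    exact Finsupp.mem_support_iff.1 hx

/-- On the support of `f` only a fixed finite set of vertices contributes to `interp`. -/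
theorem fld_eq (hδ : 0 < δ) (hc : Continuous f) (hs : HasCompactSupport f) (k : Cfg) :
    fld δ f k = ev (Wt δ f) k := by
  obtain ⟨T, hT⟩ := h2_fin hδ hs
  rw [ev, h2_wsum hδ hs hT (fun x a => a * (k x : ℝ)) fun x => zero_mul _]
  refine (h2_sum hc hs hT fun x => (k x : ℝ)).2.trans ?_
  simp only [mul_comm]

/-- Use `hat_sum`. -/
theorem Wt_zs (hδ : 0 < δ) (hf : Test f) : Zs (Wt δ f) := by
  obtain ⟨T, hT⟩ := h2_fin hδ hf.2.1
  have h := (h2_sum hf.1.continuous hf.2.1 hT fun _ => 1).2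
  simp only [one_mul, hat_sum, hf.2.2] at h
  rw [Zs, h2_wsum hδ hf.2.1 hT _ fun _ => rfl, ← h]

theorem Wt_l1 (hδ : 0 < δ) (hc : Continuous f) (hs : HasCompactSupport f) :
    l1 (Wt δ f) ≤ ∫ z, |f z| := by
  obtain ⟨T, hT⟩ := h2_fin hδ hs
  have h := (h2_sum (f := fun z => |f z|) hc.abs (hs.comp_left (g := abs) abs_zero)
    (fun z hz => hT z (abs_ne_zero.1 hz)) fun _ => 1).2
  simp only [one_mul, hat_sum] at h
  rw [l1, h2_wsum hδ hs hT _ fun _ => abs_zero, h]
  refine Finset.sum_le_sum fun x _ => abs_integral_le_integral_abs.trans (le_of_eq ?_)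
  simp only [wt, abs_mul, abs_of_nonneg (hat_nonneg _)]

theorem fld_lin (hδ : 0 < δ) (hf : Test f) (hg : Test g) (a b : ℝ) (k : Cfg) :
    fld δ (fun z => a * f z + b * g z) k = a * fld δ f k + b * fld δ g k := by
  simp only [fld]
  rw [← integral_const_mul, ← integral_const_mul,
    ← integral_add ((h2_int hδ hf k).const_mul a) ((h2_int hδ hg k).const_mul b)]
  congr 1
  funext z
  ring

theorem fld_sum (hδ : 0 < δ) {ι : Type} (s : Finset ι) (a : ι → ℝ) {F : ι → ℂ → ℝ}
    (hF : ∀ i, Test (F i)) (k : Cfg) :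
    fld δ (fun z => ∑ i ∈ s, a i * F i z) k = ∑ i ∈ s, a i * fld δ (F i) k := by
  simp only [fld, ← integral_const_mul]
  rw [← integral_finsetSum _ fun i _ => (h2_int hδ (hF i) k).const_mul (a i)]
  congr 1
  funext z
  rw [Finset.mul_sum]
  exact Finset.sum_congr rfl fun i _ => by ring

theorem ev_loc {w : ℤ × ℤ →₀ ℝ} (hw : Zs w) : Loc w.support (ev w) := by
  intro k k' h
  rcases w.support.eq_empty_or_nonempty with h0 | ⟨y, hy⟩
  · simp only [ev, Finsupp.sum, h0, Finset.sum_empty]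
  · have e : ∀ x ∈ w.support, w x * (k x : ℝ) = w x * k' x + w x * ((k y : ℝ) - k' y) :=
      fun x hx => by
        have h1 : (k x : ℝ) - k y = k' x - k' y := by exact_mod_cast h x hx y hy
        linear_combination w x * h1
    have h2 : ∑ x ∈ w.support, w x = 0 := hw
    simp only [ev, Finsupp.sum]
    rw [Finset.sum_congr rfl e, Finset.sum_add_distrib, ← Finset.sum_mul, h2, zero_mul, add_zero]

theorem fld_loc (hδ : 0 < δ) (hf : Test f) : Loc (Wt δ f).support (fld δ f) := by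
  intro k k' h
  rw [fld_eq hδ hf.1.continuous hf.2.1, fld_eq hδ hf.1.continuous hf.2.1]
  exact ev_loc (Wt_zs hδ hf) k k' h

/-- Rounding: a zero sum weight sees the two roundings of the midpoint within its norm. -/
theorem ev_round (w : ℤ × ℤ →₀ ℝ) (a b : Cfg) :
    ev w (fun x => (a x + b x) / 2) + ev w (fun x => (a x + b x + 1) / 2) = ev w a + ev w b ∧
    |ev w (fun x => (a x + b x) / 2) - ev w (fun x => (a x + b x + 1) / 2)| ≤ l1 w := by
  simp only [ev, l1, Finsupp.sum, ← Finset.sum_add_distrib, ← Finset.sum_sub_distrib, ← mul_add,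
    ← mul_sub]
  constructor
  · refine Finset.sum_congr rfl fun x _ => ?_
    rw [← Int.cast_add, ← Int.cast_add]
    congr 2
    omega
  · refine (Finset.abs_sum_le_sum_abs _ _).trans (Finset.sum_le_sum fun x _ => ?_)
    rw [abs_mul, ← Int.cast_sub, ← Int.cast_abs]
    refine mul_le_of_le_one_right (abs_nonneg _) ?_
    have h : |(a x + b x) / 2 - (a x + b x + 1) / 2| ≤ 1 := by
      rw [abs_le]
      omega
    exact_mod_cast h

end Vale.Agent.P153

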