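import Vale.Agent.P153.BD
import Vale.Agent.P153.H2
import Vale.Agent.P153.T3

/-! The three colours. With S c f = sum of Wt delta f x over x.1 - x.2 = c mod 3: qf c3 = 0 * 0 - sum_c S c f * S c g,
|S c g| <= int |g| (Wt_l1), S 0 f + S 1 f + S 2 f = 0, and wt delta f (x + (1,0)) = wt delta (tr (-delta) f) x, so
|S (c+1) f - S c f| <= l1 (Wt delta (tr (-delta) f - f)) <= int |tr (-delta) f - f| -> 0 (l1_tr). -/

open MeasureTheory Filter Topology

noncomputable section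

namespace Vale.Agent.P153

theorem B3_le (u : ℤ × ℤ →₀ ℝ) {φ : ℤ × ℤ → ℝ} {M : ℝ} (hφ : ∀ x, |φ x| ≤ M) :
    |u.sum fun x a => a * φ x| ≤ M * l1 u := by
  rw [l1, Finsupp.sum, Finsupp.sum, Finset.mul_sum]
  refine (Finset.abs_sum_le_sum_abs _ _).trans (Finset.sum_le_sum fun x _ => ?_)
  rw [abs_mul, mul_comm]
  exact mul_le_mul_of_nonneg_right (hφ x) (abs_nonneg _)

theorem B3_shift {w u : ℤ × ℤ →₀ ℝ} {e : ℤ × ℤ} (h : ∀ x, u x = w (x + e) - w x)
    (φ : ℤ × ℤ → ℝ) :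
    ((w.sum fun x a => a * φ (x - e)) - w.sum fun x a => a * φ x) =
      u.sum fun x a => a * φ x := by
  have h1 : u = Finsupp.equivMapDomain (Equiv.subRight e) w - w := by
    ext x
    rw [h x, Finsupp.sub_apply, Finsupp.equivMapDomain_apply]
    rfl
  rw [h1, Finsupp.sum_sub_index fun _ _ _ => sub_mul _ _ _, Finsupp.sum_equivMapDomain]
  rfl

theorem B3_c3 (p : ℤ × ℤ) : |c3 p| ≤ 1 := by
  unfold c3
  split_ifs <;> simp

theorem B3_three (p : ℤ × ℤ) : c3 p + c3 (p - (1, 0)) + c3 (p - (1, 0) - (1, 0)) = 2 := by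
  simp only [c3, Prod.fst_sub, Prod.snd_sub]
  split_ifs <;> first | omega | norm_num

theorem B3_D {w u : ℤ × ℤ →₀ ℝ} (hw : Zs w) (h : ∀ x, u x = w (x + (1, 0)) - w x)
    (y : ℤ × ℤ) : |w.sum fun x a => a * c3 (x - y)| ≤ l1 u := by
  have h1 := B3_shift h fun x => c3 (x - y)
  have h2 := B3_shift h fun x => c3 (x - (1, 0) - y)
  have h3 := abs_le.1 (B3_le u (φ := fun x => c3 (x - y)) fun x => B3_c3 _)
  have h4 := abs_le.1 (B3_le u (φ := fun x => c3 (x - (1, 0) - y)) fun x => B3_c3 _)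
  have h5 : (w.sum fun x a => a * c3 (x - y)) + (w.sum fun x a => a * c3 (x - (1, 0) - y)) +
      (w.sum fun x a => a * c3 (x - (1, 0) - (1, 0) - y)) = 0 := by
    have h6 : (∑ x ∈ w.support, w x) = 0 := hw
    simp only [Finsupp.sum, ← Finset.sum_add_distrib, ← mul_add]
    rw [Finset.sum_congr rfl fun x _ => show _ = w x * 2 by
      rw [← B3_three (x - y), sub_right_comm x (1, 0) y, sub_right_comm _ (1, 0) y,
        sub_right_comm x (1, 0) y], ← Finset.sum_mul, h6, zero_mul]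
  rw [abs_le]
  constructor <;> linarith [h3.1, h3.2, h4.1, h4.2]

theorem B3_qf {w u : ℤ × ℤ →₀ ℝ} (hw : Zs w) (h : ∀ x, u x = w (x + (1, 0)) - w x)
    (w' : ℤ × ℤ →₀ ℝ) : |qf c3 w w'| ≤ l1 u * l1 w' := by
  have h1 : qf c3 w w' = w'.sum fun y b => b * w.sum fun x a => a * c3 (x - y) := by
    simp only [qf, Finsupp.sum, Finset.mul_sum]
    rw [Finset.sum_comm]
    exact Finset.sum_congr rfl fun y _ => Finset.sum_congr rfl fun x _ => by ring
  rw [h1]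
  exact B3_le w' (B3_D hw h)

theorem B3_wt {δ : ℝ} (hδ : 0 < δ) {f : ℂ → ℝ} (hf : Cc f) (x : ℤ × ℤ) :
    wt δ (fun z => tr (-(δ : ℂ)) f z - f z) x = wt δ f (x + (1, 0)) - wt δ f x := by
  have hi : ∀ {v : ℂ → ℝ}, Cc v → Integrable fun z : ℂ => hat (z / δ - pos x) * v z :=
    fun hv => ((hat_cont.comp (by fun_prop)).mul hv.1.continuous).integrable_of_hasCompactSupport
      hv.2.mul_left
  have h3 : (δ : ℂ) ≠ 0 := Complex.ofReal_ne_zero.2 hδ.ne'
  simp only [wt, mul_sub]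
  rw [integral_sub (hi (hf.tr _)) (hi hf),
    ← integral_add_right_eq_self (fun z : ℂ => hat (z / δ - pos (x + (1, 0))) * f z) δ]
  congr 2
  funext z
  have h4 : (z + δ) / δ - pos (x + (1, 0)) = z / δ - pos x := by
    simp only [pos, Prod.fst_add, Prod.snd_add]
    push_cast
    field_simp
    ring
  simp only [tr, h4, sub_neg_eq_add]

theorem B3_l1 (w : ℤ × ℤ →₀ ℝ) : 0 ≤ l1 w := Finset.sum_nonneg fun _ _ => abs_nonneg _

theorem colour {f g : ℂ → ℝ} (hf : Test f) (hg : Test g) :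
    Tendsto (fun δ => qf c3 (Wt δ f) (Wt δ g)) (𝓝[>] 0) (𝓝 0) := by
  have h0 : Tendsto (fun δ : ℝ => -(δ : ℂ)) (𝓝[>] 0) (𝓝 0) := by
    have h : Continuous fun δ : ℝ => -(δ : ℂ) := by fun_prop
    simpa using (h.tendsto 0).mono_left nhdsWithin_le_nhds
  have h1 := ((l1_tr hf.cc).comp h0).mul_const (∫ z, |g z|)
  rw [zero_mul] at h1
  refine squeeze_zero_norm' ?_ h1
  filter_upwards [self_mem_nhdsWithin] with δ hδ
  have hδ' : 0 < δ := hδ
  have h2 := ((hf.tr (-(δ : ℂ))).sub hf).cc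
  have h3 := B3_qf (u := Wt δ fun z => tr (-(δ : ℂ)) f z - f z) (Wt_zs hδ' hf) (fun x => by
    rw [Wt_apply hδ' h2.2, Wt_apply hδ' hf.2.1, Wt_apply hδ' hf.2.1, B3_wt hδ' hf.cc]) (Wt δ g)
  have h4 := Wt_l1 hδ' h2.1.continuous h2.2
  exact h3.trans (mul_le_mul h4 (Wt_l1 hδ' hg.1.continuous hg.2.1) (B3_l1 _)
    ((B3_l1 _).trans h4))

end Vale.Agent.P153
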