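import Vale.Agent.P153.Defs

/-! The hat function. -/

open MeasureTheory Filter Topology

noncomputable section

namespace Vale.Agent.P153

theorem h1_s : (√3 : ℝ) * √3 = 3 := Real.mul_self_sqrt (by norm_num)

theorem h1_pos : (0 : ℝ) < √3 := Real.sqrt_pos.2 (by norm_num)

theorem h1_re : om.re = 1 / 2 := rfl

theorem h1_im : om.im = √3 / 2 := rfl

theorem om_norm : ‖om‖ = 1 := by
  have h : ‖om‖ ^ 2 = 1 := by
    rw [Complex.sq_norm, Complex.normSq_apply, h1_re, h1_im]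
    nlinarith [h1_s]
  have h0 := norm_nonneg om
  nlinarith

theorem om_sq : om ^ 2 = om - 1 := by
  apply Complex.ext
  · rw [pow_two, Complex.mul_re, Complex.sub_re, h1_re, h1_im, Complex.one_re]
    nlinarith [h1_s]
  · rw [pow_two, Complex.mul_im, Complex.sub_im, h1_re, h1_im, Complex.one_im]
    ring

theorem om_cube : om ^ 3 = -1 := by
  have h := om_sq
  linear_combination (om + 1) * h

theorem pos_add (x y : ℤ × ℤ) : pos (x + y) = pos x + pos y := by
  simp only [pos, Prod.fst_add, Prod.snd_add]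
  push_cast
  ring

theorem pos_neg (x : ℤ × ℤ) : pos (-x) = -pos x := by
  simp only [pos, Prod.fst_neg, Prod.snd_neg]
  push_cast
  ring

theorem pos_re (x : ℤ × ℤ) : (pos x).re = x.1 + x.2 / 2 := by
  simp only [pos, Complex.add_re, Complex.mul_re, h1_re, h1_im, Complex.intCast_re,
    Complex.intCast_im]
  ring

theorem pos_im (x : ℤ × ℤ) : (pos x).im = x.2 * (√3 / 2) := by
  simp only [pos, Complex.add_im, Complex.mul_im, h1_re, h1_im, Complex.intCast_re,
    Complex.intCast_im]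
  ring

theorem pos_rot (x : ℤ × ℤ) : pos (rot x) = om * pos x := by
  simp only [pos, rot]
  push_cast
  linear_combination (-(x.2 : ℂ)) * om_sq

theorem pos_rfl0 (x : ℤ × ℤ) : pos (rfl0 x) = (starRingEnd ℂ) (pos x) := by
  apply Complex.ext
  · rw [Complex.conj_re, pos_re, pos_re]
    simp only [rfl0]
    push_cast
    ring
  · rw [Complex.conj_im, pos_im, pos_im]
    simp only [rfl0]
    push_cast
    ring

theorem rot_bij : Function.Bijective rot := by
  constructor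
  · intro x y h
    simp only [rot, Prod.mk.injEq] at h
    apply Prod.ext <;> omega
  · intro y
    refine ⟨(y.1 + y.2, -y.1), ?_⟩
    apply Prod.ext <;> simp only [rot] <;> omega

theorem rfl0_rfl0 (x : ℤ × ℤ) : rfl0 (rfl0 x) = x := by
  apply Prod.ext <;> simp only [rfl0] <;> omega

theorem h1_coord (z : ℂ) : ∃ u v : ℝ, z.re = u + v / 2 ∧ z.im = v * (√3 / 2) := by
  refine ⟨z.re - z.im / √3, 2 * z.im / √3, by ring, ?_⟩
  have := h1_pos
  field_simp

theorem h1_normsq {z : ℂ} {u v : ℝ} (h1 : z.re = u + v / 2) (h2 : z.im = v * (√3 / 2)) :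
    ‖z‖ ^ 2 = u ^ 2 + u * v + v ^ 2 := by
  rw [Complex.sq_norm, Complex.normSq_apply, h1, h2]
  linear_combination (v ^ 2 / 4) * h1_s

theorem h1_hat {z : ℂ} {u v : ℝ} (h1 : z.re = u + v / 2) (h2 : z.im = v * (√3 / 2)) :
    hat z = max 0 (1 - max |u| (max |v| |u + v|)) := by
  have hp := h1_pos
  have e : z.im / √3 = v / 2 := by
    rw [h2]
    field_simp
  have e2 : 2 * z.im / √3 = v := by
    rw [mul_div_assoc, e]
    ring
  have e1 : z.re - z.im / √3 = u := by
    rw [e, h1]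
    ring
  have e3 : z.re + z.im / √3 = u + v := by
    rw [e, h1]
    ring
  rw [hat, e1, e2, e3]

/-- Every point is within distance one of a vertex (take floors of the two coordinates and
choose the better of the corners; the bound `2` is enough). -/
theorem exists_pos_near (z : ℂ) : ∃ x : ℤ × ℤ, ‖z - pos x‖ ≤ 2 := by
  obtain ⟨u, v, h1, h2⟩ := h1_coord z
  refine ⟨(⌊u⌋, ⌊v⌋), ?_⟩
  have hn : ‖z - pos (⌊u⌋, ⌊v⌋)‖ ^ 2 = (u - ⌊u⌋) ^ 2 + (u - ⌊u⌋) * (v - ⌊v⌋) + (v - ⌊v⌋) ^ 2 := by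
    apply h1_normsq
    · rw [Complex.sub_re, pos_re, h1]
      ring
    · rw [Complex.sub_im, pos_im, h2]
      ring
  have a1 := Int.floor_le u
  have a2 := Int.lt_floor_add_one u
  have b1 := Int.floor_le v
  have b2 := Int.lt_floor_add_one v
  have h0 := norm_nonneg (z - pos (⌊u⌋, ⌊v⌋))
  have h3 : ‖z - pos (⌊u⌋, ⌊v⌋)‖ ^ 2 ≤ 2 ^ 2 := by
    rw [hn]
    nlinarith
  exact (pow_le_pow_iff_left₀ h0 (by norm_num) (by norm_num)).1 h3

/-- Finitely many vertices in a ball. -/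
theorem pos_finite (z : ℂ) (R : ℝ) : {x : ℤ × ℤ | ‖z - pos x‖ ≤ R}.Finite := by
  obtain ⟨N, hN⟩ := exists_nat_ge (2 * (‖z‖ + R))
  refine ((Set.finite_Icc (-(N : ℤ)) N).prod (Set.finite_Icc (-(N : ℤ)) N)).subset ?_
  intro x hx
  have hx' : ‖z - pos x‖ ≤ R := hx
  have h1 : ‖pos x‖ ≤ ‖z‖ + R := by
    have := norm_sub_norm_le (pos x) z
    rw [norm_sub_rev] at this
    linarith
  have h2 := h1_normsq (pos_re x) (pos_im x)
  have h0 := norm_nonneg (pos x)
  have h3 : ‖pos x‖ ^ 2 ≤ ((N : ℝ) / 2) ^ 2 := by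
    apply pow_le_pow_left₀ h0
    linarith
  have hN0 : (0 : ℝ) ≤ N := Nat.cast_nonneg N
  have ha : (x.1 : ℝ) ^ 2 ≤ (N : ℝ) ^ 2 := by nlinarith [sq_nonneg ((x.1 : ℝ) + 2 * x.2)]
  have hb : (x.2 : ℝ) ^ 2 ≤ (N : ℝ) ^ 2 := by nlinarith [sq_nonneg (2 * (x.1 : ℝ) + x.2)]
  have ha' := abs_le.1 (abs_le_of_sq_le_sq' ha hN0 |> abs_le.2)
  have hb' := abs_le.1 (abs_le_of_sq_le_sq' hb hN0 |> abs_le.2)
  refine ⟨⟨?_, ?_⟩, ⟨?_, ?_⟩⟩
  · exact_mod_cast ha'.1
  · exact_mod_cast ha'.2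
  · exact_mod_cast hb'.1
  · exact_mod_cast hb'.2

theorem hat_nonneg (z : ℂ) : 0 ≤ hat z := le_max_left _ _

theorem hat_le_one (z : ℂ) : hat z ≤ 1 := by
  refine max_le zero_le_one ?_
  have : (0 : ℝ) ≤ max |z.re - z.im / √3| (max |2 * z.im / √3| |z.re + z.im / √3|) :=
    le_max_of_le_left (abs_nonneg _)
  linarith

theorem hat_cont : Continuous hat := by
  unfold hat
  fun_prop

/-- With `z = u + v ω`, `‖z‖ ^ 2 = u ^ 2 + u v + v ^ 2`. -/
theorem hat_supp {z : ℂ} (h : hat z ≠ 0) : ‖z‖ < 1 := by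
  obtain ⟨u, v, h1, h2⟩ := h1_coord z
  rw [h1_hat h1 h2] at h
  have hm : max |u| (max |v| |u + v|) < 1 := by
    by_contra hc
    apply h
    apply max_eq_left
    linarith [not_lt.1 hc]
  have hu : |u| < 1 := lt_of_le_of_lt (le_max_left _ _) hm
  have hv : |v| < 1 := lt_of_le_of_lt ((le_max_left _ _).trans (le_max_right _ _)) hm
  have hw : |u + v| < 1 := lt_of_le_of_lt ((le_max_right _ _).trans (le_max_right _ _)) hm
  obtain ⟨u1, u2⟩ := abs_lt.1 hu
  obtain ⟨v1, v2⟩ := abs_lt.1 hv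
  obtain ⟨w1, w2⟩ := abs_lt.1 hw
  have hn := h1_normsq h1 h2
  have h3 : ‖z‖ ^ 2 < 1 ^ 2 := by
    rw [hn]
    have q1 : u ^ 2 < 1 := by nlinarith
    have q2 : v ^ 2 < 1 := by nlinarith
    have q3 : (u + v) ^ 2 < 1 := by nlinarith
    rcases le_total 0 (u * v) with hp | hp
    · nlinarith
    · rcases le_or_gt (u * (u + v)) 0 with hq | hq
      · nlinarith
      · rcases le_or_gt (v * (u + v)) 0 with hr | hr
        · nlinarith
        · have := mul_pos hq hr
          have := mul_nonneg (neg_nonneg.2 hp) (sq_nonneg (u + v))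
          nlinarith
  exact lt_of_pow_lt_pow_left₀ 2 zero_le_one h3

theorem hat_rot (z : ℂ) : hat (om * z) = hat z := by
  obtain ⟨u, v, h1, h2⟩ := h1_coord z
  have k1 : (om * z).re = -v + (u + v) / 2 := by
    rw [Complex.mul_re, h1_re, h1_im, h1, h2]
    linear_combination (-v / 4) * h1_s
  have k2 : (om * z).im = (u + v) * (√3 / 2) := by
    rw [Complex.mul_im, h1_re, h1_im, h1, h2]
    ring
  rw [h1_hat k1 k2, h1_hat h1 h2]
  have e : -v + (u + v) = u := by ring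
  rw [e, abs_neg]
  congr 2
  rw [max_comm |u + v| |u|, max_left_comm]

theorem hat_conj (z : ℂ) : hat ((starRingEnd ℂ) z) = hat z := by
  obtain ⟨u, v, h1, h2⟩ := h1_coord z
  have k1 : ((starRingEnd ℂ) z).re = (u + v) + (-v) / 2 := by
    rw [Complex.conj_re, h1]
    ring
  have k2 : ((starRingEnd ℂ) z).im = (-v) * (√3 / 2) := by
    rw [Complex.conj_im, h2]
    ring
  rw [h1_hat k1 k2, h1_hat h1 h2]
  have e : u + v + -v = u := by ring
  rw [e, abs_neg]
  congr 2
  rw [max_left_comm, max_comm |u + v| |u|, max_left_comm]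

theorem hat_fin (z : ℂ) : (Function.support fun x : ℤ × ℤ => hat (z - pos x)).Finite :=
  (pos_finite z 1).subset fun _ hx => (hat_supp hx).le

end Vale.Agent.P153
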