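import Vale.Agent.P153.BD
import Vale.Agent.P153.H1

/-! Consequences of the logarithmic bound. nearBd: N = V q with q = (ceil (R / delta), 0) (so q = (1,0) if R <= delta).
If |z - w| >= 4 delta then |pos (x - y)| is within a factor 2 of |z - w| / delta. Otherwise |pos (x - y)| <= 6 and
|V (x-y) - V (1,0)| is bounded (treat x = y apart; |pos p| >= 1 for p != 0). logVar: compare n with 3 * 2^k,
k = Nat.log 2 (n / 3). -/

open MeasureTheory Filter Topology

noncomputable section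

namespace Vale.Agent.P153

theorem b4_three {a b : ℝ} (ha : 0 < a) (hb : 0 < b) (h : a ≤ 3 * b) :
    Real.log a ≤ 2 + Real.log b := by
  have h1 := Real.log_le_log ha h
  have h2 := Real.log_le_sub_one_of_pos (show (0 : ℝ) < 3 by norm_num)
  rw [Real.log_mul (by norm_num) hb.ne'] at h1
  linarith

theorem b4_log {s r : ℝ} (h1 : 1 ≤ s) (hr : 0 < r) (h2 : s ≤ r + 2) (h3 : r ≤ s + 2) :
    |Real.log s - max (Real.log r) 0| ≤ 2 := by
  have hs := one_pos.trans_le h1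
  have k1 := Real.log_nonneg h1
  have k2 := b4_three hr hs (by linarith)
  rcases le_total r 1 with h | h
  · have k3 := b4_three hs one_pos (by linarith)
    rw [Real.log_one] at k3
    rw [max_eq_right (Real.log_nonpos hr.le h), abs_le]
    constructor <;> linarith
  · have k3 := b4_three hs hr (by linarith)
    rw [max_eq_left (Real.log_nonneg h), abs_le]
    constructor <;> linarith

theorem b4_one {p : ℤ × ℤ} (hp : p ≠ 0) : 1 ≤ ‖pos p‖ := by
  have h1 : 1 ≤ p.1 ^ 2 + p.1 * p.2 + p.2 ^ 2 := by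
    by_contra h
    have h2 : p.1 ^ 2 ≤ 0 := by nlinarith [sq_nonneg (p.1 + 2 * p.2), sq_nonneg (p.1 + p.2)]
    have h3 : p.1 = 0 := pow_eq_zero_iff two_ne_zero |>.1 (le_antisymm h2 (sq_nonneg _))
    rw [h3] at h
    exact hp (Prod.ext h3 (pow_eq_zero_iff two_ne_zero |>.1
      (le_antisymm (by linarith) (sq_nonneg _))))
  have h2 : (1 : ℝ) ≤ p.1 ^ 2 + p.1 * p.2 + p.2 ^ 2 := by exact_mod_cast h1
  refine le_of_sq_le_sq ?_ (norm_nonneg _) |>.trans' (le_abs_self _)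
  rw [Complex.sq_norm, Complex.normSq_apply, pos_re, pos_im]
  nlinarith [Real.mul_self_sqrt (show (0 : ℝ) ≤ 3 by norm_num)]

theorem b4_row (n : ℕ) : ‖pos (n, 0)‖ = n := by simp [pos]

theorem nearBd {V : ℤ × ℤ → ℝ} (h : LogBd V) : NearBd V := by
  obtain ⟨C, hC, h⟩ := h
  refine ⟨5 * C + |V 0 - V (1, 0)|, by positivity, fun δ hδ R hR =>
    ⟨V (⌈R / δ⌉₊, 0), fun z w hzw x y hx hy => ?_⟩⟩
  have hρ : 0 < R / δ := div_pos hR hδ
  have hz : 0 < ‖z - w‖ := norm_sub_pos_iff.2 hzw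
  have m1 : 1 ≤ ⌈R / δ⌉₊ := Nat.ceil_pos.2 hρ
  have m2 := b4_log (Nat.one_le_cast.2 m1) hρ (by linarith [Nat.ceil_lt_add_one hρ.le])
    (by linarith [Nat.le_ceil (R / δ)])
  have key : ∀ p : ℤ × ℤ, p ≠ 0 → ‖pos p‖ ≤ ‖z - w‖ / δ + 2 → ‖z - w‖ / δ ≤ ‖pos p‖ + 2 →
      |V p - V (⌈R / δ⌉₊, 0)| ≤ 5 * C * (1 + |Real.log (‖z - w‖ / R)|) := fun p hp h1 h2 => by
    refine (h p _ hp fun e => by simp at e; linarith).trans ?_
    have k1 := b4_log (b4_one hp) (div_pos hz hδ) h1 h2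
    have k2 := abs_max_sub_max_le_abs (Real.log (‖z - w‖ / δ)) (Real.log (R / δ)) 0
    rw [← Real.log_div (div_pos hz hδ).ne' hρ.ne', div_div_div_cancel_right₀ hδ.ne'] at k2
    rw [b4_row, Real.log_div (one_pos.trans_le (b4_one hp)).ne' (by positivity), mul_comm 5,
      mul_assoc]
    refine mul_le_mul_of_nonneg_left ?_ hC
    have k3 := abs_nonneg (Real.log (‖z - w‖ / R))
    rw [abs_le] at k1 k2 m2
    have k4 : |Real.log ‖pos p‖ - Real.log ⌈R / δ⌉₊| ≤ 4 + |Real.log (‖z - w‖ / R)| :=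
      abs_le.2 ⟨by linarith [k1.1, k2.1, m2.2], by linarith [k1.2, k2.2, m2.1]⟩
    linarith
  have e : |‖z - w‖ / δ - ‖pos (x - y)‖| ≤ 2 := by
    have e1 : ‖z - w‖ / δ = ‖z / δ - w / δ‖ := by
      rw [← sub_div, norm_div, Complex.norm_real, Real.norm_of_nonneg hδ.le]
    rw [e1]
    refine (abs_norm_sub_norm_le _ _).trans ?_
    rw [sub_eq_add_neg x, pos_add, pos_neg, show z / δ - w / δ - (pos x + -pos y) =
      z / δ - pos x - (w / δ - pos y) by ring]
    linarith [norm_sub_le (z / δ - pos x) (w / δ - pos y)]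
  rw [abs_le] at e
  have k3 := abs_nonneg (Real.log (‖z - w‖ / R))
  have k4 := abs_nonneg (V 0 - V (1, 0))
  by_cases h0 : x - y = 0
  · have k1 : ‖pos (1, 0)‖ = 1 := by simp [pos]
    have k2 : ‖pos 0‖ = 0 := by simp [pos]
    rw [h0, k2] at e
    have k5 := key (1, 0) (by simp) (by linarith [div_pos hz hδ]) (by linarith [e.2])
    rw [h0]
    nlinarith [abs_sub_le (V 0) (V (1, 0)) (V (⌈R / δ⌉₊, 0))]
  · nlinarith [key _ h0 (by linarith [e.1]) (by linarith [e.2])]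

theorem logVar {V : ℤ × ℤ → ℝ} (h : LogBd V) {c : ℝ}
    (hc : Tendsto (fun k : ℕ => V (3 * 2 ^ k, 0) / Real.log (2 ^ k)) atTop (𝓝 c)) :
    Tendsto (fun n : ℕ => V (n, 0) / Real.log n) atTop (𝓝 c) := by
  obtain ⟨C, hC, h⟩ := h
  have t1 : Tendsto (Nat.log 2) atTop atTop := tendsto_atTop_atTop_of_monotone Nat.log_monotone
    fun b => ⟨2 ^ b, (Nat.log_pow one_lt_two b).ge⟩
  have t2 : Tendsto (fun n : ℕ => Real.log n) atTop atTop :=
    Real.tendsto_log_atTop.comp tendsto_natCast_atTop_atTop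
  have b : ∀ᶠ n : ℕ in atTop, (2 : ℝ) ^ Nat.log 2 n ≤ n ∧ (n : ℝ) ≤ 2 * 2 ^ Nat.log 2 n := by
    filter_upwards [eventually_ne_atTop 0] with n hn
    have h1 := (Nat.lt_pow_succ_log_self one_lt_two n).le
    rw [pow_succ'] at h1
    exact ⟨by exact_mod_cast Nat.pow_log_le_self 2 hn, by exact_mod_cast h1⟩
  have b1 : ∀ᶠ n : ℕ in atTop, |V (n, 0) - V (3 * 2 ^ Nat.log 2 n, 0)| ≤ C * 3 := by
    filter_upwards [b, eventually_gt_atTop 0] with n hn h0
    refine (h _ _ (by simp [h0.ne']) (by simp)).trans (mul_le_mul_of_nonneg_left ?_ hC)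
    have e : ‖pos (3 * 2 ^ Nat.log 2 n, 0)‖ = 3 * 2 ^ Nat.log 2 n := by simp [pos]
    have p1 : (0 : ℝ) < 2 ^ Nat.log 2 n := by positivity
    have p2 : (0 : ℝ) < n := Nat.cast_pos.2 h0
    have k1 := b4_three (a := 3 * 2 ^ Nat.log 2 n) (by positivity) p2 (by linarith [hn.1])
    have k2 := Real.log_le_log p2 (show (n : ℝ) ≤ 3 * 2 ^ Nat.log 2 n by linarith [hn.2])
    rw [b4_row, e, Real.log_div p2.ne' (by positivity), abs_of_nonpos (sub_nonpos.2 k2)]
    linarith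
  have b2 : ∀ᶠ n : ℕ in atTop, |Real.log n - Real.log (2 ^ Nat.log 2 n)| ≤ 2 := by
    filter_upwards [b] with n hn
    have p1 : (0 : ℝ) < 2 ^ Nat.log 2 n := by positivity
    have k1 := b4_three (p1.trans_le hn.1) p1 (by linarith [hn.2])
    rw [abs_of_nonneg (sub_nonneg.2 (Real.log_le_log p1 hn.1))]
    linarith
  have l1 := tendsto_bdd_div_atTop_nhds_zero (b1.mono fun _ h => (abs_le.1 h).1)
    (b1.mono fun _ h => (abs_le.1 h).2) t2
  have l2 := tendsto_bdd_div_atTop_nhds_zero (b2.mono fun _ h => (abs_le.1 h).1)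
    (b2.mono fun _ h => (abs_le.1 h).2) t2
  have l3 := l1.add ((hc.comp t1).mul (l2.const_sub 1))
  rw [zero_add, sub_zero, mul_one] at l3
  refine l3.congr' ?_
  filter_upwards [t2.eventually_gt_atTop 0, t1.eventually_gt_atTop 0] with n h1 h2
  have h3 : 0 < Real.log (2 ^ Nat.log 2 n) := Real.log_pos (one_lt_pow₀ one_lt_two h2.ne')
  simp only [Function.comp]
  field_simp
  ring

end Vale.Agent.P153
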