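import Vale.Agent.P153.B2

/-! The limit kernel. q0 = (3 ceil (1 / (3 delta)), 0), q1 = q0 + (1,0), N = V q0, g = V q1 - V q0, so that
V p - N - g c3 p = V p - V (q0 or q1, by the colour of p). Bounds: NearBd with R = 1 used for (z,w,x,y) and for
(delta pos q, 0, q, 0). Limit: Kv_le; if it fails there are delta i -> 0 and near vertices x i, y i
(tendsto_iff_seq_tendsto or frequently + exists_seq), contradiction with PtLim for p i = x i - y i. -/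

open MeasureTheory Filter Topology

noncomputable section

namespace Vale.Agent.P153

/-- The reference vertex. -/
def b5q (δ : ℝ) (e : ℤ) : ℤ × ℤ := (3 * ⌈1 / (3 * δ)⌉ + e, 0)

/-- The colour class. -/
def b5c (p : ℤ × ℤ) : ℤ := if (3 : ℤ) ∣ p.1 - p.2 then 0 else 1

theorem b5_c (p : ℤ × ℤ) : b5c p = 0 ∨ b5c p = 1 := by
  unfold b5c
  split_ifs <;> simp

theorem b5_col (δ : ℝ) (p : ℤ × ℤ) :
    (3 : ℤ) ∣ p.1 - p.2 ↔ (3 : ℤ) ∣ (b5q δ (b5c p)).1 - (b5q δ (b5c p)).2 := by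
  simp only [b5q, b5c]
  split_ifs <;> omega

theorem b5_eq (V : ℤ × ℤ → ℝ) (δ : ℝ) (p : ℤ × ℤ) :
    V p - V (b5q δ 0) - (V (b5q δ 1) - V (b5q δ 0)) * c3 p = V p - V (b5q δ (b5c p)) := by
  unfold c3 b5c
  split_ifs <;> ring

theorem b5_q {δ : ℝ} (hδ : 0 < δ) {e : ℤ} (he : e = 0 ∨ e = 1) :
    ∃ a : ℝ, (δ : ℂ) * pos (b5q δ e) = a ∧ 1 ≤ a ∧ a ≤ 1 + 4 * δ := by
  have h1 := Int.le_ceil (1 / (3 * δ))
  have h2 := Int.ceil_lt_add_one (1 / (3 * δ))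
  have h3 : δ * (3 * (1 / (3 * δ))) = 1 := by field_simp
  refine ⟨δ * (3 * (⌈1 / (3 * δ)⌉ : ℤ) + e), by simp [pos, b5q], ?_, ?_⟩ <;>
    rcases he with rfl | rfl <;> push_cast <;> nlinarith

theorem b5_near {δ : ℝ} (hδ : 0 < δ) {z : ℂ} {x : ℤ × ℤ} (h : ‖z / δ - pos x‖ < 1) :
    ‖(δ : ℂ) * pos x - z‖ ≤ δ := by
  have h0 : (δ : ℂ) ≠ 0 := Complex.ofReal_ne_zero.2 hδ.ne'
  rw [norm_sub_rev, show z - δ * pos x = δ * (z / δ - pos x) by field_simp, norm_mul,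
    Complex.norm_of_nonneg hδ.le]
  nlinarith

theorem b5_lim {V : ℤ × ℤ → ℝ} {c : ℝ} (hc : PtLim V c) {z w : ℂ} (hzw : z ≠ w) {ε : ℝ}
    (hε : 0 < ε) : ∀ᶠ δ : ℝ in 𝓝[>] 0, ∀ x y : ℤ × ℤ, ‖z / δ - pos x‖ < 1 → ‖w / δ - pos y‖ < 1 →
      |V (x - y) - V (b5q δ (b5c (x - y))) - c * Real.log ‖z - w‖| ≤ ε := by
  by_contra h0
  obtain ⟨δ, h1, h2⟩ := exists_seq_forall_of_frequently
    ((not_eventually.1 h0).and_eventually self_mem_nhdsWithin)
  have h3 := fun i => (h2 i).1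
  have h4 : ∀ i, 0 < δ i := fun i => (h2 i).2
  push Not at h3
  choose x y hx hy h5 using h3
  have h6 : Tendsto δ atTop (𝓝 0) := h1.mono_right nhdsWithin_le_nhds
  have t1 : ∀ (u : ℂ) (v : ℕ → ℤ × ℤ), (∀ i, ‖u / δ i - pos (v i)‖ < 1) →
      Tendsto (fun i => (δ i : ℂ) * pos (v i)) atTop (𝓝 u) := fun u v h =>
    tendsto_iff_norm_sub_tendsto_zero.2
      (squeeze_zero (fun _ => norm_nonneg _) (fun i => b5_near (h4 i) (h i)) h6)
  have t2 : Tendsto (fun i => (δ i : ℂ) * pos (b5q (δ i) (b5c (x i - y i)))) atTop (𝓝 1) := by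
    refine tendsto_iff_norm_sub_tendsto_zero.2 (squeeze_zero (fun _ => norm_nonneg _)
      (fun i => ?_) (by simpa using h6.const_mul 4 : Tendsto (fun i => 4 * δ i) atTop (𝓝 0)))
    obtain ⟨a, e, a1, a2⟩ := b5_q (h4 i) (b5_c (x i - y i))
    rw [e, ← Complex.ofReal_one, ← Complex.ofReal_sub, Complex.norm_of_nonneg (by linarith)]
    linarith
  have t3 := hc δ (fun i => x i - y i) _ (z - w) 1 (sub_ne_zero.2 hzw) one_ne_zero h1
    (((t1 z x hx).sub (t1 w y hy)).congr fun i => by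
      simp only [pos, Prod.fst_sub, Prod.snd_sub]
      push_cast
      ring) t2 fun i => b5_col _ _
  rw [norm_one, div_one] at t3
  obtain ⟨i, hi⟩ := (Metric.tendsto_nhds.1 t3 ε hε).exists
  exact (h5 i).not_gt hi

theorem kerLim {V : ℤ × ℤ → ℝ} {c : ℝ} (h : NearBd V) (hc : PtLim V c) :
    ∃ (N g : ℝ → ℝ) (C : ℝ), (∀ δ ∈ Set.Ioc (0 : ℝ) 1, |g δ| ≤ C ∧ ∀ z w : ℂ, z ≠ w →
      |Kv (fun p => V p - N δ - g δ * c3 p) δ z w| ≤ C * (1 + |Real.log ‖z - w‖|)) ∧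
      ∀ z w : ℂ, z ≠ w → Tendsto (fun δ => Kv (fun p => V p - N δ - g δ * c3 p) δ z w)
        (𝓝[>] 0) (𝓝 (c * Real.log ‖z - w‖)) := by
  obtain ⟨C, hC, h⟩ := h
  refine ⟨fun δ => V (b5q δ 0), fun δ => V (b5q δ 1) - V (b5q δ 0), 10 * C, fun δ hδ => ?_,
    fun z w hzw => ?_⟩
  · obtain ⟨N, hN⟩ := h δ hδ.1 1 one_pos
    have h0 : (δ : ℂ) ≠ 0 := Complex.ofReal_ne_zero.2 hδ.1.ne'
    have k1 : ∀ e : ℤ, e = 0 ∨ e = 1 → |V (b5q δ e) - N| ≤ 5 * C := fun e he => by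
      obtain ⟨a, e1, a1, a2⟩ := b5_q hδ.1 he
      have k := hN a 0 (Complex.ofReal_ne_zero.2 (by linarith)) (b5q δ e) 0
        (by rw [← e1, mul_div_cancel_left₀ _ h0]; simp) (by simp [pos])
      rw [sub_zero, sub_zero, div_one, Complex.norm_of_nonneg (by linarith),
        abs_of_nonneg (Real.log_nonneg a1)] at k
      have := Real.log_le_sub_one_of_pos (show 0 < a by linarith)
      have k2 : 1 + Real.log a ≤ 5 := by linarith [hδ.2]
      nlinarith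
    refine ⟨?_, fun z w hzw => ?_⟩
    · have a0 := abs_le.1 (k1 0 (Or.inl rfl))
      have a1 := abs_le.1 (k1 1 (Or.inr rfl))
      rw [abs_le]
      constructor <;> linarith
    · rw [← sub_zero (Kv _ _ _ _)]
      refine Kv_le fun x y hx hy => ?_
      have a0 := abs_le.1 (hN z w hzw x y hx hy)
      have a1 := abs_le.1 (k1 _ (b5_c (x - y)))
      have a2 := mul_nonneg hC (abs_nonneg (Real.log ‖z - w‖))
      rw [div_one] at a0
      rw [b5_eq, abs_le]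
      constructor <;> linarith
  · refine Metric.tendsto_nhds.2 fun ε hε => (b5_lim hc hzw (half_pos hε)).mono fun δ hδ => ?_
    refine (Kv_le fun x y hx hy => ?_).trans_lt (half_lt_self hε)
    rw [b5_eq]
    exact hδ x y hx hy

end Vale.Agent.P153
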