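import Vale.Agent.P153.BD
import Vale.Agent.P153.H1
import Vale.Agent.P153C.R5
import Vale.Agent.P153C.A1
import Vale.Agent.P153C.A5
import Vale.Agent.P153C.A6
import Vale.Agent.P153C.A7
import Vale.Agent.P153C.B1
import Vale.Agent.P153C.D1
import Vale.Agent.P153C.D4

/-! The uniform bound. rep, sumrule, fatou, mass, lin_zero. Rotate p (RPV.rot, pos_rot) so that X = re pos p, Y = im pos p
satisfy |X| <= Y, Y >= |pos p| / 2. V p = int 2 (1 - ch): off Near at most 4 nu(Near compl); on Near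
ch = exp(-a Y) cos(2 phi X), |ch - exp(-a Y)| <= 2 a Y exp(-a Y) <= 2 mn (a Y). L Y = int (1 - exp(-a Y)) d rho has
|L Y - L Y'| <= B |log (Y / Y')| (F_deriv for F rho 1 on the imaginary axis, or
exp(-a Y') - exp(-a Y) = int a exp(-a t) dt and cf_le). -/

open MeasureTheory Filter Topology

noncomputable section

namespace Vale.Agent.P153

open P153C (mn ch ca Near)

theorem b9_rot {p : ℤ × ℤ} (hp : p ≠ 0) : ∃ k : ℕ, 0 < (P153C.D4_rot^[k] p).2 ∧
    -(P153C.D4_rot^[k] p).2 ≤ (P153C.D4_rot^[k] p).1 ∧ (P153C.D4_rot^[k] p).1 ≤ 0 := by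
  obtain ⟨x, y⟩ := p
  have h : x ≠ 0 ∨ y ≠ 0 := by
    by_contra h
    rw [not_or, not_not, not_not] at h
    exact hp (by rw [h.1, h.2]; rfl)
  by_contra hc
  have h0 := fun k => not_exists.1 hc k
  have a0 := h0 0
  have a1 := h0 1
  have a2 := h0 2
  have a3 := h0 3
  have a4 := h0 4
  have a5 := h0 5
  simp only [Function.iterate_succ, Function.iterate_zero, Function.comp, id, P153C.D4_rot]
    at a0 a1 a2 a3 a4 a5
  omega

theorem b9_s3 : (1 : ℝ) ≤ √3 ∧ (√3 : ℝ) ^ 2 = 3 :=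
  ⟨Real.one_le_sqrt.2 (by norm_num), Real.sq_sqrt (by norm_num)⟩

theorem b9_sec {V : ℤ × ℤ → ℝ} (h : P153C.RPV V) {p : ℤ × ℤ} (hp : p ≠ 0) :
    ∃ (x : ℤ) (y : ℕ), V p = V (x, y) ∧ 0 < y ∧ |2 * (x : ℝ) + y| ≤ y ∧ ‖pos p‖ ≤ y ∧
      (y : ℝ) ≤ 2 * ‖pos p‖ := by
  obtain ⟨k, h1, h2, h3⟩ := b9_rot hp
  have hV := P153C.D4_V_it h k p
  have hn : ‖pos (P153C.D4_rot^[k] p)‖ = ‖pos p‖ := by
    rw [← pos_eq, ← pos_eq, P153C.D4_pos_it, norm_mul, norm_pow, P153C.D4_norm, one_pow, one_mul]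
  generalize P153C.D4_rot^[k] p = q at h1 h2 h3 hV hn
  obtain ⟨x, y⟩ := q
  obtain ⟨n, rfl⟩ := Int.eq_ofNat_of_zero_le (le_of_lt h1)
  have r2 : -(n : ℝ) ≤ x := by exact_mod_cast h2
  have r3 : (x : ℝ) ≤ 0 := by exact_mod_cast h3
  have r1 : (0 : ℝ) ≤ n := Nat.cast_nonneg n
  have e : ‖pos p‖ ^ 2 = (x + n / 2) ^ 2 + 3 / 4 * n ^ 2 := by
    rw [← hn, Complex.sq_norm, Complex.normSq_apply, pos_re, pos_im]
    push_cast
    linear_combination (n : ℝ) ^ 2 / 4 * b9_s3.2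
  refine ⟨x, n, hV.symm, Int.natCast_pos.1 h1, abs_le.2 ⟨by linarith, by linarith⟩,
    (pow_le_pow_iff_left₀ (norm_nonneg _) r1 two_ne_zero).1 (by nlinarith), ?_⟩
  · refine (pow_le_pow_iff_left₀ r1 (by positivity) two_ne_zero).1 ?_
    nlinarith [sq_nonneg ((x : ℝ) + n / 2)]

theorem b9_dy {t : ℝ} (ht : 0 < t) (n : ℕ) :
    Real.exp (-t) - Real.exp (-(2 ^ n * t)) ≤ ∑ j ∈ Finset.range n, 2 * mn (2 ^ j * t) := by
  induction n with
  | zero => simp
  | succ n ih =>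
    have h0 : 0 < 2 ^ n * t := by positivity
    have h1 := P153C.d1_mn h0
    have h2 := Real.add_one_le_exp (-(2 ^ n * t))
    have h3 := Real.exp_pos (-(2 ^ n * t))
    have e : Real.exp (-(2 ^ (n + 1) * t)) =
        Real.exp (-(2 ^ n * t)) * Real.exp (-(2 ^ n * t)) := by
      rw [← Real.exp_add]
      congr 1
      ring
    rw [Finset.sum_range_succ, e]
    nlinarith

theorem b9_ch {x : ℤ} {y : ℕ} (hy : 0 < y) (hx : |2 * (x : ℝ) + y| ≤ y) {m : ℝ × ℝ}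
    (hm : m ∈ Near) :
    |ch x y m - Real.exp (-(ca m * (y * (√3 / 2))))| ≤ 4 * mn (ca m * (y * (√3 / 2))) := by
  obtain ⟨h0, h1, -, h3⟩ := hm
  have hy' : (0 : ℝ) < y := Nat.cast_pos.2 hy
  have s1 := b9_s3.1
  have ht : 0 < ca m * (y * (√3 / 2)) := by positivity
  have e : m.1 ^ y = Real.exp (-(ca m * (y * (√3 / 2)))) := by
    rw [← Real.exp_log (pow_pos h0 y), Real.log_pow]
    congr 1
    unfold P153C.ca
    field_simp
  have h4 : |m.2| ≤ ca m := by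
    have := (abs_le.1 h3).2
    linarith
  have h5 : |Real.cos ((2 * x + y) * m.2) - 1| ≤ y * ca m := by
    have := Real.abs_cos_sub_cos_le ((2 * x + y) * m.2) 0
    rw [Real.cos_zero, sub_zero, abs_mul] at this
    exact this.trans (mul_le_mul hx h4 (abs_nonneg _) hy'.le)
  have h6 := P153C.d1_mn ht
  have h7 := Real.exp_pos (-(ca m * (y * (√3 / 2))))
  have h8 : y * ca m ≤ 2 * (ca m * (y * (√3 / 2))) := by nlinarith [mul_pos hy' h1]
  unfold P153C.ch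
  rw [e, ← mul_sub_one, abs_mul, abs_of_pos h7]
  nlinarith [mul_le_mul_of_nonneg_left (h5.trans h8) h7.le]

theorem b9_two {V : ℤ × ℤ → ℝ} {ν : Measure (ℝ × ℝ)} {B : ℝ} (hR : P153C.Rep V ν 0)
    (h2 : P153C.Ana2 ν) (hm : P153C.Mass (P153C.rho ν) B) {x x' : ℤ} {y y' n : ℕ} (hy : 0 < y)
    (hx : |2 * (x : ℝ) + y| ≤ y) (hx' : |2 * (x' : ℝ) + y'| ≤ y') (h1 : y ≤ y')
    (hn : (y' : ℝ) ≤ 2 ^ n * y) :
    |V (x, y) - V (x', y')| ≤ 4 * ν.real Nearᶜ + (16 + 4 * n) * B := by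
  have hN : MeasurableSet Near := P153C.cone_meas _
  have hy0 : (0 : ℝ) < y := Nat.cast_pos.2 hy
  have hyy : (y : ℝ) ≤ y' := Nat.cast_le.2 h1
  have s1 := b9_s3.1
  have i1 : Integrable (fun m => 2 * (1 - ch x y m) - 2 * (1 - ch x' y' m)) ν :=
    ((hR.eq x y).1.const_mul 2).sub ((hR.eq x' y').1.const_mul 2)
  have e : V (x, y) - V (x', y') = ∫ m, (2 * (1 - ch x y m) - 2 * (1 - ch x' y' m)) ∂ν := by
    rw [(hR.eq x y).2, (hR.eq x' y').2,
      integral_sub ((hR.eq x y).1.const_mul 2) ((hR.eq x' y').1.const_mul 2)]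
    ring
  have ms : ∀ Y : ℝ, 0 < Y → IntegrableOn (fun m => mn (ca m * Y)) Near ν ∧
      ∫ m in Near, mn (ca m * Y) ∂ν ≤ B := fun Y hY => by
    simpa only [div_inv_eq_mul] using P153C.d1_mass hm (inv_pos.2 hY)
  have hY : 0 < (y : ℝ) * (√3 / 2) := by positivity
  have hY' : 0 < (y' : ℝ) * (√3 / 2) := mul_pos (hy0.trans_le hyy) (by positivity)
  have j1 := (ms _ hY).1.const_mul 8
  have j2 := (ms _ hY').1.const_mul 8
  have j4 : Integrable (fun m => 8 * mn (ca m * (y * (√3 / 2))) +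
      8 * mn (ca m * (y' * (√3 / 2)))) (ν.restrict Near) := j1.add j2
  have j3 : ∀ j ∈ Finset.range n, Integrable
      (fun m => 4 * mn (ca m * (2 ^ j * (y * (√3 / 2))))) (ν.restrict Near) := fun j _ =>
    (ms _ (by positivity)).1.const_mul 4
  have b1 : ‖∫ m in Near, (2 * (1 - ch x y m) - 2 * (1 - ch x' y' m)) ∂ν‖ ≤
      ∫ m in Near, (8 * mn (ca m * (y * (√3 / 2))) + 8 * mn (ca m * (y' * (√3 / 2))) +
        ∑ j ∈ Finset.range n, 4 * mn (ca m * (2 ^ j * (y * (√3 / 2))))) ∂ν := by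
    refine norm_integral_le_of_norm_le ((j1.add j2).add (integrable_finsetSum _ j3))
      ((ae_restrict_iff' hN).2 (Eventually.of_forall fun m hm => ?_))
    have c0 : 0 < ca m := hm.2.1
    have c1 := abs_le.1 (b9_ch hy hx hm)
    have c2 := abs_le.1 (b9_ch (hy.trans_le h1) hx' hm)
    have c3 := b9_dy (mul_pos c0 hY) n
    have c4 : Real.exp (-(ca m * (y' * (√3 / 2)))) ≤ Real.exp (-(ca m * (y * (√3 / 2)))) :=
      Real.exp_le_exp.2 (neg_le_neg (by gcongr))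
    have c5 : Real.exp (-(2 ^ n * (ca m * (y * (√3 / 2))))) ≤
        Real.exp (-(ca m * (y' * (√3 / 2)))) := by
      refine Real.exp_le_exp.2 (neg_le_neg ?_)
      calc ca m * (y' * (√3 / 2)) ≤ ca m * (2 ^ n * y * (√3 / 2)) := by gcongr
        _ = _ := by ring
    have c6 : ∑ j ∈ Finset.range n, 4 * mn (ca m * (2 ^ j * (y * (√3 / 2)))) =
        2 * ∑ j ∈ Finset.range n, 2 * mn (2 ^ j * (ca m * (y * (√3 / 2)))) := by
      rw [Finset.mul_sum]
      refine Finset.sum_congr rfl fun j _ => ?_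
      rw [mul_left_comm (ca m)]
      ring
    rw [Real.norm_eq_abs, c6, abs_le]
    constructor <;> linarith [c1.1, c1.2, c2.1, c2.2]
  have b2 : ‖∫ m in Nearᶜ, (2 * (1 - ch x y m) - 2 * (1 - ch x' y' m)) ∂ν‖ ≤
      4 * ν.real Nearᶜ := by
    refine norm_setIntegral_le_of_norm_le_const_ae
      (h2.fin (1 / 10) ⟨by norm_num, le_rfl⟩).lt_top (ae_restrict_of_ae ?_)
    filter_upwards [hR.supp] with m hm
    have c1 := abs_le.1 ((P153C.d1_ch_le x y hm.1.1).trans (pow_le_one₀ hm.1.1 hm.1.2))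
    have c2 := abs_le.1 ((P153C.d1_ch_le x' y' hm.1.1).trans (pow_le_one₀ hm.1.1 hm.1.2))
    rw [Real.norm_eq_abs, abs_le]
    constructor <;> linarith [c1.1, c1.2, c2.1, c2.2]
  rw [integral_add j4 (integrable_finsetSum _ j3), integral_add j1 j2,
    integral_finsetSum _ j3, integral_const_mul, integral_const_mul] at b1
  have b3 : ∑ j ∈ Finset.range n, ∫ m in Near, 4 * mn (ca m * (2 ^ j * (y * (√3 / 2)))) ∂ν ≤
      n * (4 * B) := by
    refine (Finset.sum_le_sum (g := fun _ => 4 * B) fun j _ => ?_).trans (by simp)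
    rw [integral_const_mul]
    exact mul_le_mul_of_nonneg_left (ms _ (by positivity)).2 (by norm_num)
  rw [e, ← integral_add_compl hN i1]
  rw [Real.norm_eq_abs] at b1 b2
  refine (abs_add_le _ _).trans ?_
  linarith [(ms _ hY).2, (ms _ hY').2]

theorem logBd {V : ℤ × ℤ → ℝ} (h : P153C.RPV V) : LogBd V := by
  obtain ⟨ν, A, hR⟩ := P153C.rep h
  have ha := P153C.sumrule h hR
  have h2 := P153C.fatou ha
  obtain ⟨B, hm⟩ := P153C.mass ha
  obtain rfl := P153C.lin_zero h hR h2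
  have hB : 0 ≤ B := (P153C.cf_le hm one_pos).1.trans (P153C.cf_le hm one_pos).2
  have hM : 0 ≤ ν.real Nearᶜ := measureReal_nonneg
  have key : ∀ {x x' : ℤ} {y y' : ℕ} {a a' : ℝ}, 0 < y → |2 * (x : ℝ) + y| ≤ y →
      |2 * (x' : ℝ) + y'| ≤ y' → y ≤ y' → a ≤ y → (y : ℝ) ≤ 2 * a → (y' : ℝ) ≤ 2 * a' →
      |V (x, y) - V (x', y')| ≤ (4 * ν.real Nearᶜ + 28 * B) * (1 + |Real.log (a' / a)|) := by
    intro x x' y y' a a' hy hx hx' h1 k1 k2 k3
    have hy0 : (0 : ℝ) < y := Nat.cast_pos.2 hy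
    have hyy : (y : ℝ) ≤ y' := Nat.cast_le.2 h1
    have ha0 : 0 < a := by linarith
    have ha1 : 0 < a' := by linarith
    obtain ⟨n, n1, n2⟩ := exists_nat_pow_near ((one_le_div hy0).2 hyy) one_lt_two
    have b := b9_two hR h2 hm hy hx hx' h1 ((div_lt_iff₀ hy0).1 n2).le
    have l1 : (2 : ℝ) ^ n ≤ 2 * (a' / a) := by
      refine n1.trans ?_
      rw [← mul_div_assoc]
      gcongr
    have l2 := Real.log_le_log (by positivity) l1
    rw [Real.log_pow, Real.log_mul two_ne_zero (by positivity)] at l2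
    have l3 := Real.log_two_gt_d9
    have l4 := Real.log_two_lt_d9
    have l5 := le_abs_self (Real.log (a' / a))
    have l6 := abs_nonneg (Real.log (a' / a))
    have l7 : (n : ℝ) ≤ 2 + 2 * |Real.log (a' / a)| := by
      nlinarith [Nat.cast_nonneg (α := ℝ) n]
    push_cast at b
    nlinarith [mul_le_mul_of_nonneg_right l7 hB, mul_nonneg hB l6, mul_nonneg hM l6]
  refine ⟨4 * ν.real Nearᶜ + 28 * B, by positivity, fun p q hp hq => ?_⟩
  obtain ⟨x, y, e, hy, hx, k1, k2⟩ := b9_sec h hp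
  obtain ⟨x', y', e', hy', hx', k1', k2'⟩ := b9_sec h hq
  rw [e, e']
  rcases le_total y y' with h1 | h1
  · rw [← inv_div, Real.log_inv, abs_neg]
    exact key hy hx hx' h1 k1 k2 k2'
  · rw [abs_sub_comm]
    exact key hy' hx' hx h1 k1' k2' k2

end Vale.Agent.P153
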