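import Vale.Agent.P153.B1
import Vale.Agent.P153.B3
import Vale.Agent.P153.B4
import Vale.Agent.P153.B5
import Vale.Agent.P153.B6
import Vale.Agent.P153.B8
import Vale.Agent.P153.B9
import Vale.Agent.P153C.Main

/-! Part B: the covariance. -/

open MeasureTheory Filter Topology

noncomputable section

namespace Vale.Agent.P153

variable {P : Measure Cfg} [IsProbabilityMeasure P]

theorem b_form (h : Good P) {δ : ℝ} (hδ : 0 < δ) {f g : ℂ → ℝ} (hf : Test f) (hg : Test g)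
    (N e : ℝ) : ∫ k, fld δ f k * fld δ g k ∂P = -(1 / 2) *
      ((∫ p : ℂ × ℂ, f p.1 * g p.2 * Kv (fun p => Vp P p - N - e * c3 p) δ p.1 p.2) +
        e * qf c3 (Wt δ f) (Wt δ g)) := by
  simp only [fld_eq hδ hf.1.continuous hf.2.1, fld_eq hδ hg.1.continuous hg.2.1]
  rw [quad h (Wt_zs hδ hf) (Wt_zs hδ hg), ← (smear _ hδ hf.cc hg.cc).2,
    qf_lin _ _ _ _ (Wt_zs hδ hf)]
  ring

theorem covT_of_good (h : Good P) : ∃ σ : ℝ, 0 ≤ σ ∧ CovT P σ ∧ LogVar P σ := by
  have hV := rpv_of_good h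
  obtain ⟨σ, h0, h1, h2⟩ := P153C.main_rpv hV
  simp only [pos_eq] at h1
  have hL := logBd hV
  have hN := nearBd hL
  refine ⟨σ, h0, ⟨fun f g hf hg => ?_, ?_⟩, logVar hL h2⟩
  · obtain ⟨N, e, C, hb, hl⟩ := kerLim hN (c := σ ^ 2 / Real.pi) h1
    obtain ⟨i1, i2, i3, i4⟩ := cov_log hf hg
    have hI : Set.Ioc (0 : ℝ) 1 ∈ 𝓝[>] (0 : ℝ) := Ioc_mem_nhdsGT one_pos
    have t1 : Tendsto (fun δ => ∫ p : ℂ × ℂ, f p.1 * g p.2 *
        Kv (fun p => Vp P p - N δ - e δ * c3 p) δ p.1 p.2) (𝓝[>] 0)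
        (𝓝 (∫ p : ℂ × ℂ, f p.1 * g p.2 * (σ ^ 2 / Real.pi * Real.log ‖p.1 - p.2‖))) := by
      refine tendsto_integral_filter_of_dominated_convergence _ ?_ ?_ (i2.const_mul C) ?_
      · filter_upwards [hI] with δ hδ
        exact (smear _ hδ.1 hf.cc hg.cc).1.aestronglyMeasurable
      · filter_upwards [hI] with δ hδ
        filter_upwards [i3] with p hp
        rw [Real.norm_eq_abs, abs_mul, abs_mul]
        have := mul_le_mul_of_nonneg_left ((hb δ hδ).2 _ _ hp)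
          (mul_nonneg (abs_nonneg (f p.1)) (abs_nonneg (g p.2)))
        linarith
      · filter_upwards [i3] with p hp
        exact (hl _ _ hp).const_mul _
    have t2 : Tendsto (fun δ => e δ * qf c3 (Wt δ f) (Wt δ g)) (𝓝[>] 0) (𝓝 0) := by
      have t3 := (colour hf hg).abs.const_mul C
      rw [abs_zero, mul_zero] at t3
      refine squeeze_zero_norm' ?_ t3
      filter_upwards [hI] with δ hδ
      rw [Real.norm_eq_abs, abs_mul]
      exact mul_le_mul_of_nonneg_right (hb δ hδ).1 (abs_nonneg _)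
    have t4 := (t1.add t2).const_mul (-(1 / 2) : ℝ)
    have e1 : σ ^ 2 * cov f g = -(1 / 2) *
        ((∫ p : ℂ × ℂ, f p.1 * g p.2 * (σ ^ 2 / Real.pi * Real.log ‖p.1 - p.2‖)) + 0) := by
      have e2 : ∫ p : ℂ × ℂ, f p.1 * g p.2 * (σ ^ 2 / Real.pi * Real.log ‖p.1 - p.2‖) =
          σ ^ 2 / Real.pi * ∫ p : ℂ × ℂ, f p.1 * g p.2 * Real.log ‖p.1 - p.2‖ := by
        rw [← integral_const_mul]
        exact integral_congr_ae (Eventually.of_forall fun p => by ring)
      rw [e2, i4]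
      have := Real.pi_pos.ne'
      field_simp
      ring
    rw [e1]
    refine t4.congr' ?_
    filter_upwards [hI] with δ hδ
    exact (b_form h hδ.1 hf hg _ _).symm
  · obtain ⟨C, hC, hb⟩ := hN
    obtain ⟨D, hD, hs⟩ := sob
    refine ⟨C * D, by positivity, fun δ hδ f hf => ?_⟩
    obtain ⟨R, hR, j1, j2⟩ := hs f hf.cc
    obtain ⟨N, hN⟩ := hb δ hδ.1 R hR
    have e1 := b_form h hδ.1 hf hf N 0
    simp only [← sq] at e1
    rw [e1, zero_mul, add_zero]
    have t1 : ‖∫ p : ℂ × ℂ, f p.1 * f p.2 * Kv (fun p => Vp P p - N - 0 * c3 p) δ p.1 p.2‖ ≤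
        ∫ p : ℂ × ℂ, C * (|f p.1| * |f p.2| * (1 + |Real.log (‖p.1 - p.2‖ / R)|)) := by
      refine norm_integral_le_of_norm_le (j1.const_mul C) ?_
      filter_upwards [(cov_log hf hf).2.2.1] with p hp
      have t2 := Kv_le (V := fun p => Vp P p - N - 0 * c3 p) (a := 0) (δ := δ) (z := p.1)
        (w := p.2) fun x y hx hy => by simpa using hN _ _ hp x y hx hy
      rw [sub_zero] at t2
      rw [Real.norm_eq_abs, abs_mul, abs_mul]
      have := mul_le_mul_of_nonneg_left t2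
        (mul_nonneg (abs_nonneg (f p.1)) (abs_nonneg (f p.2)))
      linarith
    rw [integral_const_mul, Real.norm_eq_abs] at t1
    have t3 := mul_le_mul_of_nonneg_left j2 hC
    have t4 := neg_abs_le
      (∫ p : ℂ × ℂ, f p.1 * f p.2 * Kv (fun p => Vp P p - N - 0 * c3 p) δ p.1 p.2)
    have t5 := abs_nonneg
      (∫ p : ℂ × ℂ, f p.1 * f p.2 * Kv (fun p => Vp P p - N - 0 * c3 p) δ p.1 p.2)
    nlinarith

end Vale.Agent.P153
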