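import Vale.Agent.P153.C0t
import Vale.Agent.P153.C0a
import Vale.Agent.P153.T2

/-! Consequences of reflection positivity. -/

open MeasureTheory Filter Topology

noncomputable section

namespace Vale.Agent.P153

variable {S : List (ℂ → ℝ) → ℝ}

theorem C0g_cj {l : List (ℂ → ℝ)} (hl : Tests l) : Tests (l.map cj) :=
  hl.map fun _ hf => hf.conj

theorem C0g_cc (l : List (ℂ → ℝ)) : (l.map cj).map cj = l := by
  rw [List.map_map]
  exact (List.map_congr_left fun f _ => cj_cj f).trans (List.map_id l)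

theorem C0g_sym (h : Pre S) {A B : List (ℂ → ℝ)} (hA : Tests A) (hB : Tests B) :
    S (A ++ B.map cj) = S (B ++ A.map cj) := by
  rw [← h.cj _ (hA.append (C0g_cj hB)), List.map_append, C0g_cc]
  exact h.perm _ _ List.perm_append_comm

theorem C0g_sup {l : List (ℂ → ℝ)} {O O' : Set ℂ} (h : Sup l O) {F : (ℂ → ℝ) → ℂ → ℝ}
    (hF : ∀ f, tsupport f ⊆ O → tsupport (F f) ⊆ O') : Sup (l.map F) O' := fun g hg => by
  obtain ⟨f, hf, rfl⟩ := List.mem_map.1 hg
  exact hF f (h f hf)

theorem C0g_ext (h : Pre S) {f : ℂ → ℝ} {A : List (ℂ → ℝ)} (hf : Test f) (hA : Tests A)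
    (h1 : tsupport f ⊆ {z | 0 < z.im}) (h3 : Sup A {z | z.im < 0}) (h0 : S [f, cj f] = 0) :
    S (f :: A) = 0 := by
  have hf1 : Tests [f] := fun g hg => by rw [List.mem_singleton.1 hg]; exact hf
  have hs1 : Sup [f] {z | 0 < z.im} := fun g hg => by rw [List.mem_singleton.1 hg]; exact h1
  have hB := C0g_cj hA
  have hsB : Sup (A.map cj) {z | 0 < z.im} := C0g_sup h3 fun _ => cj_down
  have H : ∀ x : ℝ, 0 ≤ 2 * x * S (f :: A) + S (A.map cj ++ A) := fun x => by
    have h4 := h.rp 2 ![x, 1] ![[f], A.map cj]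
      (fun i => by fin_cases i; exacts [hf1, hB]) (fun i => by fin_cases i; exacts [hs1, hsB])
    simp only [Fin.sum_univ_two, Matrix.cons_val_zero, Matrix.cons_val_one] at h4
    rw [C0g_sym h hB hf1, C0g_cc] at h4
    have e1 : [f] ++ List.map cj [f] = [f, cj f] := rfl
    have e2 : [f] ++ A = f :: A := rfl
    rw [e1, e2, h0] at h4
    linarith
  by_contra hne
  have h5 := H (-(S (A.map cj ++ A) + 1) / (2 * S (f :: A)))
  have e : 2 * (-(S (A.map cj ++ A) + 1) / (2 * S (f :: A))) * S (f :: A) =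
      -(S (A.map cj ++ A) + 1) := by field_simp
  rw [e] at h5
  linarith

theorem pre_ext (h : Pre S) {σ : ℝ}
    (h2 : ∀ f g, Test f → Test g → S [f, g] = σ ^ 2 * cov f g) (m : ℕ) (c : ℝ) (u : ℂ → ℝ)
    (A : List (ℂ → ℝ)) (hu : Cc u) (hA : Tests A) (h1 : tsupport u ⊆ {z | c < co m z})
    (h3 : Sup A {z | co m z < c}) : S (lap u :: A) = 0 := by
  rw [← pre_pb h m (c * nv m) _ (Tests.cons hu.test_lap hA), List.map_cons, ← lap_pb hu]
  have hu' := cc_pb hu m (c * nv m)
  have hs := pb_up h1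
  have hl := (tsupport_lap _ hu'.1).trans hs
  refine C0g_ext h hu'.test_lap (hA.map fun f hf => test_pb hf _ _) hl
    (C0g_sup h3 fun _ => pb_down) ?_
  have hc : Test (cj (lap (pb m (c * nv m) u))) := hu'.test_lap.conj
  rw [h2 _ _ hu'.test_lap hc, cov_lap_disj hu' hc, mul_zero]
  refine Set.disjoint_left.2 fun z hz hz' => ?_
  have h4 : 0 < z.im := hs hz
  have h5 : z.im < 0 := cj_up hl hz'
  linarith

/-- Vertical translates of a list. -/
def C0g_up (t : ℝ) (B : List (ℂ → ℝ)) : List (ℂ → ℝ) := B.map (tr (t * Complex.I))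

theorem C0g_upT (t : ℝ) {B : List (ℂ → ℝ)} (hB : Tests B) : Tests (C0g_up t B) :=
  hB.map fun _ hf => hf.tr _

theorem C0g_kern (h : Pre S) {B : List (ℂ → ℝ)} (hB : Tests B) (s t r : ℝ) :
    S (C0g_up (s + r) B ++ (C0g_up t B).map cj) = S (C0g_up s B ++ (C0g_up (t + r) B).map cj) := by
  rw [← h.tr ((r : ℂ) * Complex.I) _ ((C0g_upT s hB).append (C0g_cj (C0g_upT (t + r) hB))),
    List.map_append]
  unfold C0g_up
  simp only [List.map_map]
  congr 2
  · refine List.map_congr_left fun f _ => ?_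
    simp only [Function.comp_apply, tr_tr]
    congr 1
    push_cast
    ring
  · refine List.map_congr_left fun f _ => ?_
    simp only [Function.comp_apply, cj_tr, tr_tr]
    congr 1
    push_cast
    ring

theorem C0g_bd (h : Pre S) {A B : List (ℂ → ℝ)} (hA : Tests A) (hB : Tests B) :
    |S (A ++ B)| ≤ (S (A ++ A) + S (B ++ B)) / 2 := by
  have H : ∀ x : ℝ, 0 ≤ x * x * S (A ++ A) + 2 * x * S (A ++ B) + S (B ++ B) := fun x => by
    have h4 := h.psd 2 ![x, 1] ![A, B] (fun i => by fin_cases i; exacts [hA, hB])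
    simp only [Fin.sum_univ_two, Matrix.cons_val_zero, Matrix.cons_val_one] at h4
    rw [h.perm (B ++ A) (A ++ B) List.perm_append_comm] at h4
    linarith
  have h1 := H 1
  have h2 := H (-1)
  rw [abs_le]
  constructor <;> linarith

theorem C0g_move (h : Pre S) {A B : List (ℂ → ℝ)} (hA : Tests A) (hB : Tests B)
    (h1 : Sup A {z | z.im < 0}) (h2 : Sup B {z | 0 < z.im})
    (h3 : ∀ᶠ t : ℝ in atTop, S (A ++ C0g_up t B) = 0) : S (A ++ B) = 0 := by
  obtain ⟨ε, hε, hs⟩ := sup_room hB h2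
  have hA0 := C0g_cj hA
  have hsA : Sup (A.map cj) {z | 0 < z.im} := C0g_sup h1 fun _ => cj_down
  have hsB : ∀ k : ℕ, Sup (C0g_up (-ε + k * (ε / 2)) B) {z | 0 < z.im} := fun k =>
    C0g_sup hs fun f hf z hz => by
      have h4 : ε + (-ε + k * (ε / 2)) < z.im := tr_up hf _ hz
      have h5 : 0 ≤ (k : ℝ) * (ε / 2) := by positivity
      show 0 < z.im
      linarith
  have hself : ∀ t : ℝ, S (C0g_up t B ++ C0g_up t B) = S (B ++ B) := fun t => by
    rw [← h.tr ((t : ℂ) * Complex.I) _ (hB.append hB), List.map_append]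
    rfl
  have key := seq_move
    (fun k => S (C0g_up (-ε) B ++ (C0g_up (-ε + k * (ε / 2)) B).map cj))
    (fun k => S (A ++ C0g_up (-ε + k * (ε / 2)) B)) (S (A.map cj ++ A)) (S (B ++ B))
    (fun k => by
      refine (C0g_bd h (C0g_upT _ hB) (C0g_cj (C0g_upT _ hB))).trans_eq ?_
      rw [← List.map_append, h.cj _ ((C0g_upT _ hB).append (C0g_upT _ hB)), hself, hself]
      ring)
    (fun x n c => by
      have h4 := h.rp (n + 1) (Fin.cons x fun i : Fin n => c i)
        (Fin.cons (A.map cj) fun i : Fin n => C0g_up (-ε + (i : ℕ) * (ε / 2)) B)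
        (Fin.cases hA0 fun i => C0g_upT _ hB) (Fin.cases hsA fun i => hsB i)
      simp only [Fin.sum_univ_succ, Fin.cons_zero, Fin.cons_succ, C0g_cc] at h4
      have e1 : ∀ i : ℕ, S (C0g_up (-ε + i * (ε / 2)) B ++ A) =
          S (A ++ C0g_up (-ε + i * (ε / 2)) B) := fun i => h.perm _ _ List.perm_append_comm
      have e2 : ∀ i : ℕ, S (A.map cj ++ (C0g_up (-ε + i * (ε / 2)) B).map cj) =
          S (A ++ C0g_up (-ε + i * (ε / 2)) B) := fun i => by
        rw [← List.map_append, h.cj _ (hA.append (C0g_upT _ hB))]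
      have e3 : ∀ i j : ℕ, S (C0g_up (-ε + i * (ε / 2)) B ++ (C0g_up (-ε + j * (ε / 2)) B).map cj) =
          S (C0g_up (-ε) B ++ (C0g_up (-ε + ((i + j : ℕ) : ℝ) * (ε / 2)) B).map cj) := fun i j => by
        rw [C0g_kern h hB]
        congr 4
        push_cast
        ring
      simp only [e1, e2, e3, Finset.sum_add_distrib] at h4
      simp only [Finset.sum_range, Finset.mul_sum]
      have e4 : ∑ i : Fin n, 2 * x * (c i * S (A ++ C0g_up (-ε + (i : ℕ) * (ε / 2)) B)) =
          ∑ i : Fin n, x * c i * S (A ++ C0g_up (-ε + (i : ℕ) * (ε / 2)) B) +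
          ∑ i : Fin n, c i * x * S (A ++ C0g_up (-ε + (i : ℕ) * (ε / 2)) B) := by
        rw [← Finset.sum_add_distrib]
        exact Finset.sum_congr rfl fun i _ => by ring
      rw [e4, sq]
      linarith)
    ((tendsto_atTop_add_const_left _ (-ε) (tendsto_natCast_atTop_atTop.atTop_mul_const
      (half_pos hε))).eventually h3)
  have e : -ε + ((2 : ℕ) : ℝ) * (ε / 2) = 0 := by push_cast; ring
  have e5 : C0g_up 0 B = B := by
    unfold C0g_up
    refine (List.map_congr_left fun f _ => ?_).trans (List.map_id B)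
    simp [tr_zero]
  beta_reduce at key
  rwa [e, e5] at key

theorem pre_move (h : Pre S) (m : ℕ) (c : ℝ) (A B : List (ℂ → ℝ)) (hA : Tests A) (hB : Tests B)
    (h1 : Sup A {z | co m z < c}) (h2 : Sup B {z | c < co m z})
    (h3 : ∀ᶠ t : ℝ in atTop, S (A ++ B.map (tr (t * nv m))) = 0) : S (A ++ B) = 0 := by
  rw [← pre_pb h m (c * nv m) _ (hA.append hB), List.map_append]
  refine C0g_move h (hA.map fun f hf => test_pb hf _ _) (hB.map fun f hf => test_pb hf _ _)
    (C0g_sup h1 fun _ => pb_down) (C0g_sup h2 fun _ => pb_up) (h3.mono fun t ht => ?_)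
  rw [← pre_pb h m (c * nv m) _ (hA.append (hB.map fun f hf => hf.tr _)), List.map_append] at ht
  rw [← ht]
  unfold C0g_up
  simp only [List.map_map]
  congr 2
  exact List.map_congr_left fun f _ => (pb_tr m _ t f).symm

end Vale.Agent.P153
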