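import Vale.Agent.P153.C0f
import Vale.Agent.P153.C0g

/-! Limit moments along an ultrafilter. -/

open MeasureTheory Filter Topology

noncomputable section

namespace Vale.Agent.P153

variable {P : Measure Cfg} [IsProbabilityMeasure P] {σ : ℝ}

theorem C0_sq (hC : CovT P σ) {f : ℂ → ℝ} (hf : Test f) :
    Tendsto (fun δ => √(∫ k, fld δ f k ^ 2 ∂P)) (𝓝[>] 0) (𝓝 (|σ| * √(cov f f))) := by
  have h := (hC.lim f f hf hf).sqrt
  rw [Real.sqrt_mul (sq_nonneg σ), Real.sqrt_sq_eq_abs] at h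
  simpa only [sq] using h

theorem C0_sz (hC : CovT P σ) {f : ℂ → ℝ} (hf : Test f) {ε : ℝ} (hε : 0 < ε) :
    ∀ᶠ δ in 𝓝[>] (0 : ℝ), sz P δ f ≤ (|σ| + 1) * nn f + ε := by
  filter_upwards [(C0_sq hC hf).eventually (ge_mem_nhds (lt_add_of_pos_right _ hε))] with δ hδ
  have h1 : 0 ≤ ∫ z, |f z| := integral_nonneg fun z => abs_nonneg _
  have h2 : 0 ≤ √(cov f f) := Real.sqrt_nonneg _
  have h3 : 0 ≤ |σ| * ∫ z, |f z| := mul_nonneg (abs_nonneg _) h1
  have h4 : (|σ| + 1) * nn f = |σ| * √(cov f f) + (|σ| * ∫ z, |f z|) + √(cov f f) + ∫ z, |f z| := by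
    unfold nn; ring
  unfold sz
  linarith

theorem C0_ev (h : Good P) (hM : Mom P) (hC : CovT P σ) (n : ℕ) : ∃ C : ℝ, 0 ≤ C ∧
    ∀ f l, Test f → Tests l → l.length = n → ∀ ε : ℝ, 0 < ε → ∀ᶠ δ in 𝓝[>] (0 : ℝ),
      |mom P δ (f :: l)| ≤
        C * (|σ| * √(cov f f) + ε) * (l.map fun g => (|σ| + 1) * nn g + ε).prod := by
  obtain ⟨C, hC0, H⟩ := mom_bound h hM n
  refine ⟨C, hC0, fun f l hf hl hn ε hε => ?_⟩
  have hp : ∀ g, 0 < (|σ| + 1) * nn g + ε := fun g =>
    add_pos_of_nonneg_of_pos (mul_nonneg (by positivity) (nn_nonneg g)) hε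
  have h1 : ∀ᶠ δ in 𝓝[>] (0 : ℝ), ∀ g ∈ l, sz P δ g ≤ (|σ| + 1) * nn g + ε :=
    (Filter.eventually_all_finite l.finite_toSet).2 fun g hg => C0_sz hC (hl g hg) hε
  filter_upwards [h1, self_mem_nhdsWithin,
    (C0_sq hC hf).eventually (ge_mem_nhds (lt_add_of_pos_right _ hε))] with δ h1 hδ h2
  refine (H δ hδ f l hf hl hn (fun g => (|σ| + 1) * nn g + ε) fun g hg => ⟨hp g, h1 g hg⟩).trans ?_
  refine mul_le_mul_of_nonneg_right (mul_le_mul_of_nonneg_left h2 hC0) ?_
  refine List.prod_nonneg fun x hx => ?_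
  obtain ⟨g, -, rfl⟩ := List.mem_map.1 hx
  exact (hp g).le

theorem C0_conv (h : Good P) (hM : Mom P) (hC : CovT P σ) (U : Ultrafilter ℝ)
    (hU : (U : Filter ℝ) ≤ 𝓝[>] 0) {l : List (ℂ → ℝ)} (hl : Tests l) :
    Tendsto (fun δ => mom P δ l) U (𝓝 (limUnder U fun δ => mom P δ l)) := by
  have hb : ∃ K : ℝ, ∀ᶠ δ in 𝓝[>] (0 : ℝ), |mom P δ l| ≤ K := by
    rcases l with _ | ⟨f, l⟩
    · exact ⟨1, Eventually.of_forall fun δ => by simp [mom]⟩
    · obtain ⟨C, -, H⟩ := C0_ev h hM hC l.length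
      exact ⟨_, H f l hl.head hl.tail rfl 1 one_pos⟩
  obtain ⟨K, hK⟩ := hb
  have hm : Set.Icc (-K) K ∈ U.map fun δ => mom P δ l :=
    (hK.filter_mono hU).mono fun δ hδ => abs_le.1 hδ
  obtain ⟨x, -, hx⟩ := isCompact_Icc.ultrafilter_le_nhds' _ hm
  exact tendsto_nhds_limUnder ⟨x, hx⟩

theorem C0_prod (a : ℝ) (l : List (ℂ → ℝ)) :
    (l.map fun g => a * nn g).prod = a ^ l.length * (l.map nn).prod := by
  induction l with
  | nil => simp
  | cons g l ih => simp only [List.map_cons, List.prod_cons, ih, List.length_cons]; ring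

theorem lim_of_covT {P : Measure Cfg} [IsProbabilityMeasure P] (h : Good P) (hM : Mom P) {σ : ℝ}
    (hC : CovT P σ) (U : Ultrafilter ℝ) (hU : (U : Filter ℝ) ≤ 𝓝[>] 0) :
    ∃ S, Lim σ S ∧ ∀ l, Tests l → Tendsto (fun δ => mom P δ l) U (𝓝 (S l)) := by
  obtain ⟨S, hS⟩ : ∃ S : List (ℂ → ℝ) → ℝ, S = fun l => limUnder U fun δ => mom P δ l := ⟨_, rfl⟩
  have hc : ∀ l, Tests l → Tendsto (fun δ => mom P δ l) U (𝓝 (S l)) := fun l hl => by
    rw [hS]; exact C0_conv h hM hC U hU hl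
  have hpos : ∀ᶠ δ in (U : Filter ℝ), 0 < δ := hU self_mem_nhdsWithin
  have key : ∀ l l', Tests l → Tests l' → (∀ δ, 0 < δ → mom P δ l = mom P δ l') → S l = S l' :=
    fun l l' hl hl' e =>
      tendsto_nhds_unique_of_eventuallyEq (hc l hl) (hc l' hl') (hpos.mono e)
  have hcj : ∀ f, Test f → Test (cj f) := fun f hf => hf.conj
  have hrt : ∀ f, Test f → Test (rt f) := fun f hf => hf.unit om_norm
  have hperm : ∀ l l', l.Perm l' → S l = S l' := fun l l' hp => by
    rw [hS]; simp only [fun δ => mom_perm P δ hp]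
  have hpre : Pre S := by
    refine ⟨hperm, fun n a L hL => ?_, fun l hl => ?_, fun l hl => ?_, fun a l hl => ?_,
      fun n a L hL hs => ?_⟩
    · refine ge_of_tendsto (tendsto_finsetSum _ fun i _ => tendsto_finsetSum _ fun j _ =>
        (hc _ ((hL i).append (hL j))).const_mul (a i * a j)) ?_
      exact hpos.mono fun δ hδ => mom_psd h hδ n a L hL
    · exact key _ _ (hl.map hrt) hl fun δ hδ => mom_rt h hδ hl
    · exact key _ _ (hl.map hcj) hl fun δ hδ => mom_cj h hδ hl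
    · exact sub_eq_zero.1 (tendsto_nhds_unique
        ((hc _ (hl.map fun f hf => hf.tr a)).sub (hc l hl)) ((mom_tr_lim h hM hC a hl).mono_left hU))
    · refine ge_of_tendsto (tendsto_finsetSum _ fun i _ => tendsto_finsetSum _ fun j _ =>
        (hc _ ((hL i).append ((hL j).map hcj))).const_mul (a i * a j)) ?_
      exact hpos.mono fun δ hδ => mom_rp h hδ n a L hL hs
  have hnil : Tests [] := fun f hf => by simp at hf
  have htwo : ∀ f g, Test f → Test g → S [f, g] = σ ^ 2 * cov f g := fun f g hf hg => by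
    have h1 := hc [f, g] (Tests.cons hf (Tests.cons hg hnil))
    simp only [mom_two] at h1
    exact tendsto_nhds_unique h1 ((hC.lim f g hf hg).mono_left hU)
  refine ⟨S, ⟨?_, hperm, fun a b f g l hf hg hl => ?_, fun f hf => ?_, htwo, fun n => ?_,
    hpre.psd, fun m c u A => pre_ext hpre htwo m c u A, fun m c A B => pre_move hpre m c A B⟩, hc⟩
  · refine tendsto_nhds_unique (hc [] hnil) ?_
    simp [mom]
  · refine tendsto_nhds_unique_of_eventuallyEq (hc _ (Tests.cons (hf.lin hg a b) hl))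
      (((hc _ (Tests.cons hf hl)).const_mul a).add ((hc _ (Tests.cons hg hl)).const_mul b)) ?_
    exact hpos.mono fun δ hδ => mom_lin h hδ hl hf hg a b
  · exact tendsto_nhds_unique_of_eventuallyEq (hc _ (Tests.cons hf hnil)) tendsto_const_nhds
      (hpos.mono fun δ hδ => mom_one h hδ hf)
  · obtain ⟨C, hC0, H⟩ := C0_ev h hM hC n
    refine ⟨C * |σ| * (|σ| + 1) ^ n, by positivity, fun f l hf hl hn => ?_⟩
    have h1 : ∀ ε : ℝ, 0 < ε → |S (f :: l)| ≤
        C * (|σ| * √(cov f f) + ε) * (l.map fun g => (|σ| + 1) * nn g + ε).prod := fun ε hε =>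
      le_of_tendsto (hc _ (Tests.cons hf hl)).abs ((H f l hf hl hn ε hε).filter_mono hU)
    have h2 : Continuous fun ε : ℝ =>
        C * (|σ| * √(cov f f) + ε) * (l.map fun g => (|σ| + 1) * nn g + ε).prod :=
      (continuous_const.mul (continuous_const.add continuous_id)).mul
        (continuous_list_prod l fun g _ => continuous_const.add continuous_id)
    have h3 := ge_of_tendsto ((h2.tendsto 0).mono_left (nhdsWithin_le_nhds (s := Set.Ioi 0)))
      (eventually_nhdsWithin_of_forall h1)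
    simp only [add_zero, C0_prod, hn] at h3
    refine h3.trans_eq ?_
    ring

end Vale.Agent.P153
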