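import Vale.Agent.P153.Defs

/-! Definitions for part C0. -/

open MeasureTheory Filter Topology

noncomputable section

namespace Vale.Agent.P153

/-- The product of the tested heights. -/
def pr (δ : ℝ) (l : List (ℂ → ℝ)) (k : Cfg) : ℝ := (l.map fun f => fld δ f k).prod

/-- Reflection in the real axis. -/
def cj (f : ℂ → ℝ) : ℂ → ℝ := fun z => f ((starRingEnd ℂ) z)

/-- Rotation. -/
def rt (f : ℂ → ℝ) : ℂ → ℝ := fun z => f (om * z)

/-- Pull-back by a rigid motion. -/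
def pb (m : ℕ) (a : ℂ) (f : ℂ → ℝ) : ℂ → ℝ := fun z => f (om ^ m * z + a)

/-- The size of a test function at mesh `δ`. -/
def sz (P : Measure Cfg) (δ : ℝ) (f : ℂ → ℝ) : ℝ := √(∫ k, fld δ f k ^ 2 ∂P) + ∫ z, |f z|

/-- Symmetries and reflection positivity of the limit functional. -/
structure Pre (S : List (ℂ → ℝ) → ℝ) : Prop where
  perm : ∀ l l', l.Perm l' → S l = S l'
  psd : ∀ (n : ℕ) (a : Fin n → ℝ) (l : Fin n → List (ℂ → ℝ)), (∀ i, Tests (l i)) →
    0 ≤ ∑ i, ∑ j, a i * a j * S (l i ++ l j)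
  rt : ∀ l, Tests l → S (l.map rt) = S l
  cj : ∀ l, Tests l → S (l.map cj) = S l
  tr : ∀ a l, Tests l → S (l.map (tr a)) = S l
  rp : ∀ (n : ℕ) (a : Fin n → ℝ) (l : Fin n → List (ℂ → ℝ)), (∀ i, Tests (l i)) →
    (∀ i, Sup (l i) {z | 0 < z.im}) → 0 ≤ ∑ i, ∑ j, a i * a j * S (l i ++ (l j).map P153.cj)

theorem mom_eq (P : Measure Cfg) (δ : ℝ) (l : List (ℂ → ℝ)) :
    mom P δ l = ∫ k, pr δ l k ∂P := rfl

theorem pr_nil (δ : ℝ) (k : Cfg) : pr δ [] k = 1 := rfl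

theorem pr_cons (δ : ℝ) (f : ℂ → ℝ) (l : List (ℂ → ℝ)) (k : Cfg) :
    pr δ (f :: l) k = fld δ f k * pr δ l k := by simp [pr]

theorem pr_append (δ : ℝ) (l l' : List (ℂ → ℝ)) (k : Cfg) :
    pr δ (l ++ l') k = pr δ l k * pr δ l' k := by simp [pr]

theorem mom_perm (P : Measure Cfg) (δ : ℝ) {l l' : List (ℂ → ℝ)} (h : l.Perm l') :
    mom P δ l = mom P δ l' := by
  unfold mom
  simp only [fun k => (h.map fun f => fld δ f k).prod_eq]

theorem Tests.cons {f : ℂ → ℝ} {l : List (ℂ → ℝ)} (hf : Test f) (hl : Tests l) :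
    Tests (f :: l) := fun g hg => by
  rcases List.mem_cons.1 hg with rfl | h
  · exact hf
  · exact hl g h

theorem Tests.append {l l' : List (ℂ → ℝ)} (hl : Tests l) (hl' : Tests l') :
    Tests (l ++ l') := fun g hg => (List.mem_append.1 hg).elim (hl g) (hl' g)

theorem Tests.map {l : List (ℂ → ℝ)} (hl : Tests l) {F : (ℂ → ℝ) → ℂ → ℝ}
    (hF : ∀ f, Test f → Test (F f)) : Tests (l.map F) := fun g hg => by
  obtain ⟨f, hf, rfl⟩ := List.mem_map.1 hg
  exact hF f (hl f hf)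

theorem Tests.head {f : ℂ → ℝ} {l : List (ℂ → ℝ)} (h : Tests (f :: l)) : Test f :=
  h f (by simp)

theorem Tests.tail {f : ℂ → ℝ} {l : List (ℂ → ℝ)} (h : Tests (f :: l)) : Tests l :=
  fun g hg => h g (List.mem_cons_of_mem _ hg)

end Vale.Agent.P153
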