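import Vale.Agent.P153.Defs

/-! Local observables. -/

open MeasureTheory Filter Topology

noncomputable section

namespace Vale.Agent.P153

variable {S S' : Finset (ℤ × ℤ)} {F G : Cfg → ℝ}

theorem Loc.mono (h : Loc S F) (hS : S ⊆ S') : Loc S' F :=
  fun k k' e => h k k' fun x hx y hy => e x (hS hx) y (hS hy)

theorem Loc.const (S : Finset (ℤ × ℤ)) (c : ℝ) : Loc S fun _ => c := fun _ _ _ => rfl

theorem Loc.comp (h : Loc S F) (φ : ℝ → ℝ) : Loc S fun k => φ (F k) :=
  fun k k' e => congrArg φ (h k k' e)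

theorem Loc.comp₂ (h : Loc S F) (h' : Loc S' G) (φ : ℝ → ℝ → ℝ) :
    Loc (S ∪ S') fun k => φ (F k) (G k) := fun k k' e =>
  congrArg₂ φ (h.mono Finset.subset_union_left k k' e) (h'.mono Finset.subset_union_right k k' e)

theorem Loc.pi {ι : Type} [Fintype ι] {T : ι → Finset (ℤ × ℤ)} {Y : ι → Cfg → ℝ}
    (h : ∀ i, Loc (T i) (Y i)) (φ : (ι → ℝ) → ℝ) :
    Loc (Finset.univ.biUnion T) fun k => φ fun i => Y i k := fun k k' e =>
  congrArg φ (funext fun i =>
    (h i).mono (Finset.subset_biUnion_of_mem T (Finset.mem_univ i)) k k' e)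

theorem Loc.map (h : Loc S F) (e : ℤ × ℤ → ℤ × ℤ) : Loc (S.image e) fun k => F fun x => k (e x) :=
  fun _ _ q => h _ _ fun _ hx _ hy =>
    q _ (Finset.mem_image_of_mem e hx) _ (Finset.mem_image_of_mem e hy)

theorem Loc.diff (x y : ℤ × ℤ) : Loc {x, y} fun k => ((k x - k y : ℤ) : ℝ) := fun _ _ e =>
  congrArg (fun t : ℤ => (t : ℝ)) (e x (by simp) y (by simp))

/-- Extension by zero. -/
def h4_ext (S : Finset (ℤ × ℤ)) (η : S → ℤ) : Cfg := fun x => if h : x ∈ S then η ⟨x, h⟩ else 0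

theorem h4_eq (h : Loc S F) (k : Cfg) (c : ℤ) : F k = F (h4_ext S fun x => k x - c) :=
  h _ _ fun x hx y hy => by simp [h4_ext, hx, hy]

/-- `F` factors through the countable discrete space `S → ℤ` (`measurable_of_countable`). -/
theorem Loc.meas (h : Loc S F) : Measurable F := by
  have e : F = (fun η : S → ℤ => F (h4_ext S η)) ∘ fun (k : Cfg) (x : S) => k x :=
    funext fun k => by simpa using h4_eq h k 0
  rw [e]
  exact (measurable_of_countable _).comp (measurable_pi_lambda _ fun x => measurable_pi_apply x.1)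

theorem h4_neg {k : Cfg} {e : ℤ × ℤ} (h : ∀ z, |k (z + e) - k z| ≤ 1) (z : ℤ × ℤ) :
    |k (z + -e) - k z| ≤ 1 := by
  have := h (z + -e)
  rwa [neg_add_cancel_right, abs_sub_comm] at this

theorem h4_le {k : Cfg} (h : Lip k) (y : ℤ × ℤ) (n : ℕ) : ∀ a b : ℤ, |a| ≤ n → |b| ≤ n →
    |a + b| ≤ n → |k (y + (a, b)) - k y| ≤ n := by
  induction n with
  | zero =>
    intro a b ha hb _
    obtain rfl : a = 0 := by simpa using ha
    obtain rfl : b = 0 := by simpa using hb
    have : ((0, 0) : ℤ × ℤ) = 0 := rfl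
    simp [this]
  | succ n ih =>
    intro a b ha hb hab
    have key : ∀ e : ℤ × ℤ, (∀ z, |k (z + e) - k z| ≤ 1) → |a - e.1| ≤ n → |b - e.2| ≤ n →
        |a - e.1 + (b - e.2)| ≤ n → |k (y + (a, b)) - k y| ≤ (n + 1 : ℕ) := fun e he h1 h2 h3 => by
      have k1 := ih _ _ h1 h2 h3
      have k2 := he (y + (a - e.1, b - e.2))
      rw [show y + (a - e.1, b - e.2) + e = y + (a, b) by ext <;> simp [add_assoc]] at k2
      rw [abs_le] at k1 k2 ⊢
      push_cast
      constructor <;> linarith [k1.1, k1.2, k2.1, k2.2]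
    rw [abs_le] at ha hb hab
    push_cast at ha hb hab
    simp only [abs_le] at key
    have p1 := fun z => (h z).1
    have p2 := fun z => (h z).2.1
    have p3 := fun z => (h z).2.2
    have n1 := h4_neg p1
    have n2 := h4_neg p2
    have n3 := h4_neg p3
    simp only [abs_le] at p1 p2 p3 n1 n2 n3
    rw [abs_le]
    rcases lt_trichotomy a 0 with h1 | h1 | h1
    · rcases le_or_gt b 0 with h2 | h2
      · refine key _ n1 ?_ ?_ ?_ <;> simp only [Prod.fst_neg, Prod.snd_neg] <;> omega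
      · refine key _ p3 ?_ ?_ ?_ <;> simp only <;> omega
    · rcases lt_trichotomy b 0 with h2 | h2 | h2
      · refine key _ n2 ?_ ?_ ?_ <;> simp only [Prod.fst_neg, Prod.snd_neg] <;> omega
      · refine key 0 (by simp) ?_ ?_ ?_ <;> simp only [Prod.fst_zero, Prod.snd_zero] <;> omega
      · refine key _ p2 ?_ ?_ ?_ <;> simp only <;> omega
    · rcases le_or_gt 0 b with h2 | h2
      · refine key _ p1 ?_ ?_ ?_ <;> simp only <;> omega
      · refine key _ n3 ?_ ?_ ?_ <;> simp only [Prod.fst_neg, Prod.snd_neg] <;> omega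

theorem Lip.le {k : Cfg} (h : Lip k) (x y : ℤ × ℤ) : |k x - k y| ≤ hx (x - y) := by
  obtain ⟨n, hn⟩ := Int.eq_ofNat_of_zero_le (a := hx (x - y))
    (le_max_of_le_left (abs_nonneg _))
  have := h4_le h y n (x - y).1 (x - y).2 (hn ▸ le_max_left _ _)
    (hn ▸ le_max_of_le_right (le_max_left _ _)) (hn ▸ le_max_of_le_right (le_max_right _ _))
  rwa [Prod.mk.eta, add_sub_cancel, ← hn] at this

/-- Lipschitz functions have finitely many patterns of differences on `S`. -/
theorem Loc.bdd (h : Loc S F) : ∃ C : ℝ, ∀ k, Lip k → |F k| ≤ C := by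
  obtain ⟨C, hC⟩ := ((Set.Finite.pi' fun x : S => Set.finite_Icc (-hx (x - 0)) (hx (x - 0))).image
    fun η => |F (h4_ext S η)|).bddAbove
  refine ⟨C, fun k hk => ?_⟩
  rw [h4_eq h k (k 0)]
  exact hC ⟨_, fun x => abs_le.1 (hk.le x 0), rfl⟩

theorem Loc.int (h : Loc S F) {P : Measure Cfg} [IsFiniteMeasure P] (hP : ∀ᵐ k ∂P, Lip k ∧ k 0 = 0) :
    Integrable F P := by
  obtain ⟨C, hC⟩ := h.bdd
  exact Integrable.of_bound h.meas.aestronglyMeasurable C (hP.mono fun k hk => hC k hk.1)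

end Vale.Agent.P153
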