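import Vale.Agent.P153.T1
import Vale.Agent.P153.H3

/-! Rotations and reflections of test functions. -/

open MeasureTheory Filter Topology

noncomputable section

namespace Vale.Agent.P153

variable {f u : ℂ → ℝ}

theorem t1r_rot {a : ℂ} (ha : ‖a‖ = 1) : ∃ L : ℂ ≃ₗᵢ[ℝ] ℂ, ∀ z, a * z = L z :=
  ⟨rotation ⟨a, mem_sphere_zero_iff_norm.2 ha⟩, fun _ => rfl⟩

theorem t1r_cc (hu : Cc u) (L : ℂ ≃ₗᵢ[ℝ] ℂ) : Cc fun z => u (L z) :=
  ⟨hu.1.comp L.contDiff, hu.2.comp_homeomorph L.toHomeomorph⟩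

theorem t1r_test (hf : Test f) (L : ℂ ≃ₗᵢ[ℝ] ℂ) : Test fun z => f (L z) :=
  ⟨(t1r_cc hf.cc L).1, (t1r_cc hf.cc L).2,
    (L.measurePreserving.integral_comp L.toHomeomorph.measurableEmbedding f).trans hf.2.2⟩

theorem t1r_supp (f : ℂ → ℝ) (L : ℂ ≃ₗᵢ[ℝ] ℂ) : tsupport (fun z => f (L z)) = L ⁻¹' tsupport f :=
  (L.toHomeomorph.preimage_closure (Function.support f)).symm

theorem t1r_lap (u : ℂ → ℝ) (L : ℂ ≃ₗᵢ[ℝ] ℂ) :
    lap (fun z => u (L z)) = fun z => lap u (L z) := by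
  funext z
  have h := L.toContinuousLinearEquiv.iteratedFDerivWithin_comp_right u uniqueDiffOn_univ
    (x := z) (Set.mem_univ _) 2
  rw [Set.preimage_univ, iteratedFDerivWithin_univ, iteratedFDerivWithin_univ] at h
  rw [lap, lap, InnerProductSpace.laplacian_eq_iteratedFDeriv_orthonormalBasis _
    Complex.orthonormalBasisOneI, InnerProductSpace.laplacian_eq_iteratedFDeriv_orthonormalBasis _
    (Complex.orthonormalBasisOneI.map L)]
  refine Finset.sum_congr rfl fun i _ => ?_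
  refine (congrArg (fun T => T ![Complex.orthonormalBasisOneI i,
    Complex.orthonormalBasisOneI i]) h).trans ?_
  rw [ContinuousMultilinearMap.compContinuousLinearMap_apply]
  congr 1
  funext j
  fin_cases j <;> rfl

theorem Cc.unit (hu : Cc u) {a : ℂ} (ha : ‖a‖ = 1) : Cc fun z => u (a * z) := by
  obtain ⟨L, hL⟩ := t1r_rot ha
  simpa only [hL] using t1r_cc hu L

theorem Cc.conj (hu : Cc u) : Cc fun z => u ((starRingEnd ℂ) z) := t1r_cc hu Complex.conjLIE

theorem Test.unit (hf : Test f) {a : ℂ} (ha : ‖a‖ = 1) : Test fun z => f (a * z) := by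
  obtain ⟨L, hL⟩ := t1r_rot ha
  simpa only [hL] using t1r_test hf L

theorem Test.conj (hf : Test f) : Test fun z => f ((starRingEnd ℂ) z) :=
  t1r_test hf Complex.conjLIE

theorem tsupport_unit (f : ℂ → ℝ) {a : ℂ} (ha : ‖a‖ = 1) :
    tsupport (fun z => f (a * z)) = (fun z => a * z) ⁻¹' tsupport f := by
  obtain ⟨L, hL⟩ := t1r_rot ha
  simpa only [hL] using t1r_supp f L

theorem tsupport_conj (f : ℂ → ℝ) :
    tsupport (fun z => f ((starRingEnd ℂ) z)) = (starRingEnd ℂ) ⁻¹' tsupport f :=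
  t1r_supp f Complex.conjLIE

/-- The Laplacian commutes with isometries (`laplacian_eq_iteratedFDeriv_orthonormalBasis`). -/
theorem lap_unit (hu : Cc u) {a : ℂ} (ha : ‖a‖ = 1) :
    lap (fun z => u (a * z)) = fun z => lap u (a * z) := by
  obtain ⟨L, hL⟩ := t1r_rot ha
  simpa only [hL] using t1r_lap u L

theorem lap_conj (hu : Cc u) :
    lap (fun z => u ((starRingEnd ℂ) z)) = fun z => lap u ((starRingEnd ℂ) z) :=
  t1r_lap u Complex.conjLIE

end Vale.Agent.P153
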