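import Vale.Agent.P153.C0D
import Vale.Agent.P153.H2
import Vale.Agent.P153.H4
import Vale.Agent.P153.T1R

/-! Moments at a fixed mesh. -/

open MeasureTheory Filter Topology

noncomputable section

namespace Vale.Agent.P153

variable {P : Measure Cfg} [IsProbabilityMeasure P] {δ : ℝ} {l : List (ℂ → ℝ)}

theorem c0b_pos (hδ : 0 < δ) {f : ℂ → ℝ} (hs : tsupport f ⊆ {z | 0 < z.im}) {x : ℤ × ℤ}
    (hx : wt δ f x ≠ 0) : 0 ≤ x.2 := by
  by_contra hn
  have h0 : (x.2 : ℝ) ≤ -1 := by exact_mod_cast (show x.2 ≤ -1 by omega)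
  refine hx ?_
  have h1 : ∀ z : ℂ, hat (z / δ - pos x) * f z = 0 := fun z => by
    by_cases hz : f z = 0
    · rw [hz, mul_zero]
    have h2 : 0 < z.im := hs (subset_tsupport f hz)
    have h3 : (0 : ℝ) < √3 := by positivity
    have h4 : 1 ≤ 2 * (z / δ - pos x).im / √3 := by
      rw [le_div_iff₀ h3, Complex.sub_im, pos_im, Complex.div_ofReal_im]
      have := div_pos h2 hδ
      nlinarith
    refine mul_eq_zero_of_left (max_eq_left ?_) _
    rw [sub_nonpos]
    exact le_max_of_le_right (le_max_of_le_left (h4.trans (le_abs_self _)))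
  simp only [wt, h1, integral_zero]

theorem c0b_cj (δ : ℝ) (l : List (ℂ → ℝ)) (k : Cfg) :
    pr δ l (fun x => k (rfl0 x)) = pr δ (l.map cj) k := by
  simp only [pr, List.map_map]
  congr 1
  exact List.map_congr_left fun f _ => fld_rfl0 f k

theorem c0b_rt {f : ℂ → ℝ} (hf : Test f) : Test (rt f) := by
  have h0 : om ≠ 0 := fun h => by simpa [h] using om_norm
  exact ⟨hf.1.comp (contDiff_const.mul contDiff_id),
    hf.2.1.comp_homeomorph (Homeomorph.mulLeft₀ om h0), (integral_unit om_norm f).trans hf.2.2⟩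

theorem c0b_cjt {f : ℂ → ℝ} (hf : Test f) : Test (cj f) :=
  ⟨hf.1.comp Complex.conjCLE.contDiff,
    hf.2.1.comp_homeomorph Complex.conjCLE.toHomeomorph, (integral_conj' f).trans hf.2.2⟩

/-- `S = ⋃ (Wt δ f).support`; `fld_loc`, `Loc.comp₂`; `wt_supp` and `pos_im` are not sharp
enough for the last claim: use that `hat w ≠ 0` gives `|2 * w.im / √3| < 1`. -/
theorem pr_loc (hδ : 0 < δ) (hl : Tests l) :
    ∃ S, Loc S (pr δ l) ∧ (Sup l {z | 0 < z.im} → ∀ x ∈ S, 0 ≤ x.2) := by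
  induction l with
  | nil => exact ⟨∅, Loc.const ∅ 1, fun _ x hx => absurd hx (Finset.notMem_empty x)⟩
  | cons f l ih =>
    obtain ⟨S, h1, h2⟩ := ih hl.tail
    refine ⟨(Wt δ f).support ∪ S, ?_, fun hs x hx => ?_⟩
    · rw [show pr δ (f :: l) = _ from funext (pr_cons δ f l)]
      exact (fld_loc hδ hl.head).comp₂ h1 fun a b => a * b
    · rcases Finset.mem_union.1 hx with hx | hx
      · rw [Finsupp.mem_support_iff, Wt_apply hδ hl.head.2.1] at hx
        exact c0b_pos hδ (hs f (by simp)) hx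
      · exact h2 (fun g hg => hs g (List.mem_cons_of_mem _ hg)) x hx

theorem pr_int (h : Good P) (hδ : 0 < δ) (hl : Tests l) : Integrable (pr δ l) P := by
  obtain ⟨S, h1, -⟩ := pr_loc hδ hl
  exact h1.int h.lip

theorem mom_rt (h : Good P) (hδ : 0 < δ) (hl : Tests l) : mom P δ (l.map rt) = mom P δ l := by
  obtain ⟨S, h1, -⟩ := pr_loc hδ (hl.map (F := rt) fun f hf => c0b_rt hf)
  rw [mom_eq, mom_eq, ← h.rot S _ h1]
  refine integral_congr_ae (Eventually.of_forall fun k => ?_)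
  simp only [pr, List.map_map]
  congr 1
  exact List.map_congr_left fun f _ => fld_rot f k

theorem mom_cj (h : Good P) (hδ : 0 < δ) (hl : Tests l) : mom P δ (l.map cj) = mom P δ l := by
  obtain ⟨S, h1, -⟩ := pr_loc hδ hl
  rw [mom_eq, mom_eq, ← h.rfl0 S _ h1]
  exact integral_congr_ae (Eventually.of_forall fun k => (c0b_cj δ l k).symm)

theorem mom_tr (h : Good P) (hδ : 0 < δ) (hl : Tests l) (y : ℤ × ℤ) :
    mom P δ (l.map (tr (δ * pos y))) = mom P δ l := by
  obtain ⟨S, h1, -⟩ := pr_loc hδ hl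
  rw [mom_eq, mom_eq, ← h.shift S _ h1 y]
  refine integral_congr_ae (Eventually.of_forall fun k => ?_)
  simp only [pr, List.map_map]
  congr 1
  exact List.map_congr_left fun f _ => fld_shift hδ f y k

theorem mom_one (h : Good P) (hδ : 0 < δ) {f : ℂ → ℝ} (hf : Test f) : mom P δ [f] = 0 := by
  have h1 := h.neg _ _ (fld_loc hδ hf)
  simp only [fld_neg, integral_neg] at h1
  have h2 : mom P δ [f] = ∫ k, fld δ f k ∂P := by simp [mom]
  rw [h2]
  linarith

theorem mom_two (δ : ℝ) (f g : ℂ → ℝ) :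
    mom P δ [f, g] = ∫ k, fld δ f k * fld δ g k ∂P := by
  simp [mom]

theorem mom_lin (h : Good P) (hδ : 0 < δ) (hl : Tests l) {f g : ℂ → ℝ} (hf : Test f)
    (hg : Test g) (a b : ℝ) : mom P δ ((fun z => a * f z + b * g z) :: l) =
      a * mom P δ (f :: l) + b * mom P δ (g :: l) := by
  rw [mom_eq, mom_eq, mom_eq, ← integral_const_mul, ← integral_const_mul,
    ← integral_add ((pr_int h hδ (Tests.cons hf hl)).const_mul a)
      ((pr_int h hδ (Tests.cons hg hl)).const_mul b)]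
  refine integral_congr_ae (Eventually.of_forall fun k => ?_)
  simp only [pr_cons, fld_lin hδ hf hg]
  ring

theorem c0b_sum (h : Good P) (hδ : 0 < δ) (n : ℕ) (a : Fin n → ℝ)
    (L L' : Fin n → List (ℂ → ℝ)) (hL : ∀ i, Tests (L i)) (hL' : ∀ i, Tests (L' i)) :
    ∑ i, ∑ j, a i * a j * mom P δ (L i ++ L' j) =
      ∫ k, (∑ i, a i * pr δ (L i) k) * (∑ j, a j * pr δ (L' j) k) ∂P := by
  have h1 : ∀ i j, Integrable (fun k => a i * a j * pr δ (L i ++ L' j) k) P := fun i j =>
    (pr_int h hδ ((hL i).append (hL' j))).const_mul _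
  simp only [mom_eq, ← integral_const_mul]
  rw [Finset.sum_congr rfl fun i _ => (integral_finset_sum _ fun j _ => h1 i j).symm,
    ← integral_finset_sum _ fun i _ => integrable_finset_sum _ fun j _ => h1 i j]
  refine integral_congr_ae (Eventually.of_forall fun k => ?_)
  simp only [Finset.sum_mul_sum, pr_append]
  refine Finset.sum_congr rfl fun i _ => Finset.sum_congr rfl fun j _ => ?_
  ring

/-- The integral of `(∑ i, a i * pr δ (L i) k) ^ 2`. -/
theorem mom_psd (h : Good P) (hδ : 0 < δ) (n : ℕ) (a : Fin n → ℝ) (L : Fin n → List (ℂ → ℝ))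
    (hL : ∀ i, Tests (L i)) : 0 ≤ ∑ i, ∑ j, a i * a j * mom P δ (L i ++ L j) := by
  rw [c0b_sum h hδ n a L L hL hL]
  exact integral_nonneg fun k => mul_self_nonneg _

/-- `h.rp` for `F k = ∑ i, a i * pr δ (L i) k` (`Loc.pi`), `fld_rfl0`. -/
theorem mom_rp (h : Good P) (hδ : 0 < δ) (n : ℕ) (a : Fin n → ℝ) (L : Fin n → List (ℂ → ℝ))
    (hL : ∀ i, Tests (L i)) (hS : ∀ i, Sup (L i) {z | 0 < z.im}) :
    0 ≤ ∑ i, ∑ j, a i * a j * mom P δ (L i ++ (L j).map cj) := by
  rw [c0b_sum h hδ n a L (fun j => (L j).map cj) hL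
    fun j => (hL j).map (F := cj) fun f hf => c0b_cjt hf]
  choose S h1 h2 using fun i => pr_loc hδ (hL i)
  have h3 := h.rp _ _ (Loc.pi h1 fun Y => ∑ i, a i * Y i) fun x hx => by
    obtain ⟨i, -, hi⟩ := Finset.mem_biUnion.1 hx
    exact h2 i (hS i) x hi
  simpa only [c0b_cj] using h3

end Vale.Agent.P153
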