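import Vale.Agent.P153.C0c
import Vale.Agent.P153.T3

/-! Asymptotic invariance under all translations. -/

open MeasureTheory Filter Topology

noncomputable section

namespace Vale.Agent.P153

variable {P : Measure Cfg} [IsProbabilityMeasure P]

/-- A bounded family of test functions. -/
def Bd (P : Measure Cfg) (F : ℝ → ℂ → ℝ) : Prop :=
  (∀ δ, Test (F δ)) ∧ ∃ L : ℝ, ∀ᶠ δ in 𝓝[>] 0, sz P δ (F δ) ≤ L

theorem C0f_bd (r : List (ℝ → ℂ → ℝ)) (hr : ∀ F ∈ r, Bd P F) :
    ∃ L : ℝ, 0 < L ∧ ∀ᶠ δ in 𝓝[>] 0, ∀ F ∈ r, sz P δ (F δ) ≤ L := by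
  induction r with
  | nil => exact ⟨1, one_pos, by simp⟩
  | cons F r ih =>
    obtain ⟨L, hL, h1⟩ := ih fun G hG => hr G (List.mem_cons_of_mem _ hG)
    obtain ⟨-, L', h2⟩ := hr F (by simp)
    refine ⟨max L L', lt_max_of_lt_left hL, ?_⟩
    filter_upwards [h1, h2] with δ a b G hG
    rcases List.mem_cons.1 hG with rfl | hG
    · exact b.trans (le_max_right _ _)
    · exact (a G hG).trans (le_max_left _ _)

theorem C0f_one (h : Good P) (hM : Mom P) {F G : ℝ → ℂ → ℝ} (hF : ∀ δ, Test (F δ))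
    (hG : ∀ δ, Test (G δ))
    (ht : Tendsto (fun δ => ∫ k, fld δ (fun z => F δ z - G δ z) k ^ 2 ∂P) (𝓝[>] 0) (𝓝 0))
    (r : List (ℝ → ℂ → ℝ)) (hr : ∀ F ∈ r, Bd P F) :
    Tendsto (fun δ => mom P δ (F δ :: r.map fun F => F δ) - mom P δ (G δ :: r.map fun F => F δ))
      (𝓝[>] 0) (𝓝 0) := by
  obtain ⟨L, hL, h1⟩ := C0f_bd r hr
  obtain ⟨C, hC, h2⟩ := mom_bound h hM r.length
  have h3 : Tendsto (fun δ => C * √(∫ k, fld δ (fun z => F δ z - G δ z) k ^ 2 ∂P) *
      L ^ r.length) (𝓝[>] 0) (𝓝 0) := by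
    simpa using ((ht.sqrt).const_mul C).mul_const (L ^ r.length)
  refine squeeze_zero_norm' ?_ h3
  filter_upwards [h1, self_mem_nhdsWithin] with δ a hδ
  have hT : Tests (r.map fun F => F δ) := fun g hg => by
    obtain ⟨H, hH, rfl⟩ := List.mem_map.1 hg
    exact (hr H hH).1 δ
  have e := mom_lin h hδ hT (hF δ) (hG δ) 1 (-1)
  have b := h2 δ hδ _ _ ((hF δ).sub (hG δ)) hT (by simp) (fun _ => L) (fun g hg => by
    obtain ⟨H, hH, rfl⟩ := List.mem_map.1 hg
    exact ⟨hL, a H hH⟩)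
  simp only [one_mul, neg_mul, ← sub_eq_add_neg] at e
  rw [e, List.map_const', List.prod_replicate, List.length_map] at b
  exact b

theorem C0f_const {σ : ℝ} (hC : CovT P σ) {f : ℂ → ℝ} (hf : Test f) :
    ∃ L : ℝ, ∀ᶠ δ in 𝓝[>] 0, sz P δ f ≤ L := by
  have h1 := ((hC.lim f f hf hf).sqrt).add_const (∫ z, |f z|)
  refine ⟨(√(σ ^ 2 * cov f f) + ∫ z, |f z|) + 1,
    (h1.eventually (gt_mem_nhds (lt_add_one _))).mono fun δ hδ => ?_⟩
  simpa only [sz, sq] using hδ.le

theorem C0f_sz (h : Good P) {δ : ℝ} (hδ : 0 < δ) {f : ℂ → ℝ} (hf : Test f) (y : ℤ × ℤ) :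
    sz P δ (tr (δ * pos y) f) = sz P δ f := by
  have h1 := mom_tr h hδ (Tests.cons hf (Tests.cons hf (l := []) (by simp [Tests]))) y
  simp only [List.map_cons, List.map_nil, mom_two] at h1
  simp only [sz, sq, h1]
  congr 1
  exact integral_sub_right_eq_self (fun z => |f z|) _

theorem mom_close (h : Good P) (hM : Mom P) (l : List ((ℝ → ℂ → ℝ) × (ℝ → ℂ → ℝ)))
    (hl : ∀ p ∈ l, Bd P p.1 ∧ Bd P p.2 ∧ Tendsto
      (fun δ => ∫ k, fld δ (fun z => p.1 δ z - p.2 δ z) k ^ 2 ∂P) (𝓝[>] 0) (𝓝 0))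
    (r : List (ℝ → ℂ → ℝ)) (hr : ∀ F ∈ r, Bd P F) :
    Tendsto (fun δ => mom P δ (l.map (fun p => p.1 δ) ++ r.map fun F => F δ) -
      mom P δ (l.map (fun p => p.2 δ) ++ r.map fun F => F δ)) (𝓝[>] 0) (𝓝 0) := by
  induction l generalizing r with
  | nil => simp
  | cons p l ih =>
    obtain ⟨h1, h2, h3⟩ := hl p (by simp)
    have hl' := fun q hq => hl q (List.mem_cons_of_mem _ hq)
    have a := C0f_one h hM h1.1 h2.1 h3 (l.map Prod.fst ++ r) (fun F hF => by
      rcases List.mem_append.1 hF with hF | hF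
      · obtain ⟨q, hq, rfl⟩ := List.mem_map.1 hF
        exact (hl' q hq).1
      · exact hr F hF)
    have b := ih hl' (p.2 :: r) (fun F hF => by
      rcases List.mem_cons.1 hF with rfl | hF
      exacts [h2, hr F hF])
    have c := a.add b
    rw [add_zero] at c
    refine c.congr fun δ => ?_
    simp only [List.map_append, List.map_map, List.map_cons, List.cons_append, Function.comp_def]
    rw [mom_perm P δ (List.perm_middle (l₁ := l.map fun p => p.1 δ)),
      mom_perm P δ (List.perm_middle (l₁ := l.map fun p => p.2 δ))]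
    ring

theorem mom_tr_lim (h : Good P) (hM : Mom P) {σ : ℝ} (hC : CovT P σ) (a : ℂ)
    {l : List (ℂ → ℝ)} (hl : Tests l) :
    Tendsto (fun δ => mom P δ (l.map (tr a)) - mom P δ l) (𝓝[>] 0) (𝓝 0) := by
  choose y hy using fun δ : ℝ => exists_pos_near (a / δ)
  have hb : Tendsto (fun δ : ℝ => δ * pos (y δ) - a) (𝓝[>] 0) (𝓝 0) := by
    have h1 : Tendsto (fun δ : ℝ => δ * 2) (𝓝[>] 0) (𝓝 0) := by
      simpa using ((tendsto_id (x := 𝓝 (0 : ℝ))).mul_const 2).mono_left nhdsWithin_le_nhds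
    refine squeeze_zero_norm' ?_ h1
    filter_upwards [self_mem_nhdsWithin] with δ hδ
    have h0 : (0 : ℝ) < δ := hδ
    have h2 : (δ : ℂ) ≠ 0 := by exact_mod_cast h0.ne'
    have h3 : δ * pos (y δ) - a = -(δ * (a / δ - pos (y δ))) := by
      field_simp
      ring
    rw [h3, norm_neg, norm_mul, Complex.norm_real, Real.norm_of_nonneg h0.le]
    exact mul_le_mul_of_nonneg_left (hy δ) h0.le
  obtain ⟨C, hC0, hle⟩ := hC.le
  have key := mom_close h hM (l.map fun f => (fun δ : ℝ => tr (δ * pos (y δ)) f, fun _ => tr a f))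
    (fun p hp => by
      obtain ⟨f, hf, rfl⟩ := List.mem_map.1 hp
      have hf' := hl f hf
      refine ⟨⟨fun δ => hf'.tr _, ?_⟩, ⟨fun _ => hf'.tr a, C0f_const hC (hf'.tr a)⟩, ?_⟩
      · obtain ⟨L, hL⟩ := C0f_const hC hf'
        refine ⟨L, ?_⟩
        filter_upwards [hL, self_mem_nhdsWithin] with δ h1 hδ
        exact (C0f_sz h hδ hf' _).trans_le h1
      · have h1 := ((m1_tv_tr (hf'.tr a).cc).comp hb).const_mul C
        rw [mul_zero] at h1
        refine squeeze_zero' (Eventually.of_forall fun δ => integral_nonneg fun k => sq_nonneg _)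
          ?_ h1
        filter_upwards [Ioc_mem_nhdsGT (zero_lt_one' ℝ)] with δ hδ
        have h2 := hle δ hδ _ ((hf'.tr (δ * pos (y δ))).sub (hf'.tr a))
        simp only [Function.comp_def, tr_tr, sub_add_cancel]
        rwa [mul_assoc] at h2) [] (by simp)
  have k2 := key.neg
  rw [neg_zero] at k2
  refine k2.congr' ?_
  filter_upwards [self_mem_nhdsWithin] with δ hδ
  simp only [List.map_map, List.map_nil, List.append_nil, Function.comp_def]
  rw [← mom_tr h hδ hl (y δ), neg_sub]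

end Vale.Agent.P153
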