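import Vale.Agent.P153.C0D
import Vale.Agent.P153.T1R

/-! Rigid motions of test functions. -/

open MeasureTheory Filter Topology

noncomputable section

namespace Vale.Agent.P153

theorem c0t_norm (m : ℕ) : ‖om ^ m‖ = 1 := by rw [norm_pow, om_norm, one_pow]

theorem c0t_pb (m : ℕ) (a : ℂ) (f : ℂ → ℝ) : pb m a f = fun z => tr (-a) f (om ^ m * z) := by
  funext z
  simp only [pb, tr, sub_neg_eq_add]

theorem test_pb {f : ℂ → ℝ} (hf : Test f) (m : ℕ) (a : ℂ) : Test (pb m a f) := by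
  rw [c0t_pb]
  exact (hf.tr (-a)).unit (c0t_norm m)

theorem cc_pb {f : ℂ → ℝ} (hf : Cc f) (m : ℕ) (a : ℂ) : Cc (pb m a f) := by
  rw [c0t_pb]
  exact (hf.tr (-a)).unit (c0t_norm m)

/-- `pb m a u = fun z => tr (-a) u (om ^ m * z)`; `lap_unit`, `lap_tr`. -/
theorem lap_pb {u : ℂ → ℝ} (hu : Cc u) (m : ℕ) (a : ℂ) : lap (pb m a u) = pb m a (lap u) := by
  rw [c0t_pb, c0t_pb, lap_unit (hu.tr (-a)) (c0t_norm m), lap_tr hu]

theorem co_pb (m : ℕ) (c : ℝ) (z : ℂ) : co m (om ^ m * z + c * nv m) = z.im + c := by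
  have h : om ^ m * (starRingEnd ℂ) (om ^ m) = 1 := by
    rw [Complex.mul_conj, Complex.normSq_eq_norm_sq, c0t_norm]
    simp
  have e : (om ^ m * z + c * nv m) * (starRingEnd ℂ) (nv m) = -Complex.I * z + c := by
    unfold nv
    rw [map_mul, Complex.conj_I]
    linear_combination (-Complex.I * z - c * Complex.I ^ 2) * h - c * Complex.I_sq
  unfold co
  rw [e]
  simp

theorem mem_pb {f : ℂ → ℝ} {m : ℕ} {a z : ℂ} (h : z ∈ tsupport (pb m a f)) :
    om ^ m * z + a ∈ tsupport f := by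
  rw [c0t_pb, tsupport_unit _ (c0t_norm m), tsupport_tr] at h
  obtain ⟨w, hw, e⟩ := h
  have e' : om ^ m * z + a = w := by
    simp only at e
    rw [← e]
    ring
  rwa [e']

theorem pb_up {f : ℂ → ℝ} {m : ℕ} {c : ℝ} (h : tsupport f ⊆ {z | c < co m z}) :
    tsupport (pb m (c * nv m) f) ⊆ {z | 0 < z.im} := by
  intro z hz
  have h1 := h (mem_pb hz)
  simp only [Set.mem_ofPred_eq, co_pb] at h1 ⊢
  linarith

theorem pb_down {f : ℂ → ℝ} {m : ℕ} {c : ℝ} (h : tsupport f ⊆ {z | co m z < c}) :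
    tsupport (pb m (c * nv m) f) ⊆ {z | z.im < 0} := by
  intro z hz
  have h1 := h (mem_pb hz)
  simp only [Set.mem_ofPred_eq, co_pb] at h1 ⊢
  linarith

theorem cj_down {f : ℂ → ℝ} (h : tsupport f ⊆ {z | z.im < 0}) :
    tsupport (cj f) ⊆ {z | 0 < z.im} := by
  intro z hz
  unfold cj at hz
  rw [tsupport_conj] at hz
  have h1 := h hz
  simp only [Set.mem_ofPred_eq, Complex.conj_im] at h1 ⊢
  linarith

theorem cj_up {f : ℂ → ℝ} (h : tsupport f ⊆ {z | 0 < z.im}) :
    tsupport (cj f) ⊆ {z | z.im < 0} := by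
  intro z hz
  unfold cj at hz
  rw [tsupport_conj] at hz
  have h1 := h hz
  simp only [Set.mem_ofPred_eq, Complex.conj_im] at h1 ⊢
  linarith

theorem tr_up {f : ℂ → ℝ} {s : ℝ} (h : tsupport f ⊆ {z | s < z.im}) (t : ℝ) :
    tsupport (tr (t * Complex.I) f) ⊆ {z | s + t < z.im} := by
  rw [tsupport_tr]
  rintro _ ⟨w, hw, rfl⟩
  have h1 := h hw
  simp only [Set.mem_ofPred_eq, Complex.add_im, Complex.mul_im, Complex.ofReal_re, Complex.I_im,
    Complex.ofReal_im, Complex.I_re] at h1 ⊢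
  linarith

theorem cj_cj (f : ℂ → ℝ) : cj (cj f) = f := by
  funext z
  simp only [cj, Complex.conj_conj]

theorem cj_tr (t : ℝ) (f : ℂ → ℝ) :
    cj (tr (t * Complex.I) f) = tr ((-t : ℝ) * Complex.I) (cj f) := by
  funext z
  simp only [cj, tr, map_sub, map_mul, Complex.conj_ofReal, Complex.conj_I]
  congr 1
  push_cast
  ring

theorem pb_tr (m : ℕ) (a : ℂ) (t : ℝ) (f : ℂ → ℝ) :
    pb m a (tr (t * nv m) f) = tr (t * Complex.I) (pb m a f) := by
  funext z
  simp only [pb, tr, nv]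
  congr 1
  ring

/-- Induction on `m`: `pb 0 a f = tr (-a) f`, `pb (m + 1) a f = rt (pb m a f)`. -/
theorem pre_pb {S : List (ℂ → ℝ) → ℝ} (h : Pre S) (m : ℕ) (a : ℂ) (l : List (ℂ → ℝ))
    (hl : Tests l) : S (l.map (pb m a)) = S l := by
  induction m with
  | zero =>
    have e : pb 0 a = tr (-a) := by
      funext f z
      simp only [pb, tr, pow_zero, one_mul, sub_neg_eq_add]
    rw [e, h.tr _ l hl]
  | succ m ih =>
    have e : pb (m + 1) a = rt ∘ pb m a := by
      funext f z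
      simp only [pb, rt, Function.comp, pow_succ, mul_assoc]
    rw [e, ← List.map_map, h.rt _ (hl.map fun f hf => test_pb hf m a), ih]

/-- A compactly supported list in the open upper half plane has some room. -/
theorem sup_room {l : List (ℂ → ℝ)} (hl : Tests l) (h : Sup l {z | 0 < z.im}) :
    ∃ ε : ℝ, 0 < ε ∧ Sup l {z | ε < z.im} := by
  induction l with
  | nil => exact ⟨1, one_pos, fun f hf => by simp at hf⟩
  | cons f l ih =>
    obtain ⟨ε, hε, h1⟩ := ih hl.tail fun g hg => h g (List.mem_cons_of_mem _ hg)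
    obtain ⟨η, hη, h2⟩ : ∃ η : ℝ, 0 < η ∧ tsupport f ⊆ {z | η < z.im} := by
      rcases (tsupport f).eq_empty_or_nonempty with e | e
      · exact ⟨1, one_pos, by rw [e]; exact Set.empty_subset _⟩
      · obtain ⟨w, hw, hm⟩ := IsCompact.exists_isMinOn hl.head.2.1 e
          Complex.continuous_im.continuousOn
        have h3 : 0 < w.im := h f (by simp) hw
        refine ⟨w.im / 2, by linarith, fun z hz => ?_⟩
        have h4 : w.im ≤ z.im := hm hz
        change w.im / 2 < z.im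
        linarith
    refine ⟨min ε η, lt_min hε hη, fun g hg z hz => ?_⟩
    rcases List.mem_cons.1 hg with rfl | hg
    · exact (min_le_right ε η).trans_lt (show η < z.im from h2 hz)
    · exact (min_le_left ε η).trans_lt (show ε < z.im from h1 g hg hz)

end Vale.Agent.P153
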