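import Vale.Agent.P153.T7

/-! Locality of the limit functional. -/

open MeasureTheory Filter Topology

noncomputable section

namespace Vale.Agent.P153

theorem C1_s3 : √3 * √3 = (3 : ℝ) := Real.mul_self_sqrt (by norm_num)

theorem C1_nv0 : nv 0 = ⟨0, 1⟩ := by
  apply Complex.ext <;> simp [nv]

theorem C1_nv1 : nv 1 = ⟨-(√3 / 2), 1 / 2⟩ := by
  apply Complex.ext <;> simp [nv, om]

theorem C1_nv2 : nv 2 = ⟨-(√3 / 2), -(1 / 2)⟩ := by
  have h : nv 2 = nv 1 * om := by simp only [nv]; ring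
  have := C1_s3
  rw [h, C1_nv1]
  apply Complex.ext <;> simp [om] <;> nlinarith

theorem C1_nv3 : nv 3 = ⟨0, -1⟩ := by
  have h : nv 3 = nv 2 * om := by simp only [nv]; ring
  have := C1_s3
  rw [h, C1_nv2]
  apply Complex.ext <;> simp [om] <;> nlinarith

theorem C1_nv4 : nv 4 = ⟨√3 / 2, -(1 / 2)⟩ := by
  have h : nv 4 = nv 3 * om := by simp only [nv]; ring
  rw [h, C1_nv3]
  apply Complex.ext <;> simp [om]

theorem C1_co (m : ℕ) (z : ℂ) : co m z = z.re * (nv m).re + z.im * (nv m).im := by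
  simp [co]

theorem C1_co0 (z : ℂ) : co 0 z = z.im := by rw [C1_co, C1_nv0]; simp

theorem C1_co1 (z : ℂ) : co 1 z = -(√3 / 2) * z.re + z.im / 2 := by rw [C1_co, C1_nv1]; ring

theorem C1_co2 (z : ℂ) : co 2 z = -(√3 / 2) * z.re - z.im / 2 := by rw [C1_co, C1_nv2]; ring

theorem C1_co3 (z : ℂ) : co 3 z = -z.im := by rw [C1_co, C1_nv3]; simp

theorem C1_co4 (z : ℂ) : co 4 z = √3 / 2 * z.re - z.im / 2 := by rw [C1_co, C1_nv4]; ring

theorem C1_add (m : ℕ) (z w : ℂ) (t : ℝ) : co m (z + t * w) = co m z + t * co m w := by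
  simp only [C1_co, Complex.add_re, Complex.add_im, Complex.re_ofReal_mul, Complex.im_ofReal_mul]
  ring

theorem C1_norm_nv (m : ℕ) : ‖nv m‖ = 1 := by
  have h : ‖om‖ = 1 := by
    have := C1_s3
    rw [Complex.norm_eq_sqrt_sq_add_sq, Real.sqrt_eq_one]
    simp only [om]
    nlinarith
  simp [nv, h]

theorem C1_abs (m : ℕ) (z w : ℂ) : |co m z - co m w| ≤ ‖z - w‖ := by
  have h : co m z - co m w = ((z - w) * (starRingEnd ℂ) (nv m)).re := by
    simp only [co, sub_mul, Complex.sub_re]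
  rw [h]
  refine (Complex.abs_re_le_norm _).trans ?_
  rw [norm_mul, Complex.norm_conj, C1_norm_nv, mul_one]

theorem C1_bd {f : ℂ → ℝ} (hf : Test f) (k : ℕ) : ∃ R, ∀ z ∈ tsupport f, |co k z| ≤ R := by
  obtain ⟨R, hR⟩ := hf.2.1.isCompact.isBounded.exists_norm_le
  refine ⟨R, fun z hz => ?_⟩
  have h := C1_abs k z 0
  have h0 : co k 0 = 0 := by simp [co]
  rw [h0, sub_zero, sub_zero] at h
  exact h.trans (hR z hz)

theorem C1_up {f : ℂ → ℝ} (hf : Test f) {k : ℕ} {w : ℂ} (h : 0 < co k w) (c : ℝ) :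
    ∀ᶠ t : ℝ in atTop, tsupport (tr (t * w) f) ⊆ {z | c < co k z} := by
  obtain ⟨R, hR⟩ := C1_bd hf k
  filter_upwards [eventually_gt_atTop ((c + R) / co k w)] with t ht
  rw [tsupport_tr]
  rintro _ ⟨z, hz, rfl⟩
  have h1 := (abs_le.1 (hR z hz)).1
  rw [div_lt_iff₀ h] at ht
  show c < co k (z + t * w)
  rw [C1_add]
  linarith

theorem C1_dn {f : ℂ → ℝ} (hf : Test f) {k : ℕ} {w : ℂ} (h : co k w < 0) (c : ℝ) :
    ∀ᶠ t : ℝ in atTop, tsupport (tr (t * w) f) ⊆ {z | co k z < c} := by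
  obtain ⟨R, hR⟩ := C1_bd hf k
  filter_upwards [eventually_gt_atTop ((R - c) / (-co k w))] with t ht
  rw [tsupport_tr]
  rintro _ ⟨z, hz, rfl⟩
  have h1 := (abs_le.1 (hR z hz)).2
  rw [div_lt_iff₀ (by linarith)] at ht
  show co k (z + t * w) < c
  rw [C1_add]
  linarith

variable {σ : ℝ} {S : List (ℂ → ℝ) → ℝ}

theorem C1_step (h : Lim σ S) (m : ℕ) (c : ℝ) {u : ℂ → ℝ} (hu : Cc u)
    (huc : tsupport u ⊆ {z | co m z < c}) {Q : (ℂ → ℝ) → Prop}
    (hQ : ∀ A, Tests A → (∀ f ∈ A, Q f) → S (lap u :: A) = 0) (A : List (ℂ → ℝ)) (hT : Tests A)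
    (hA : ∀ f ∈ A, (tsupport f ⊆ {z | co m z < c} ∧ Q f) ∨
      (tsupport f ⊆ {z | c < co m z} ∧ ∀ᶠ t : ℝ in atTop, Q (tr (t * nv m) f))) :
    S (lap u :: A) = 0 := by
  classical
  let p : (ℂ → ℝ) → Bool := fun f => decide (tsupport f ⊆ {z | co m z < c} ∧ Q f)
  have hp : (A.filter p ++ A.filter fun f => !p f).Perm A := List.filter_append_perm p A
  have h1 : ∀ f ∈ A.filter p, f ∈ A ∧ tsupport f ⊆ {z | co m z < c} ∧ Q f := fun f hf => by
    have := List.mem_filter.1 hf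
    exact ⟨this.1, of_decide_eq_true this.2⟩
  have h2 : ∀ f ∈ A.filter fun f => !p f, f ∈ A ∧ tsupport f ⊆ {z | c < co m z} ∧
      ∀ᶠ t : ℝ in atTop, Q (tr (t * nv m) f) := fun f hf => by
    have := List.mem_filter.1 hf
    refine ⟨this.1, (hA f this.1).resolve_left fun hh => ?_⟩
    have h3 : p f = true := decide_eq_true hh
    have h4 := this.2
    simp [h3] at h4
  rw [← h.perm _ _ (hp.cons (lap u)), ← List.cons_append]
  refine h.move m c _ _ ?_ (fun f hf => hT f (h2 f hf).1) ?_ (fun f hf => (h2 f hf).2.1) ?_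
  · intro f hf
    rcases List.mem_cons.1 hf with rfl | hf
    · exact hu.test_lap
    · exact hT f (h1 f hf).1
  · intro f hf
    rcases List.mem_cons.1 hf with rfl | hf
    · exact (tsupport_lap u hu.1).trans huc
    · exact (h1 f hf).2.1
  · have h5 : ∀ᶠ t : ℝ in atTop, ∀ f ∈ {f | f ∈ A.filter fun f => !p f}, Q (tr (t * nv m) f) :=
      (eventually_all_finite (List.finite_toSet _)).2 fun f hf => (h2 f hf).2.2
    filter_upwards [h5] with t ht
    rw [List.cons_append]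
    refine hQ _ (fun f hf => ?_) fun f hf => ?_
    · rcases List.mem_append.1 hf with hf | hf
      · exact hT f (h1 f hf).1
      · obtain ⟨g, hg, rfl⟩ := List.mem_map.1 hf
        exact (hT g (h2 g hg).1).tr _
    · rcases List.mem_append.1 hf with hf | hf
      · exact (h1 f hf).2.2
      · obtain ⟨g, hg, rfl⟩ := List.mem_map.1 hf
        exact ht g hg

theorem C1_lt {u : ℂ → ℝ} {x : ℂ} {r : ℝ} (hx : tsupport u ⊆ Metric.ball x r) (m : ℕ) {c : ℝ}
    (hc : co m x + r ≤ c) : tsupport u ⊆ {z | co m z < c} := fun z hz => by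
  have h1 := mem_ball_iff_norm.1 (hx hz)
  have h2 := (abs_le.1 (C1_abs m z x)).2
  show co m z < c
  linarith

theorem C1_gt {u : ℂ → ℝ} {x : ℂ} {r : ℝ} (hx : tsupport u ⊆ Metric.ball x r) (m : ℕ) {c : ℝ}
    (hc : c ≤ co m x - r) : tsupport u ⊆ {z | c < co m z} := fun z hz => by
  have h1 := mem_ball_iff_norm.1 (hx hz)
  have h2 := (abs_le.1 (C1_abs m z x)).1
  show c < co m z
  linarith

theorem C1_iso (h : Lim σ S) {u : ℂ → ℝ} (hu : Cc u) {x : ℂ} {r : ℝ} (hr : 0 < r)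
    (hx : tsupport u ⊆ Metric.ball x r) (A : List (ℂ → ℝ)) (hT : Tests A)
    (hA : ∀ f ∈ A, tsupport f ⊆ {z | co 1 x + r < co 1 z} ∨ tsupport f ⊆ {z | co 1 z < co 1 x - r}) :
    S (lap u :: A) = 0 := by
  have s3 := C1_s3
  have e5 : ∀ A, Tests A → (∀ f ∈ A, (tsupport f ⊆ {z | co 0 z < co 0 x + r} ∧
      tsupport f ⊆ {z | co 2 z < co 2 x - r}) ∨ tsupport f ⊆ {z | co 0 x + r < co 0 z}) →
      S (lap u :: A) = 0 := fun A hT hA =>
    C1_step h 0 _ hu (C1_lt hx 0 le_rfl) (Q := fun f => tsupport f ⊆ {z | co 2 z < co 2 x - r})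
      (fun A hT hA => h.ext 2 _ u A hu hT (C1_gt hx 2 le_rfl) hA) A hT fun f hf =>
      (hA f hf).imp_right fun h1 => ⟨h1, C1_dn (hT f hf) (by rw [C1_co2, C1_nv0]; norm_num) _⟩
  have e4 : ∀ A, Tests A → (∀ f ∈ A, (tsupport f ⊆ {z | co 1 z < co 1 x + r} ∧
      ((tsupport f ⊆ {z | co 0 z < co 0 x + r} ∧ tsupport f ⊆ {z | co 2 z < co 2 x - r}) ∨
        tsupport f ⊆ {z | co 0 x + r < co 0 z})) ∨ tsupport f ⊆ {z | co 1 x + r < co 1 z}) →
      S (lap u :: A) = 0 := fun A hT hA =>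
    C1_step h 1 _ hu (C1_lt hx 1 le_rfl) e5 A hT fun f hf =>
      (hA f hf).imp_right fun h1 => ⟨h1, (C1_up (hT f hf) (k := 0) (w := nv 1)
        (by rw [C1_co0, C1_nv1]; norm_num) _).mono fun t ht => Or.inr ht⟩
  refine C1_step h 4 (co 4 x + r) hu (C1_lt hx 4 le_rfl) e4 A hT fun f hf => ?_
  rcases hA f hf with h1 | h1
  · refine Or.inl ⟨fun z hz => ?_, Or.inr h1⟩
    have := h1 hz
    simp only [Set.mem_ofPred_eq, C1_co1, C1_co4] at this ⊢
    linarith
  · refine Or.inr ⟨fun z hz => ?_, ?_⟩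
    · have := h1 hz
      simp only [Set.mem_ofPred_eq, C1_co1, C1_co4] at this ⊢
      linarith
    · filter_upwards [C1_dn (hT f hf) (k := 1) (w := nv 4)
          (by rw [C1_co1, C1_nv4]; nlinarith) (co 1 x + r),
        C1_dn (hT f hf) (k := 0) (w := nv 4) (by rw [C1_co0, C1_nv4]; norm_num) (co 0 x + r),
        C1_dn (hT f hf) (k := 2) (w := nv 4) (by rw [C1_co2, C1_nv4]; nlinarith) (co 2 x - r)]
        with t a b c
      exact Or.inl ⟨a, Or.inl ⟨b, c⟩⟩

theorem C1_strip (h : Lim σ S) {u : ℂ → ℝ} (hu : Cc u) {x : ℂ} {r c c' : ℝ} (hr : 0 < r)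
    (hx : tsupport u ⊆ Metric.ball x r) (hc : co 0 x + r ≤ c) (hc' : co 3 x + r ≤ c')
    (A : List (ℂ → ℝ)) (hT : Tests A)
    (hA : ∀ f ∈ A, (tsupport f ⊆ {z | co 0 z < c} ∧ ((tsupport f ⊆ {z | co 3 z < c'} ∧
      (tsupport f ⊆ {z | co 1 x + r < co 1 z} ∨ tsupport f ⊆ {z | co 1 z < co 1 x - r})) ∨
      tsupport f ⊆ {z | c' < co 3 z})) ∨ tsupport f ⊆ {z | c < co 0 z}) :
    S (lap u :: A) = 0 := by
  have e2 : ∀ A, Tests A → (∀ f ∈ A, (tsupport f ⊆ {z | co 3 z < c'} ∧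
      (tsupport f ⊆ {z | co 1 x + r < co 1 z} ∨ tsupport f ⊆ {z | co 1 z < co 1 x - r})) ∨
      tsupport f ⊆ {z | c' < co 3 z}) → S (lap u :: A) = 0 := fun A hT hA =>
    C1_step h 3 _ hu (C1_lt hx 3 hc') (C1_iso h hu hr hx) A hT fun f hf =>
      (hA f hf).imp_right fun h1 => ⟨h1, (C1_dn (hT f hf) (k := 1) (w := nv 3)
        (by rw [C1_co1, C1_nv3]; norm_num) _).mono fun t ht => Or.inr ht⟩
  refine C1_step h 0 c hu (C1_lt hx 0 hc) e2 A hT fun f hf => (hA f hf).imp_right fun h1 => ⟨h1, ?_⟩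
  filter_upwards [C1_dn (hT f hf) (k := 3) (w := nv 0) (by rw [C1_co3, C1_nv0]; norm_num) c',
    C1_up (hT f hf) (k := 1) (w := nv 0) (by rw [C1_co1, C1_nv0]; norm_num) (co 1 x + r)]
    with t a b
  exact Or.inl ⟨a, Or.inl b⟩

theorem C1_pigeon {n : ℕ} (y : Fin n → ℝ) (c₀ : ℝ) {η : ℝ} (hη : 0 < η) :
    ∃ c, c₀ ≤ c ∧ c ≤ c₀ + 2 * η * n ∧ ∀ j, η ≤ |y j - c| := by
  by_contra hh
  push Not at hh
  have h1 : ∀ i : Fin (n + 1), ∃ j, |y j - (c₀ + 2 * η * (i : ℕ))| < η := fun i => by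
    have hi : ((i : ℕ) : ℝ) ≤ n := by exact_mod_cast Nat.lt_succ_iff.1 i.2
    refine hh _ (le_add_of_nonneg_right (by positivity)) ?_
    nlinarith
  choose g hg using h1
  obtain ⟨i, i', hne, he⟩ := Fintype.exists_ne_map_eq_of_card_lt g (by simp)
  have a := abs_lt.1 (hg i)
  have b := abs_lt.1 (hg i')
  rw [he] at a
  rcases lt_or_gt_of_ne (Fin.val_ne_of_ne hne) with l | l
  · have : ((i : ℕ) : ℝ) + 1 ≤ (i' : ℕ) := by exact_mod_cast l
    nlinarith [a.1, a.2, b.1, b.2]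
  · have : ((i' : ℕ) : ℝ) + 1 ≤ (i : ℕ) := by exact_mod_cast l
    nlinarith [a.1, a.2, b.1, b.2]

theorem C1_small (h : Lim σ S) {u : ℂ → ℝ} (hu : Cc u) {x : ℂ} {d : ℝ} (hd : 0 < d)
    (hx : tsupport u ⊆ Metric.ball x (d / 8)) (A : List (ℂ → ℝ)) (hT : Tests A)
    (hA : ∀ f ∈ A, tsupport f ⊆ (Metric.closedBall x d)ᶜ ∧
      ∃ q, tsupport f ⊆ Metric.ball q (d / (16 * (A.length + 1)))) : S (lap u :: A) = 0 := by
  set η := d / (16 * (A.length + 1)) with hη
  have hη0 : 0 < η := by positivity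
  have hn : (0 : ℝ) ≤ A.length := Nat.cast_nonneg _
  have hη1 : η * (16 * (A.length + 1)) = d := div_mul_cancel₀ _ (by positivity)
  have h1 : ∀ j : Fin A.length, ∃ q, tsupport (A.get j) ⊆ Metric.ball q η :=
    fun j => (hA _ (List.get_mem A j)).2
  choose q hq using h1
  obtain ⟨c, c1, c2, c3⟩ := C1_pigeon (fun j => co 0 (q j)) (co 0 x + d / 8) hη0
  obtain ⟨c', d1, d2, d3⟩ := C1_pigeon (fun j => co 3 (q j)) (co 3 x + d / 8) hη0
  refine C1_strip h hu (by positivity) hx c1 d1 A hT fun f hf => ?_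
  obtain ⟨j, rfl⟩ := List.get_of_mem hf
  rcases le_abs'.1 (c3 j) with a | a
  swap
  · exact Or.inr (C1_gt (hq j) 0 (by linarith))
  have a' := C1_lt (hq j) 0 (c := c) (by linarith)
  refine Or.inl ⟨a', ?_⟩
  rcases le_abs'.1 (d3 j) with b | b
  swap
  · exact Or.inr (C1_gt (hq j) 3 (by linarith))
  have b' := C1_lt (hq j) 3 (c := c') (by linarith)
  refine Or.inl ⟨b', ?_⟩
  have s1 : (17 / 10 : ℝ) ≤ √3 := Real.le_sqrt_of_sq_le (by norm_num)
  have key : ∀ z ∈ tsupport (A.get j), |z.im - x.im| ≤ d / 4 ∧ 3 / 4 * d ≤ |z.re - x.re| ∧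
      |z.re - (q j).re| ≤ d / 16 := fun z hz => by
    have e1 := a' hz
    have e2 := b' hz
    simp only [Set.mem_ofPred_eq, C1_co0, C1_co3] at e1 e2 c2 d2
    have e3 : |z.im - x.im| ≤ d / 4 := abs_le.2 ⟨by nlinarith, by nlinarith⟩
    have e4 : d < ‖z - x‖ := by
      have := (hA _ hf).1 hz
      rwa [Set.mem_compl_iff, mem_closedBall_iff_norm, not_le] at this
    have e5 := Complex.norm_le_abs_re_add_abs_im (z - x)
    have e6 := Complex.abs_re_le_norm (z - q j)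
    have e7 := mem_ball_iff_norm.1 (hq j hz)
    simp only [Complex.sub_re, Complex.sub_im] at e5 e6
    exact ⟨e3, by linarith, by nlinarith⟩
  rcases le_total (q j).re x.re with l | l
  · refine Or.inl fun z hz => ?_
    obtain ⟨k1, k2, k3⟩ := key z hz
    have k4 := abs_le.1 k1
    have k5 := abs_le.1 k3
    have k6 : z.re - x.re ≤ -(3 / 4 * d) := (le_abs'.1 k2).resolve_right (by linarith)
    simp only [Set.mem_ofPred_eq, C1_co1]
    nlinarith
  · refine Or.inr fun z hz => ?_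
    obtain ⟨k1, k2, k3⟩ := key z hz
    have k4 := abs_le.1 k1
    have k5 := abs_le.1 k3
    have k6 : 3 / 4 * d ≤ z.re - x.re := (le_abs'.1 k2).resolve_left (by linarith)
    simp only [Set.mem_ofPred_eq, C1_co1]
    nlinarith

theorem C1_sum (h : Lim σ S) {ι : Type} (s : Finset ι) {F : ι → ℂ → ℝ} {l : List (ℂ → ℝ)}
    (hl : Tests l) (hF : ∀ i ∈ s, Test (F i) ∧ S (F i :: l) = 0) :
    S ((fun z => ∑ i ∈ s, F i z) :: l) = 0 := by
  classical
  induction s using Finset.induction_on with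
  | empty =>
    have := h.lin 0 0 _ _ l test_zero test_zero hl
    simpa using this
  | insert a s ha ih =>
    have h1 := fun i hi => hF i (Finset.mem_insert_of_mem hi)
    have h2 := hF a (Finset.mem_insert_self a s)
    have := h.lin 1 1 _ _ l h2.1 (Test.sum s fun i hi => (h1 i hi).1) hl
    rw [h2.2, ih h1] at this
    simpa [Finset.sum_insert ha] using this

theorem C1_ball (h : Lim σ S) {u : ℂ → ℝ} (hu : Cc u) {x : ℂ} {d : ℝ} (hd : 0 < d)
    (hx : tsupport u ⊆ Metric.ball x (d / 8)) (A : List (ℂ → ℝ)) (hT : Tests A)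
    (hA : Sup A (Metric.closedBall x d)ᶜ) : S (lap u :: A) = 0 := by
  have key : ∀ (n : ℕ) (B A : List (ℂ → ℝ)), Tests A → Tests B → A.length + B.length = n →
      (∀ f ∈ A, tsupport f ⊆ (Metric.closedBall x d)ᶜ ∧
        ∃ q, tsupport f ⊆ Metric.ball q (d / (16 * (n + 1)))) →
      Sup B (Metric.closedBall x d)ᶜ → S (lap u :: (A ++ B)) = 0 := by
    intro n B
    induction B with
    | nil =>
      intro A hA _ hn hs _
      rw [List.append_nil]
      simp only [List.length_nil, add_zero] at hn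
      subst hn
      exact C1_small h hu hd hx A hA hs
    | cons f B ih =>
      intro A hA hB hn hs hB'
      have hB1 : Tests B := fun g hg => hB g (List.mem_cons_of_mem _ hg)
      obtain ⟨k, g, q, hg, hf⟩ := small_pieces Metric.isClosed_closedBall.isOpen_compl
        (compl_ball_conn x hd.le) (hB f List.mem_cons_self) (hB' f List.mem_cons_self)
        (η := d / (16 * (n + 1))) (by positivity)
      have hp : ∀ g : ℂ → ℝ, (lap u :: (A ++ g :: B)).Perm (g :: lap u :: (A ++ B)) := fun g =>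
        (List.perm_middle.cons _).trans (List.Perm.swap _ _ _)
      rw [h.perm _ _ (hp f), hf]
      refine C1_sum h _ (fun g hg => ?_) fun i _ => ⟨(hg i).1, ?_⟩
      · rcases List.mem_cons.1 hg with rfl | hg
        · exact hu.test_lap
        · exact (List.mem_append.1 hg).elim (hA g) (hB1 g)
      · rw [h.perm _ _ (List.Perm.swap _ _ _), ← List.cons_append]
        refine ih (g i :: A) (fun g' hg' => ?_) hB1 (by simp at hn ⊢; omega) (fun g' hg' => ?_)
          fun g' hg' => hB' g' (List.mem_cons_of_mem _ hg')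
        · rcases List.mem_cons.1 hg' with rfl | hg'
          · exact (hg i).1
          · exact hA _ hg'
        · rcases List.mem_cons.1 hg' with rfl | hg'
          · exact ⟨(hg i).2.1, q i, (hg i).2.2⟩
          · exact hs _ hg'
  simpa using key A.length A [] (fun _ hf => absurd hf List.not_mem_nil) hT (by simp)
    (fun _ hf => absurd hf List.not_mem_nil) hA

theorem local_of_lim {σ : ℝ} {S : List (ℂ → ℝ) → ℝ} (h : Lim σ S) : Local S := by
  intro u A hu hT hA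
  have hK : IsClosed (⋃ f ∈ {f | f ∈ A}, tsupport f) :=
    (List.finite_toSet A).isClosed_biUnion fun f _ => isClosed_tsupport f
  have hsub : tsupport u ⊆ (⋃ f ∈ {f | f ∈ A}, tsupport f)ᶜ := fun z hz hz' => by
    obtain ⟨f, hf, hzf⟩ := Set.mem_iUnion₂.1 hz'
    exact hA f hf hzf hz
  obtain ⟨δ, hδ, hth⟩ := hu.2.isCompact.exists_cthickening_subset_open hK.isOpen_compl hsub
  obtain ⟨R, hR⟩ := hu.2.isCompact.isBounded.exists_norm_le
  have hη : 0 < δ / 14 := by positivity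
  have hc : ∀ a, Cc fun z => pu (δ / 14) a z * u z := fun a => hu.mul (pu_smooth _ a)
  have e : u = fun z => ∑ a ∈ grid R (δ / 14), pu (δ / 14) a z * u z := by
    funext z
    by_cases hz : z ∈ tsupport u
    · rw [← Finset.sum_mul, pu_sum hη (hR z hz), one_mul]
    · simp [image_eq_zero_of_notMem_tsupport hz]
  rw [e, lap_sum _ fun a _ => hc a]
  refine C1_sum h _ hT fun a _ => ⟨(hc a).test_lap, ?_⟩
  rcases (tsupport fun z => pu (δ / 14) a z * u z).eq_empty_or_nonempty with h0 | ⟨y, hy⟩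
  · have e0 : (fun z => pu (δ / 14) a z * u z) = fun z => 0 * u z + 0 * u z := by
      funext z
      rw [image_eq_zero_of_notMem_tsupport (f := fun z => pu (δ / 14) a z * u z) (x := z)
        (by rw [h0]; exact Set.notMem_empty z)]
      ring
    rw [e0, lap_lin hu hu, h.lin 0 0 _ _ A hu.test_lap hu.test_lap hT]
    ring
  · have hb : (tsupport fun z => pu (δ / 14) a z * u z) ⊆
        Metric.ball (gp (δ / 14) a) (3 / 2 * (δ / 14)) :=
      (tsupport_mul_subset_left (f := pu (δ / 14) a) (g := u)).trans (pu_supp' hη a)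
    refine C1_ball h (hc a) (x := gp (δ / 14) a) (d := 12 * (δ / 14)) (by positivity)
      (hb.trans (Metric.ball_subset_ball (by linarith))) A hT fun f hf z hz hz' => ?_
    have hy1 := Metric.mem_ball.1 (hb hy)
    have hy2 : y ∈ tsupport u := tsupport_mul_subset_right (f := pu (δ / 14) a) (g := u) hy
    have hz1 := Metric.mem_closedBall.1 hz'
    have hd := dist_triangle_right z y (gp (δ / 14) a)
    exact hth (Metric.mem_cthickening_of_dist_le z y δ _ hy2 (by linarith))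
      (Set.mem_iUnion₂.2 ⟨f, hf, hz⟩)

end Vale.Agent.P153
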