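import Vale.Agent.P153.C2b

/-! The contact term kills derivatives. -/

open MeasureTheory Filter Topology

noncomputable section

namespace Vale.Agent.P153

variable {σ : ℝ} {S : List (ℂ → ℝ) → ℝ}

/-- Put `A g = S (lap v :: cz ρ g :: B)`. For `x, y` in `Cc` supported in `Q`, `swap_mul`, `perm`
and `cz_of_test` give `A (x * lap y) = S (lap x :: lap y :: B) = A (y * lap x)`. Take a plateau `ψ`
for `tsupport φ ⊆ Q`. `y = ψ`: `x * lap ψ = 0` (`lap_affine`), so `A (lap x) = 0` for `x = φ`,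
`re * φ`, `im * φ`. `y = re * ψ`: `A (re * lap φ) = 0`. Conclude with `lap_re_mul`, `lap_im_mul`. -/
theorem kill_dd (h : Lim σ S) (hL : Local S) {O Q : Set ℂ} (hQ : IsOpen Q) (hQO : Q ⊆ O)
    {ρ : ℂ → ℝ} (hρ : Cc ρ) (h1 : ∫ z, ρ z = 1) (hρO : tsupport ρ ⊆ Oᶜ)
    {B : List (ℂ → ℝ)} (hB : Tests B) (hBO : Sup B Oᶜ) {v φ : ℂ → ℝ} (hv : Cc v)
    (hvO : tsupport v ⊆ O) (hv1 : ∀ z ∈ Q, v z = 1) (hφ : Cc φ) (hφQ : tsupport φ ⊆ Q) :
    S (lap v :: dd 1 φ :: B) = 0 ∧ S (lap v :: dd Complex.I φ :: B) = 0 := by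
  have sw : ∀ x y, Cc x → Cc y → tsupport x ⊆ Q → tsupport y ⊆ Q →
      S (lap x :: lap y :: B) = S (lap v :: cz ρ (fun z => x z * lap y z) :: B) :=
    fun x y hx hy h2 h3 => by
      rw [← swap_mul h hL hQ hQO hρ h1 hρO hB hBO hx (h2.trans hQO) hv hvO hv1 hy.test_lap.cc
        ((tsupport_lap y hy.1).trans h3), cz_of_test hy.test_lap]
  obtain ⟨ψ, U, hψ, hψQ, hU, hφU, hUQ, hψ1⟩ := plateau (K := tsupport φ) hφ.2 hQ hφQ
  have hT : Tests (lap v :: B) := List.forall_mem_cons.2 ⟨hv.test_lap, hB⟩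
  have key : ∀ (a b c : ℝ) (x : ℂ → ℝ), Cc x → tsupport x ⊆ U →
      S (lap v :: cz ρ (fun z => (a + b * z.re + c * z.im) * lap x z) :: B) = 0 :=
    fun a b c x hx hxU => by
      have hg : ContDiff ℝ (⊤ : ℕ∞) fun z : ℂ => a + b * z.re + c * z.im :=
        (contDiff_const.add (contDiff_const.mul Complex.reCLM.contDiff)).add
          (contDiff_const.mul Complex.imCLM.contDiff)
      have hy := hψ.mul hg
      have hyQ : tsupport (fun z : ℂ => (a + b * z.re + c * z.im) * ψ z) ⊆ Q :=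
        (tsupport_mul_subset_right (f := fun z : ℂ => a + b * z.re + c * z.im)).trans hψQ
      have e1 := sw _ _ hx hy (hxU.trans hUQ) hyQ
      have e2 := sw _ _ hy hx hyQ (hxU.trans hUQ)
      have hd := lap_affine hy.1 hU (a := a) (b := b) (c := c) fun z hz => by
        rw [hψ1 z hz, mul_one]
      have e3 : (fun z => x z * lap (fun z : ℂ => (a + b * z.re + c * z.im) * ψ z) z) =
          fun _ => 0 := funext fun z => by
        by_cases hz : z ∈ U
        · rw [image_eq_zero_of_notMem_tsupport (Set.disjoint_right.1 hd hz), mul_zero]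
        · rw [image_eq_zero_of_notMem_tsupport fun h' => hz (hxU h'), zero_mul]
      have e4 : (fun z : ℂ => (a + b * z.re + c * z.im) * ψ z * lap x z) =
          fun z => (a + b * z.re + c * z.im) * lap x z := funext fun z => by
        by_cases hz : z ∈ U
        · rw [hψ1 z hz, mul_one]
        · rw [image_eq_zero_of_notMem_tsupport (f := lap x)
            fun h' => hz (hxU (tsupport_lap x hx.1 h')), mul_zero, mul_zero]
      rw [e3, cz_of_test test_zero, h.perm _ _ (List.Perm.swap _ _ B),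
        h.perm (lap v :: _) _ (List.Perm.swap _ _ B), h.zero1 hT] at e1
      rw [← e4, ← e2, e1]
  have fin : ∀ (b c : ℝ) (e : ℂ) (g : ℂ → ℝ), ContDiff ℝ (⊤ : ℕ∞) g →
      (∀ z, g z = 0 + b * z.re + c * z.im) →
      (lap (fun z => g z * φ z) = fun z => g z * lap φ z + 2 * dd e φ z) →
      S (lap v :: dd e φ :: B) = 0 := fun b c e g hg h2 h3 => by
    have hx := hφ.mul hg
    have k1 := key 1 0 0 _ hx ((tsupport_mul_subset_right (f := g)).trans hφU)
    simp only [zero_mul, add_zero, one_mul] at k1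
    rw [cz_of_test hx.test_lap] at k1
    have k2 := key 0 b c φ hφ hφU
    have e5 : (fun z : ℂ => (0 + b * z.re + c * z.im) * lap φ z) =
        fun z => 1 * lap (fun z => g z * φ z) z + (-2) * dd e φ z := funext fun z => by
      rw [h3, ← h2]
      ring
    rw [e5, cz_of_test (hx.test_lap.lin (hφ.test_dd e) _ _),
      h.lin2 _ _ hv.test_lap hx.test_lap (hφ.test_dd e) hB, k1] at k2
    linarith
  exact ⟨fin 1 0 1 _ Complex.reCLM.contDiff (fun z => by simp) (lap_re_mul hφ),
    fin 0 1 _ _ Complex.imCLM.contDiff (fun z => by simp) (lap_im_mul hφ)⟩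

end Vale.Agent.P153
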