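import Vale.Agent.P153.T4

/-! Decomposition into small pieces of integral zero. -/

open MeasureTheory Filter Topology

noncomputable section

namespace Vale.Agent.P153

/-- The image of `Ioi r × sphere` (`isConnected_sphere`), or a union of four half planes and
their overlaps. -/
theorem compl_ball_conn (p : ℂ) {r : ℝ} (hr : 0 ≤ r) : IsPreconnected (Metric.closedBall p r)ᶜ := by
  have h := ((isPreconnected_Ioi (a := r)).prod (isPreconnected_univ (α := ℝ))).image
    (fun x : ℝ × ℝ => p + x.1 * Complex.exp (x.2 * Complex.I))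
    (Continuous.continuousOn (by fun_prop))
  refine (congrArg IsPreconnected (Set.ext fun z => ?_)).mp h
  rw [Set.mem_compl_iff, mem_closedBall_iff_norm, not_le]
  constructor
  · rintro ⟨⟨t, θ⟩, ⟨ht, -⟩, rfl⟩
    have ht' : r < t := ht
    simp only [add_sub_cancel_left, norm_mul, Complex.norm_exp_ofReal_mul_I, mul_one,
      Complex.norm_real, Real.norm_eq_abs]
    exact ht'.trans_le (le_abs_self t)
  · intro hz
    exact ⟨(‖z - p‖, (z - p).arg), ⟨hz, trivial⟩, by
      simp only [Complex.norm_mul_exp_arg_mul_I, add_sub_cancel]⟩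

/-- The small pieces. -/
def t7_S (O : Set ℂ) (η : ℝ) : Set (ℂ → ℝ) :=
  {g | Test g ∧ tsupport g ⊆ O ∧ ∃ q, tsupport g ⊆ Metric.ball q η}

/-- Bumps of mass one near `x`. -/
def t7_B (O : Set ℂ) (η : ℝ) (x : ℂ) (b : ℂ → ℝ) : Prop :=
  Cc b ∧ ∫ z, b z = 1 ∧ tsupport b ⊆ O ∧ tsupport b ⊆ Metric.ball x (η / 2)

theorem t7_ex {O : Set ℂ} (hO : IsOpen O) {η : ℝ} (hη : 0 < η) {x : ℂ} (hx : x ∈ O) :
    ∃ b, t7_B O η x b := by
  obtain ⟨ε, hε, h⟩ := Metric.nhds_basis_closedBall.mem_iff.1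
    ((hO.inter Metric.isOpen_ball).mem_nhds ⟨hx, Metric.mem_ball_self (half_pos hη)⟩)
  exact ⟨bump ε x, bump_cc hε x, bump_int hε x,
    (bump_supp hε x).trans (h.trans Set.inter_subset_left),
    (bump_supp hε x).trans (h.trans Set.inter_subset_right)⟩

theorem t7_supp (u v : ℂ → ℝ) (c : ℝ) : tsupport (u - c • v) ⊆ tsupport u ∪ tsupport v := by
  refine closure_minimal (fun z hz => ?_) ((isClosed_tsupport u).union (isClosed_tsupport v))
  by_contra h
  rw [Set.mem_union, not_or] at h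
  exact hz (by simp [image_eq_zero_of_notMem_tsupport h.1, image_eq_zero_of_notMem_tsupport h.2])

theorem t7_mem {O : Set ℂ} {η : ℝ} {u b : ℂ → ℝ} {x q : ℂ} (hu : Cc u) (h1 : tsupport u ⊆ O)
    (h2 : tsupport u ⊆ Metric.ball q η) (hb : t7_B O η x b)
    (h3 : Metric.ball x (η / 2) ⊆ Metric.ball q η) : u - (∫ z, u z) • b ∈ t7_S O η := by
  have e : u - (∫ z, u z) • b = fun z => 1 * u z + (-∫ z, u z) * b z := by
    funext z
    simp only [Pi.sub_apply, Pi.smul_apply, smul_eq_mul]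
    ring
  have h := hu.lin hb.1 1 (-∫ z, u z)
  refine ⟨?_, (t7_supp _ _ _).trans (Set.union_subset h1 hb.2.2.1), q,
    (t7_supp _ _ _).trans (Set.union_subset h2 (hb.2.2.2.trans h3))⟩
  rw [e]
  refine ⟨h.1, h.2, ?_⟩
  rw [integral_add (hu.int.const_mul _) (hb.1.int.const_mul _), integral_const_mul,
    integral_const_mul, hb.2.1]
  ring

theorem t7_rel {O : Set ℂ} (hO : IsOpen O) (hc : IsPreconnected O) {η : ℝ} (hη : 0 < η) {x y : ℂ}
    (hx : x ∈ O) (hy : y ∈ O) :
    ∀ b b', t7_B O η x b → t7_B O η y b' → b - b' ∈ Submodule.span ℝ (t7_S O η) := by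
  refine hc.induction₂ (fun x y => ∀ b b', t7_B O η x b → t7_B O η y b' →
    b - b' ∈ Submodule.span ℝ (t7_S O η)) (fun x _ => ?_) (fun x y z _ hy _ h1 h2 b b' hb hb' => ?_)
    (fun x y _ _ h b b' hb hb' => ?_) hx hy
  · filter_upwards [mem_nhdsWithin_of_mem_nhds (Metric.ball_mem_nhds x (half_pos hη))] with y hy
      b b' hb hb'
    have h := t7_mem (q := x) hb.1 hb.2.2.1
      (hb.2.2.2.trans (Metric.ball_subset_ball (half_le_self hη.le))) hb'
      (Metric.ball_subset_ball' (by rw [Metric.mem_ball] at hy; linarith))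
    rw [hb.2.1, one_smul] at h
    exact Submodule.subset_span h
  · obtain ⟨c, hc⟩ := t7_ex hO hη hy
    rw [← sub_add_sub_cancel b c b']
    exact add_mem (h1 b c hb hc) (h2 c b' hc hb')
  · rw [← neg_sub]
    exact neg_mem (h b' b hb' hb)

theorem t7_one {O : Set ℂ} (hO : IsOpen O) (hc : IsPreconnected O) {η : ℝ} (hη : 0 < η)
    {y q : ℂ} (hy : y ∈ O) {c u : ℂ → ℝ} (hb : t7_B O η y c) (hu : Cc u) (h1 : tsupport u ⊆ O)
    (h2 : tsupport u ⊆ Metric.ball q (η / 4)) :
    u - (∫ z, u z) • c ∈ Submodule.span ℝ (t7_S O η) := by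
  rcases (tsupport u).eq_empty_or_nonempty with h | ⟨x, hx⟩
  · rw [tsupport_eq_empty_iff.1 h]
    simp
  obtain ⟨b, hb'⟩ := t7_ex hO hη (h1 hx)
  have hq := h2 hx
  rw [Metric.mem_ball] at hq
  have h3 := t7_mem (q := q) hu h1 (h2.trans (Metric.ball_subset_ball (by linarith))) hb'
    (Metric.ball_subset_ball' (by linarith))
  have e : u - (∫ z, u z) • c = (u - (∫ z, u z) • b) + (∫ z, u z) • (b - c) := by
    rw [smul_sub, sub_add_sub_cancel]
  rw [e]
  exact add_mem (Submodule.subset_span h3)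
    (Submodule.smul_mem _ _ (t7_rel hO hc hη (h1 hx) hy b c hb' hb))

theorem t7_all {O : Set ℂ} (hO : IsOpen O) (hc : IsPreconnected O) {f : ℂ → ℝ} (hf : Test f)
    (hs : tsupport f ⊆ O) {η : ℝ} (hη : 0 < η) : f ∈ Submodule.span ℝ (t7_S O η) := by
  rcases O.eq_empty_or_nonempty with h | ⟨y, hy⟩
  · rw [h, Set.subset_empty_iff, tsupport_eq_empty_iff] at hs
    rw [hs]
    exact zero_mem _
  obtain ⟨c, hb⟩ := t7_ex hO hη hy
  obtain ⟨R, hR⟩ := hf.2.1.isCompact.isBounded.subset_closedBall 0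
  have h6 : 0 < η / 6 := by positivity
  set u : ℤ × ℤ → ℂ → ℝ := fun a z => pu (η / 6) a z * f z with hu
  have hcc : ∀ a, Cc (u a) := fun a => hf.cc.mul (pu_smooth _ a)
  have e : ∀ z, ∑ a ∈ grid R (η / 6), u a z = f z := fun z => by
    rw [← Finset.sum_mul]
    by_cases hz : z ∈ tsupport f
    · rw [pu_sum h6 (mem_closedBall_zero_iff.1 (hR hz)), one_mul]
    · rw [image_eq_zero_of_notMem_tsupport hz, mul_zero]
  have e2 : f = ∑ a ∈ grid R (η / 6), (u a - (∫ z, u a z) • c) := by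
    rw [Finset.sum_sub_distrib, ← Finset.sum_smul,
      ← integral_finsetSum _ fun a _ => (hcc a).int]
    simp only [e, hf.2.2, zero_smul, sub_zero]
    funext z
    rw [Finset.sum_apply, e]
  rw [e2]
  refine sum_mem fun a _ => t7_one hO hc hη hy hb (q := gp (η / 6) a) (hcc a)
    (tsupport_mul_subset_right.trans hs) (tsupport_mul_subset_left.trans ?_)
  exact (pu_supp' h6 a).trans (Metric.ball_subset_ball (by linarith))

/-- Let `Z` be the set of finite sums of test functions supported in `O` and in a ball of radius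
`η`. Say `x ∼ y` if `bump r x - bump r' y ∈ Z` for all small `r, r'`: an equivalence relation on
`O` with open classes, so total (`IsPreconnected.induction₂`). Then `f = ∑ pu s a * f` with `s`
small, and each term is equivalent to its mass times `bump r x₀`. -/
theorem small_pieces {O : Set ℂ} (hO : IsOpen O) (hc : IsPreconnected O) {f : ℂ → ℝ} (hf : Test f)
    (hs : tsupport f ⊆ O) {η : ℝ} (hη : 0 < η) :
    ∃ (n : ℕ) (g : Fin n → ℂ → ℝ) (q : Fin n → ℂ),
      (∀ i, Test (g i) ∧ tsupport (g i) ⊆ O ∧ tsupport (g i) ⊆ Metric.ball (q i) η) ∧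
      f = fun z => ∑ i, g i z := by
  obtain ⟨n, c, g, h⟩ := Submodule.mem_span_set'.1 (t7_all hO hc hf hs hη)
  choose q hq using fun i => (g i).2.2.2
  have h1 : ∀ i, tsupport (fun z => c i * (g i).1 z) ⊆ tsupport (g i).1 := fun i =>
    tsupport_mul_subset_right
  refine ⟨n, fun i z => c i * (g i).1 z, q, fun i =>
    ⟨(g i).2.1.smul _, (h1 i).trans (g i).2.2.1, (h1 i).trans (hq i)⟩, ?_⟩
  rw [← h]
  funext z
  simp only [Finset.sum_apply, Pi.smul_apply, smul_eq_mul]

end Vale.Agent.P153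

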