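import Vale.Agent.P153.C2c
import Vale.Agent.P153.T7
import Vale.Agent.P153.T8

/-! The contact term is a constant. -/

open MeasureTheory Filter Topology

noncomputable section

namespace Vale.Agent.P153

variable {σ : ℝ} {S : List (ℂ → ℝ) → ℝ}

/-- `plateau` for `closure Q ⊆ O` gives `v` and an open `U ⊇ closure Q` with `v = 1` on `U`; take
`η > 0` with `cthickening (4 η) (closure Q) ⊆ U` (`IsCompact.exists_cthickening_subset_open`).
Claim: `S (lap v :: g :: B) = 0` for every test function `g` supported in `Q`: `small_pieces` with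
`Q` and `η`, `Lim.sum2`; a piece `g i ≠ 0` has `ball (q i) η ⊆ sq (q i) η ⊆ U`; `exists_div`,
`kill_dd` (with `U` for `Q`). Then `κ = S (lap v :: cz ρ β :: B)` for a bump `β` of mass one
supported in `Q` (if `Q` is empty then `f = 0`); `u f - (∫ u f) β` is a test function supported in
`Q`; `swap_mul`, `cz_lin`, `cz_of_test`, `Lim.lin2`. -/
theorem contact (h : Lim σ S) (hL : Local S) {O Q : Set ℂ} (hO : IsOpen O) (hQ : IsOpen Q)
    (hc : IsPreconnected Q) (hK : IsCompact (closure Q)) (hQO : closure Q ⊆ O)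
    {ρ : ℂ → ℝ} (hρ : Cc ρ) (h1 : ∫ z, ρ z = 1) (hρO : tsupport ρ ⊆ Oᶜ)
    {B : List (ℂ → ℝ)} (hB : Tests B) (hBO : Sup B Oᶜ) :
    ∃ κ : ℝ, ∀ u f, Cc u → tsupport u ⊆ O → Cc f → tsupport f ⊆ Q →
      S (lap u :: cz ρ f :: B) = κ * ∫ z, u z * f z := by
  obtain ⟨v, U, hv, hvO, hU, hQU, hUO, hv1⟩ := plateau hK hO hQO
  obtain ⟨δ, hδ, hδU⟩ := hK.exists_cthickening_subset_open hU hQU
  have claim : ∀ g, Test g → tsupport g ⊆ Q → S (lap v :: g :: B) = 0 := fun g hg hs => by
    obtain ⟨n, G, q, hG, rfl⟩ := small_pieces hQ hc hg hs (η := δ / 4) (by positivity)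
    rw [h.sum2 Finset.univ hv.test_lap (fun i _ => (hG i).1) hB]
    refine Finset.sum_eq_zero fun i _ => ?_
    obtain ⟨p, r, b1, b2⟩ : ∃ p r, tsupport (G i) ⊆ sq p r ∧ sq p r ⊆ U := by
      rcases (tsupport (G i)).eq_empty_or_nonempty with he | ⟨x, hx⟩
      · refine ⟨0, 0, by rw [he]; exact Set.empty_subset _, fun z hz => ?_⟩
        exact absurd hz.1 (not_lt.2 (abs_nonneg _))
      · refine ⟨q i, δ / 4, fun z hz => ?_, fun z hz => hδU ?_⟩
        · have h2 : ‖z - q i‖ < δ / 4 := mem_ball_iff_norm.1 ((hG i).2.2 hz)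
          exact ⟨(Complex.abs_re_le_norm (z - q i)).trans_lt h2,
            (Complex.abs_im_le_norm (z - q i)).trans_lt h2⟩
        · refine Metric.mem_cthickening_of_dist_le z x δ _ (subset_closure ((hG i).2.1 hx)) ?_
          have h2 : dist x (q i) < δ / 4 := (hG i).2.2 hx
          have h3 := Complex.norm_le_abs_re_add_abs_im (z - q i)
          rw [← dist_eq_norm, Complex.sub_re, Complex.sub_im] at h3
          linarith [dist_triangle_right z x (q i), hz.1, hz.2]
    obtain ⟨v₁, v₂, c1, c2, s1, s2, e⟩ := exists_div (hG i).1 b1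
    have e' : G i = fun z => 1 * dd 1 v₁ z + 1 * dd Complex.I v₂ z := by
      rw [e]
      simp only [one_mul]
    rw [e', h.lin2 1 1 hv.test_lap (c1.test_dd _) (c2.test_dd _) hB,
      (kill_dd h hL hU hUO hρ h1 hρO hB hBO hv hvO hv1 c1 (s1.trans b2)).1,
      (kill_dd h hL hU hUO hρ h1 hρO hB hBO hv hvO hv1 c2 (s2.trans b2)).2]
    simp
  rcases Q.eq_empty_or_nonempty with he | ⟨x, hx⟩
  · refine ⟨0, fun u f hu _ _ hfQ => ?_⟩
    have hf0 : f = fun _ => 0 := funext fun z => image_eq_zero_of_notMem_tsupport fun hz => by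
      have := hfQ hz
      rw [he] at this
      exact this
    have e : cz ρ f = fun _ => 0 := by
      funext z
      simp [cz, hf0]
    rw [e, h.perm _ _ (List.Perm.swap _ _ _), zero_mul]
    refine h.zero1 fun g hg => ?_
    rcases List.mem_cons.1 hg with rfl | hg
    · exact hu.test_lap
    · exact hB g hg
  · obtain ⟨r, hr, hrQ⟩ := Metric.nhds_basis_closedBall.mem_iff.1 (hQ.mem_nhds hx)
    have hβ := bump_cc hr x
    have hβ1 := bump_int hr x
    refine ⟨S (lap v :: cz ρ (bump r x) :: B), fun u f hu huO hf hfQ => ?_⟩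
    have hw : Cc fun z => u z * f z := hf.mul hu.1
    have hwQ : tsupport (fun z => u z * f z) ⊆ Q := (tsupport_mul_subset_right).trans hfQ
    have e : cz ρ (fun z => u z * f z) = fun z => 1 * cz (bump r x) (fun z => u z * f z) z +
        (∫ z, u z * f z) * cz ρ (bump r x) z := by
      funext z
      simp only [cz, hβ1]
      ring
    rw [swap_mul h hL hQ (subset_closure.trans hQO) hρ h1 hρO hB hBO hu huO hv hvO
      (fun z hz => hv1 z (hQU (subset_closure hz))) hf hfQ, e,
      h.lin2 _ _ hv.test_lap (cz_test hβ hβ1 hw) (cz_test hρ h1 hβ) hB,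
      claim _ (cz_test hβ hβ1 hw)
        ((cz_supp _ _).trans (Set.union_subset hwQ ((bump_supp hr x).trans hrQ)))]
    ring

end Vale.Agent.P153
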