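import Vale.Agent.P153.T1

/-! Partitions of unity, cutoffs and bumps at a small scale. -/

open MeasureTheory Filter Topology

noncomputable section

namespace Vale.Agent.P153

/-- One dimensional partition function, supported in `[-1, 1]`. -/
def pu1 (t : ℝ) : ℝ := Real.smoothTransition (t + 1) - Real.smoothTransition t

/-- The grid point. -/
def gp (η : ℝ) (a : ℤ × ℤ) : ℂ := ⟨η * a.1, η * a.2⟩

/-- Partition of unity at scale `η`. -/
def pu (η : ℝ) (a : ℤ × ℤ) (z : ℂ) : ℝ := pu1 (z.re / η - a.1) * pu1 (z.im / η - a.2)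

/-- The grid covering the ball of radius `R`. -/
def grid (R η : ℝ) : Finset (ℤ × ℤ) :=
  Finset.Icc (-(⌈R / η⌉ + 1)) (⌈R / η⌉ + 1) ×ˢ Finset.Icc (-(⌈R / η⌉ + 1)) (⌈R / η⌉ + 1)

/-- A fixed plateau function. -/
def cut0 : ContDiffBump (0 : ℂ) := ⟨2, 3, by norm_num, by norm_num⟩

/-- Equal to one on the ball of radius `2 η`, supported in the ball of radius `3 η`. -/
def cut (η : ℝ) (p z : ℂ) : ℝ := cut0 ((z - p) / η)

/-- A fixed bump. -/
def bump0 : ContDiffBump (0 : ℂ) := ⟨1 / 2, 1, by norm_num, by norm_num⟩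

/-- A bump of mass one supported in the ball of radius `r`. -/
def bump (r : ℝ) (p z : ℂ) : ℝ := (r ^ 2)⁻¹ * bump0.normed volume ((z - p) / r)

variable {η r R : ℝ}

theorem t4_smooth1 : ContDiff ℝ (⊤ : ℕ∞) pu1 :=
  (Real.smoothTransition.contDiff.comp (contDiff_id.add contDiff_const)).sub
    Real.smoothTransition.contDiff

theorem t4_nonneg1 (t : ℝ) : 0 ≤ pu1 t :=
  sub_nonneg.2 (Real.smoothTransition.monotone (by linarith))

theorem t4_le1 (t : ℝ) : pu1 t ≤ 1 := by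
  have h1 := Real.smoothTransition.le_one (t + 1)
  have h2 := Real.smoothTransition.nonneg t
  unfold pu1
  linarith

theorem t4_supp1 {t : ℝ} (h : pu1 t ≠ 0) : |t| ≤ 1 := by
  by_contra h1
  refine h ?_
  unfold pu1
  rcases lt_abs.1 (not_le.1 h1) with h2 | h2
  · rw [Real.smoothTransition.one_of_one_le (by linarith),
      Real.smoothTransition.one_of_one_le h2.le, sub_self]
  · rw [Real.smoothTransition.zero_of_nonpos (by linarith),
      Real.smoothTransition.zero_of_nonpos (by linarith), sub_self]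

theorem t4_aff (η : ℝ) (p : ℂ) : ContDiff ℝ (⊤ : ℕ∞) fun z : ℂ => (z - p) / η :=
  (contDiff_id.sub contDiff_const).div_const _

theorem t4_supp {g : ℂ → ℝ} {ρ : ℝ} (hg : ∀ w, g w ≠ 0 → ‖w‖ ≤ ρ) (hη : 0 < η) (p : ℂ) :
    tsupport (fun z => g ((z - p) / η)) ⊆ Metric.closedBall p (ρ * η) := by
  refine closure_minimal (fun z hz => ?_) Metric.isClosed_closedBall
  have h := hg _ hz
  rw [norm_div, Complex.norm_real, Real.norm_of_nonneg hη.le, div_le_iff₀ hη] at h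
  rwa [Metric.mem_closedBall, dist_eq_norm]

theorem t4_deriv {g : ℂ → ℝ} (hg : Cc g) : ∃ C : ℝ, 0 ≤ C ∧ ∀ η : ℝ, 0 < η → ∀ p z : ℂ,
    ‖fderiv ℝ (fun z => g ((z - p) / η)) z‖ ≤ C / η := by
  obtain ⟨C, hC⟩ := (hg.1.continuous_fderiv (by simp)).bounded_above_of_compact_support
    (hg.2.fderiv ℝ)
  refine ⟨C, (norm_nonneg _).trans (hC 0), fun η hη p z => ?_⟩
  have e : (fun z => g ((z - p) / η)) = fun z => g (η⁻¹ • (z - p)) := by
    funext w
    rw [Complex.real_smul, div_eq_inv_mul, Complex.ofReal_inv]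
  have h1 : fderiv ℝ (fun w => g (η⁻¹ • (w - p))) z = η⁻¹ • fderiv ℝ g (η⁻¹ • (z - p)) :=
    (fderiv_comp_sub (𝕜 := ℝ) (f := fun w => g (η⁻¹ • w)) p).trans (fderiv_comp_smul η⁻¹)
  rw [e, h1, norm_smul, Real.norm_of_nonneg (inv_nonneg.2 hη.le), div_eq_inv_mul]
  exact mul_le_mul_of_nonneg_left (hC _) (inv_nonneg.2 hη.le)

theorem t4_tel (f : ℤ → ℝ) {a b : ℤ} (h : a ≤ b) :
    ∑ i ∈ Finset.Icc a b, (f (i - 1) - f i) = f (a - 1) - f b := by
  induction b, h using Int.leInduction with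
  | base => simp
  | succ b hb ih =>
    rw [← Finset.insert_Icc_right_eq_Icc_add_one (by omega), Finset.sum_insert (by simp), ih,
      add_sub_cancel_right]
    ring

theorem t4_sum1 {N : ℤ} {x : ℝ} (h : |x| ≤ N) :
    ∑ i ∈ Finset.Icc (-(N + 1)) (N + 1), pu1 (x - i) = 1 := by
  have hN : 0 ≤ N := by exact_mod_cast (abs_nonneg x).trans h
  have h1 := t4_tel (fun i => Real.smoothTransition (x - i)) (a := -(N + 1)) (b := N + 1)
    (by omega)
  have h2 := abs_le.1 h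
  rw [Real.smoothTransition.one_of_one_le (by push_cast; linarith),
    Real.smoothTransition.zero_of_nonpos (x := x - (N + 1 : ℤ)) (by push_cast; linarith),
    sub_zero] at h1
  rw [← h1]
  refine Finset.sum_congr rfl fun i _ => ?_
  unfold pu1
  congr 2
  push_cast
  ring

theorem t4_card (hη : 0 < η) (hR : 0 ≤ R) :
    ((Finset.Icc (-(⌈R / η⌉ + 1)) (⌈R / η⌉ + 1)).card : ℝ) ≤ 2 * R / η + 5 := by
  have h0 : 0 ≤ ⌈R / η⌉ := Int.ceil_nonneg (div_nonneg hR hη.le)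
  have h1 := Int.card_Icc_of_le (-(⌈R / η⌉ + 1)) (⌈R / η⌉ + 1) (by omega)
  have h2 : ((Finset.Icc (-(⌈R / η⌉ + 1)) (⌈R / η⌉ + 1)).card : ℝ)
      = ⌈R / η⌉ + 1 + 1 - -(⌈R / η⌉ + 1) := by exact_mod_cast h1
  have h3 := Int.ceil_lt_add_one (R / η)
  rw [h2, mul_div_assoc]
  linarith

theorem pu_smooth (η : ℝ) (a : ℤ × ℤ) : ContDiff ℝ (⊤ : ℕ∞) (pu η a) :=
  (t4_smooth1.comp ((Complex.reCLM.contDiff.div_const η).sub contDiff_const)).mul
    (t4_smooth1.comp ((Complex.imCLM.contDiff.div_const η).sub contDiff_const))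

theorem pu_nonneg (η : ℝ) (a : ℤ × ℤ) (z : ℂ) : 0 ≤ pu η a z :=
  mul_nonneg (t4_nonneg1 _) (t4_nonneg1 _)

theorem pu_le_one (η : ℝ) (a : ℤ × ℤ) (z : ℂ) : pu η a z ≤ 1 :=
  mul_le_one₀ (t4_le1 _) (t4_nonneg1 _) (t4_le1 _)

theorem pu_supp (hη : 0 < η) (a : ℤ × ℤ) : tsupport (pu η a) ⊆
    {z | |z.re - η * a.1| ≤ η ∧ |z.im - η * a.2| ≤ η} := by
  have k : ∀ x y : ℝ, pu1 (x / η - y) ≠ 0 → |x - η * y| ≤ η := fun x y h => by
    have h1 := t4_supp1 h
    have e : x - η * y = η * (x / η - y) := by field_simp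
    rw [e, abs_mul, abs_of_pos hη]
    exact mul_le_of_le_one_right hη.le h1
  refine closure_minimal (fun z hz => ⟨k _ _ (left_ne_zero_of_mul hz),
    k _ _ (right_ne_zero_of_mul hz)⟩) ?_
  have c1 : Continuous fun z : ℂ => |z.re - η * a.1| := by fun_prop
  have c2 : Continuous fun z : ℂ => |z.im - η * a.2| := by fun_prop
  exact (isClosed_le c1 continuous_const).inter (isClosed_le c2 continuous_const)

theorem pu_supp' (hη : 0 < η) (a : ℤ × ℤ) :
    tsupport (pu η a) ⊆ Metric.ball (gp η a) (3 / 2 * η) := by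
  intro z hz
  obtain ⟨h1, h2⟩ := pu_supp hη a hz
  rw [Metric.mem_ball, dist_eq_norm]
  refine lt_of_pow_lt_pow_left₀ 2 (by positivity) ?_
  rw [Complex.sq_norm, Complex.normSq_apply]
  simp only [gp, Complex.sub_re, Complex.sub_im]
  have h3 := sq_le_sq' (abs_le.1 h1).1 (abs_le.1 h1).2
  have h4 := sq_le_sq' (abs_le.1 h2).1 (abs_le.1 h2).2
  nlinarith [mul_pos hη hη]

theorem pu_cc (hη : 0 < η) (a : ℤ × ℤ) : Cc (pu η a) :=
  ⟨pu_smooth η a, (isCompact_closedBall (gp η a) (3 / 2 * η)).of_isClosed_subset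
    (isClosed_tsupport _) ((pu_supp' hη a).trans Metric.ball_subset_closedBall)⟩

theorem pu_deriv : ∃ C : ℝ, 0 ≤ C ∧ ∀ η : ℝ, 0 < η → ∀ a z, ‖fderiv ℝ (pu η a) z‖ ≤ C / η := by
  obtain ⟨C, h0, hC⟩ := t4_deriv (pu_cc one_pos (0, 0))
  refine ⟨C, h0, fun η hη a z => ?_⟩
  have e : pu η a = fun z => pu 1 (0, 0) ((z - gp η a) / η) := by
    funext w
    simp only [pu, gp, Complex.div_ofReal_re, Complex.div_ofReal_im, Complex.sub_re,
      Complex.sub_im, div_one, Int.cast_zero, sub_zero, sub_div, mul_div_cancel_left₀ _ hη.ne']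
  rw [e]
  exact hC η hη _ z

/-- Telescoping sum in each variable. -/
theorem pu_sum (hη : 0 < η) {z : ℂ} (hz : ‖z‖ ≤ R) : ∑ a ∈ grid R η, pu η a z = 1 := by
  have k : ∀ x : ℝ, |x| ≤ ‖z‖ → |x / η| ≤ ⌈R / η⌉ := fun x hx => by
    rw [abs_div, abs_of_pos hη]
    exact (div_le_div_of_nonneg_right (hx.trans hz) hη.le).trans (Int.le_ceil _)
  simp only [grid, pu]
  rw [Finset.sum_product' _ _ fun i j : ℤ => pu1 (z.re / η - i) * pu1 (z.im / η - j),
    ← Finset.sum_mul_sum, t4_sum1 (k _ (Complex.abs_re_le_norm z)),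
    t4_sum1 (k _ (Complex.abs_im_le_norm z)), mul_one]

theorem grid_card (hη : 0 < η) (hR : 0 ≤ R) : ((grid R η).card : ℝ) ≤ (2 * R / η + 5) ^ 2 := by
  rw [grid, Finset.card_product, Nat.cast_mul, ← sq]
  exact pow_le_pow_left₀ (Nat.cast_nonneg _) (t4_card hη hR) 2

theorem grid_col (hη : 0 < η) (hR : 0 ≤ R) (i : ℤ) (m : ℕ) :
    (((grid R η).filter fun a => |a.1 - i| ≤ m).card : ℝ) ≤ (2 * m + 1) * (2 * R / η + 5) := by
  have h1 : ((grid R η).filter fun a => |a.1 - i| ≤ m) ⊆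
      Finset.Icc (i - m) (i + m) ×ˢ Finset.Icc (-(⌈R / η⌉ + 1)) (⌈R / η⌉ + 1) := by
    intro a ha
    obtain ⟨h2, h3⟩ := Finset.mem_filter.1 ha
    have h4 := abs_le.1 h3
    exact Finset.mem_product.2 ⟨Finset.mem_Icc.2 ⟨by omega, by omega⟩,
      (Finset.mem_product.1 h2).2⟩
  have h2 := Int.card_Icc_of_le (i - m) (i + m) (by omega)
  have h3 : ((Finset.Icc (i - m) (i + m)).card : ℝ) = i + m + 1 - (i - m) := by exact_mod_cast h2
  refine (Nat.cast_le.2 (Finset.card_le_card h1)).trans ?_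
  rw [Finset.card_product, Nat.cast_mul, h3]
  have e : (i : ℝ) + m + 1 - (i - m) = 2 * m + 1 := by ring
  rw [e]
  exact mul_le_mul_of_nonneg_left (t4_card hη hR) (by positivity)

theorem t4_cut (w : ℂ) (h : cut0 w ≠ 0) : ‖w‖ ≤ 3 := by
  have h1 : w ∈ Function.support cut0 := h
  rw [cut0.support_eq, mem_ball_zero_iff] at h1
  exact h1.le

theorem t4_bump (hr : 0 < r) (p : ℂ) : tsupport (bump r p) ⊆ Metric.closedBall p r := by
  have h := t4_supp (g := fun w => (r ^ 2)⁻¹ * bump0.normed volume w) (ρ := 1)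
    (fun w hw => by
      have h1 : w ∈ Function.support (bump0.normed volume) := right_ne_zero_of_mul hw
      rw [bump0.support_normed_eq, mem_ball_zero_iff] at h1
      exact h1.le) hr p
  rwa [one_mul] at h

theorem cut_cc (hη : 0 < η) (p : ℂ) : Cc (cut η p) :=
  ⟨cut0.contDiff.comp (t4_aff η p), (isCompact_closedBall p (3 * η)).of_isClosed_subset
    (isClosed_tsupport _) (t4_supp t4_cut hη p)⟩

theorem cut_one (hη : 0 < η) {p z : ℂ} (h : ‖z - p‖ ≤ 2 * η) : cut η p z = 1 := by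
  refine cut0.one_of_mem_closedBall ?_
  rw [mem_closedBall_zero_iff, norm_div, Complex.norm_real, Real.norm_of_nonneg hη.le,
    div_le_iff₀ hη]
  exact h

theorem cut_mem (η : ℝ) (p z : ℂ) : 0 ≤ cut η p z ∧ cut η p z ≤ 1 :=
  ⟨cut0.nonneg, cut0.le_one⟩

theorem cut_supp (hη : 0 < η) (p : ℂ) : tsupport (cut η p) ⊆ Metric.closedBall p (3 * η) :=
  t4_supp t4_cut hη p

theorem cut_deriv : ∃ C : ℝ, 0 ≤ C ∧ ∀ η : ℝ, 0 < η → ∀ p z, ‖fderiv ℝ (cut η p) z‖ ≤ C / η :=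
  t4_deriv ⟨cut0.contDiff, cut0.hasCompactSupport⟩

theorem bump_cc (hr : 0 < r) (p : ℂ) : Cc (bump r p) :=
  ⟨contDiff_const.mul (bump0.contDiff_normed.comp (t4_aff r p)),
    (isCompact_closedBall p r).of_isClosed_subset (isClosed_tsupport _) (t4_bump hr p)⟩

theorem bump_nonneg (r : ℝ) (p z : ℂ) : 0 ≤ bump r p z :=
  mul_nonneg (by positivity) (bump0.nonneg_normed _)

theorem bump_int (hr : 0 < r) (p : ℂ) : ∫ z, bump r p z = 1 := by
  have e : ∀ z : ℂ, (z - p) / r = r⁻¹ • (z - p) := fun z => by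
    rw [Complex.real_smul, div_eq_inv_mul, Complex.ofReal_inv]
  simp only [bump, e]
  rw [integral_const_mul, integral_sub_right_eq_self (fun z : ℂ => bump0.normed volume (r⁻¹ • z)) p,
    Measure.integral_comp_inv_smul_of_nonneg volume _ hr.le, bump0.integral_normed,
    Complex.finrank_real_complex, smul_eq_mul, mul_one, inv_mul_cancel₀ (by positivity)]

theorem bump_supp (hr : 0 < r) (p : ℂ) : tsupport (bump r p) ⊆ Metric.closedBall p r :=
  t4_bump hr p

theorem bump_tr (r : ℝ) (p a : ℂ) : tr a (bump r p) = bump r (p + a) := by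
  funext z
  simp only [tr, bump, sub_sub, add_comm a p]

end Vale.Agent.P153

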