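import Vale.Agent.P153.T3
import Vale.Agent.P153.T4

/-! The pieces of a function are small. -/

open MeasureTheory Filter Topology

noncomputable section

namespace Vale.Agent.P153

/-- The piece of `f` at the grid point `a`, with its mass moved to `ρ`. -/
def piece (η : ℝ) (f ρ : ℂ → ℝ) (a : ℤ × ℤ) (z : ℂ) : ℝ :=
  pu η a z * f z - (∫ w, pu η a w * f w) * ρ z

variable {η R : ℝ} {f ρ : ℂ → ℝ}

theorem t4p_int {g : ℂ → ℝ} {p : ℂ} {r B : ℝ} (hr : 0 ≤ r)
    (h0 : ∀ z ∉ Metric.closedBall p r, g z = 0) (hB : ∀ z ∈ Metric.closedBall p r, |g z| ≤ B) :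
    ∫ z, g z ≤ B * (4 * r ^ 2) := by
  have hB0 : 0 ≤ B := (abs_nonneg _).trans (hB p (Metric.mem_closedBall_self hr))
  rw [← setIntegral_eq_integral_of_forall_compl_eq_zero h0]
  refine (Real.le_norm_self _).trans ((norm_setIntegral_le_of_norm_le_const
    measure_closedBall_lt_top hB).trans (mul_le_mul_of_nonneg_left ?_ hB0))
  rw [Measure.real, Complex.volume_closedBall, ENNReal.toReal_mul, ENNReal.toReal_pow,
    ENNReal.toReal_ofReal hr, ENNReal.coe_toReal, NNReal.coe_real_pi, mul_comm]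
  exact mul_le_mul_of_nonneg_right Real.pi_le_four (sq_nonneg r)

theorem t4p_fd {g h : ℂ → ℝ} (hg : ContDiff ℝ (⊤ : ℕ∞) g) (hh : ContDiff ℝ (⊤ : ℕ∞) h) (z : ℂ) :
    ‖fderiv ℝ (fun z => g z * h z) z‖ ≤ |g z| * ‖fderiv ℝ h z‖ + |h z| * ‖fderiv ℝ g z‖ := by
  rw [fderiv_fun_mul (hg.differentiable (by simp) z) (hh.differentiable (by simp) z)]
  refine (norm_add_le _ _).trans_eq ?_
  rw [norm_smul, norm_smul, Real.norm_eq_abs, Real.norm_eq_abs]

theorem t4p_fi {g : ℂ → ℝ} (hg : Cc g) : Integrable fun z => ‖fderiv ℝ g z‖ :=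
  ((hg.1.continuous_fderiv (by simp)).integrable_of_hasCompactSupport (hg.2.fderiv ℝ)).norm

theorem t4p_sqrt {c E T : ℝ} (hE : 0 ≤ E) (hT : 0 ≤ T) (h : c ≤ E * T ^ 2) : √c ≤ √E * T := by
  refine (Real.sqrt_le_sqrt h).trans_eq ?_
  rw [Real.sqrt_mul hE, Real.sqrt_sq hT]

theorem t4p_en {v : ℂ → ℝ} (hv : Cc v) {p : ℂ} {r B : ℝ} (hr : 0 ≤ r)
    (hs : tsupport v ⊆ Metric.closedBall p r)
    (hB : ∀ z ∈ Metric.closedBall p r, ‖fderiv ℝ v z‖ ≤ B) :
    √(cov (lap v) (lap v)) ≤ 3 * (B * r) := by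
  have hB0 : 0 ≤ B := (norm_nonneg _).trans (hB p (Metric.mem_closedBall_self hr))
  have k : ∫ z, ‖fderiv ℝ v z‖ ^ 2 ≤ B ^ 2 * (4 * r ^ 2) := t4p_int hr
    (fun z hz => by rw [fderiv_of_notMem_tsupport ℝ fun h => hz (hs h), norm_zero, sq, mul_zero])
    fun z hz => by
      rw [abs_of_nonneg (sq_nonneg _)]
      exact pow_le_pow_left₀ (norm_nonneg _) (hB z hz) 2
  refine Real.sqrt_le_iff.2 ⟨by positivity, (cov_lap_le hv).trans ?_⟩
  nlinarith [sq_nonneg (B * r)]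

theorem t4p_gp (hη : 0 < η) (a : ℤ × ℤ) : gp η a ∈ tsupport (pu η a) := by
  refine subset_tsupport _ ?_
  simp [pu, pu1, gp, mul_div_cancel_left₀ _ hη.ne']

theorem t4p_loc (hη : 0 < η) (a : ℤ × ℤ) {g : ℂ → ℝ} {B : ℝ}
    (h0 : ∀ z ∉ tsupport (pu η a), g z = 0) (hB : ∀ z ∈ tsupport (pu η a), |g z| ≤ B) :
    ∫ z, g z ≤ 9 * B * η ^ 2 := by
  have hB0 : 0 ≤ B := (abs_nonneg _).trans (hB _ (t4p_gp hη a))
  refine (t4p_int (p := gp η a) (r := 3 / 2 * η) (B := B) (by positivity)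
    (fun z hz => h0 z fun h => hz (Metric.ball_subset_closedBall (pu_supp' hη a h)))
    fun z _ => ?_).trans_eq (by ring)
  by_cases hz : z ∈ tsupport (pu η a)
  · exact hB z hz
  · rwa [h0 z hz, abs_zero]

theorem piece_test (hη : 0 < η) (hf : Cc f) (hρ : Cc ρ) (h1 : ∫ z, ρ z = 1) (a : ℤ × ℤ) :
    Test (piece η f ρ a) := by
  have hA : Cc fun z => pu η a z * f z := hf.mul (pu_smooth η a)
  have e : piece η f ρ a = fun z => 1 * (pu η a z * f z) + (-∫ w, pu η a w * f w) * ρ z := by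
    funext z
    rw [piece]
    ring
  have c := hA.lin hρ 1 (-∫ w, pu η a w * f w)
  rw [← e] at c
  refine ⟨c.1, c.2, ?_⟩
  unfold piece
  rw [integral_sub hA.int (hρ.int.const_mul _), integral_const_mul, h1, mul_one, sub_self]

theorem piece_supp (η : ℝ) (f ρ : ℂ → ℝ) (a : ℤ × ℤ) :
    tsupport (piece η f ρ a) ⊆ (tsupport (pu η a) ∩ tsupport f) ∪ tsupport ρ := by
  refine closure_minimal (fun z hz => ?_)
    (((isClosed_tsupport _).inter (isClosed_tsupport _)).union (isClosed_tsupport _))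
  by_contra h
  rw [Set.mem_union, not_or, Set.mem_inter_iff, not_and_or] at h
  refine hz ?_
  rw [piece, image_eq_zero_of_notMem_tsupport h.2, mul_zero, sub_zero]
  rcases h.1 with k | k
  · rw [image_eq_zero_of_notMem_tsupport k, zero_mul]
  · rw [image_eq_zero_of_notMem_tsupport k, mul_zero]

theorem piece_sum (hη : 0 < η) (hf : Cc f) (hR : tsupport f ⊆ Metric.closedBall 0 R) (z : ℂ) :
    ∑ a ∈ grid R η, piece η f ρ a z = f z - (∫ w, f w) * ρ z := by
  have k : ∀ z, ∑ a ∈ grid R η, pu η a z * f z = f z := fun z => by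
    rw [← Finset.sum_mul]
    by_cases hz : f z = 0
    · rw [hz, mul_zero]
    · rw [pu_sum hη (mem_closedBall_zero_iff.1 (hR (subset_tsupport f hz))), one_mul]
  unfold piece
  rw [Finset.sum_sub_distrib, k, ← Finset.sum_mul,
    ← integral_finsetSum _ fun a _ => (hf.mul (pu_smooth η a)).int]
  simp only [k]

theorem t4p_l1 (hη : 0 < η) (hf : Cc f) (hρ : Cc ρ) (a : ℤ × ℤ) {M Cp : ℝ}
    (hp : ∀ z, ‖fderiv ℝ (pu η a) z‖ ≤ Cp / η)
    (hM : ∀ z ∈ tsupport (pu η a), |f z| ≤ M ∧ η * ‖fderiv ℝ f z‖ ≤ M) :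
    ∫ z, |piece η f ρ a z| ≤ 9 * M * η ^ 2 * (1 + ∫ z, |ρ z|) ∧
      tv (piece η f ρ a) ≤ 9 * (M / η + M * (Cp / η)) * η ^ 2 + 9 * M * η ^ 2 * tv ρ := by
  have hA : Cc fun z => pu η a z * f z := hf.mul (pu_smooth η a)
  have p1 : ∀ z, |pu η a z| ≤ 1 := fun z => abs_le.2
    ⟨neg_one_lt_zero.le.trans (pu_nonneg η a z), pu_le_one η a z⟩
  have k1 : ∫ z, |pu η a z * f z| ≤ 9 * M * η ^ 2 := t4p_loc hη a
    (fun z hz => by rw [image_eq_zero_of_notMem_tsupport hz, zero_mul, abs_zero])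
    fun z hz => by
      rw [abs_abs, abs_mul]
      exact (mul_le_of_le_one_left (abs_nonneg _) (p1 z)).trans (hM z hz).1
  have k2 : |∫ z, pu η a z * f z| ≤ 9 * M * η ^ 2 := abs_integral_le_integral_abs.trans k1
  have k3 : ∫ z, ‖fderiv ℝ (fun z => pu η a z * f z) z‖ ≤ 9 * (M / η + M * (Cp / η)) * η ^ 2 :=
    t4p_loc hη a (fun z hz => by
      rw [fderiv_of_notMem_tsupport ℝ fun h => hz (tsupport_mul_subset_left h), norm_zero])
      fun z hz => by
        rw [abs_norm]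
        refine (t4p_fd (pu_smooth η a) hf.1 z).trans (add_le_add ?_ ?_)
        · refine (mul_le_of_le_one_left (norm_nonneg _) (p1 z)).trans ?_
          rw [le_div_iff₀' hη]
          exact (hM z hz).2
        · exact mul_le_mul (hM z hz).1 (hp z) (norm_nonneg _) ((abs_nonneg _).trans (hM z hz).1)
  generalize hc : ∫ z, pu η a z * f z = c at k2
  have e : piece η f ρ a = fun z => pu η a z * f z - c * ρ z := by
    funext z
    rw [piece, hc]
  rw [e]
  constructor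
  · have i2 := hρ.int.abs.const_mul |c|
    refine (integral_mono_of_nonneg (Eventually.of_forall fun z => abs_nonneg _)
      (hA.int.abs.add i2) (Eventually.of_forall fun z => ?_)).trans ?_
    · exact (abs_sub _ _).trans_eq (by rw [abs_mul c]; rfl)
    · have n : 0 ≤ ∫ z, |ρ z| := integral_nonneg fun z => abs_nonneg _
      refine (integral_add hA.int.abs i2).trans_le ?_
      rw [integral_const_mul, mul_add, mul_one]
      exact add_le_add k1 (mul_le_mul_of_nonneg_right k2 n)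
  · have i2 := (t4p_fi hρ).const_mul |c|
    refine (integral_mono_of_nonneg (Eventually.of_forall fun z => norm_nonneg _)
      ((t4p_fi hA).add i2) (Eventually.of_forall fun z => ?_)).trans ?_
    · have d1 := hA.1.differentiable (by simp) z
      have d2 := hρ.1.differentiable (by simp) z
      change ‖fderiv ℝ (fun z => pu η a z * f z - c * ρ z) z‖ ≤
        ‖fderiv ℝ (fun z => pu η a z * f z) z‖ + |c| * ‖fderiv ℝ ρ z‖
      rw [fderiv_fun_sub d1 (d2.const_mul c), fderiv_const_mul d2]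
      exact (norm_sub_le _ _).trans_eq (by rw [norm_smul, Real.norm_eq_abs])
    · refine (integral_add (t4p_fi hA) i2).trans_le ?_
      rw [integral_const_mul]
      exact add_le_add k3 (mul_le_mul_of_nonneg_right k2 (tv_nonneg ρ))

/-- The mass is `O(η ^ 2 M)`, the total variation `O(η M + η ^ 2 M')`; `cov_le` with `a = 1` and
`b = 1 / η`; `log x ≤ x ^ γ / γ`. The constant is uniform over functions with given bounds. -/
theorem piece_nn (hρ : Cc ρ) (h1 : ∫ z, ρ z = 1) (R : ℝ) {γ : ℝ} (hγ : 0 < γ) :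
    ∃ C : ℝ, 0 ≤ C ∧ ∀ η ∈ Set.Ioc (0 : ℝ) 1, ∀ f, Cc f → tsupport f ⊆ Metric.closedBall 0 R →
      ∀ (a : ℤ × ℤ) (M : ℝ), (∀ z ∈ tsupport (pu η a), |f z| ≤ M ∧ η * ‖fderiv ℝ f z‖ ≤ M) →
        nn (piece η f ρ a) ≤ C * M * η ^ (2 - γ) := by
  obtain ⟨Cp, hCp, hp⟩ := pu_deriv
  obtain ⟨S, hS⟩ := hρ.2.isCompact.isBounded.subset_closedBall (0 : ℂ)
  have n : 0 ≤ ∫ z, |ρ z| := integral_nonneg fun z => abs_nonneg _
  have nt := tv_nonneg ρ
  set K : ℝ := 9 * (1 + ∫ z, |ρ z|) with hK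
  set K' : ℝ := 9 * (1 + Cp + tv ρ) with hK'
  set Q : ℝ := |R| + |S| with hQ
  have K0 : 0 ≤ K := by positivity
  have K1 : 0 ≤ K' := by positivity
  have Q0 : 0 ≤ Q := by positivity
  have E0 : 0 ≤ 4 * (Q * K) ^ 2 + K ^ 2 / γ + K' ^ 2 := by positivity
  refine ⟨√(4 * (Q * K) ^ 2 + K ^ 2 / γ + K' ^ 2) + K, by positivity,
    fun η hη f hf hR a M hM => ?_⟩
  have η0 := hη.1
  have M0 : 0 ≤ M := (abs_nonneg _).trans (hM _ (t4p_gp η0 a)).1
  obtain ⟨b1, b2⟩ := t4p_l1 η0 hf hρ a (hp η η0 a) hM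
  have ht := piece_test η0 hf hρ h1 a
  have hs : tsupport (piece η f ρ a) ⊆ Metric.closedBall 0 Q :=
    (piece_supp η f ρ a).trans (Set.union_subset
      (Set.inter_subset_right.trans (hR.trans (Metric.closedBall_subset_closedBall
        ((le_abs_self R).trans (le_add_of_nonneg_right (abs_nonneg S))))))
      (hS.trans (Metric.closedBall_subset_closedBall
        ((le_abs_self S).trans (le_add_of_nonneg_left (abs_nonneg R))))))
  have b3 := m1_le ht.cc hs
  have i1 : 1 ≤ 1 / η := one_le_one_div η0 hη.2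
  have b4 := cov_le ht one_pos i1
  have y1 : 1 ≤ (1 / η) ^ γ := Real.one_le_rpow i1 hγ.le
  have y2 := Real.log_le_rpow_div (zero_le_one.trans i1) hγ
  have y3 : η ^ (2 - γ) = η ^ 2 * (1 / η) ^ γ := by
    rw [Real.rpow_sub η0, Real.rpow_two, one_div, Real.inv_rpow η0.le, div_eq_mul_inv]
  rw [y3, mul_assoc, ← mul_assoc M]
  generalize (1 / η) ^ γ = y at y1 y2
  have L0 : 0 ≤ ∫ z, |piece η f ρ a z| := integral_nonneg fun z => abs_nonneg _
  have m0 := m1_nonneg (piece η f ρ a)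
  have t0 := tv_nonneg (piece η f ρ a)
  have T0 : 0 ≤ M * η ^ 2 := by positivity
  have c1 : ∫ z, |piece η f ρ a z| ≤ K * (M * η ^ 2) := b1.trans_eq (by rw [hK]; ring)
  have c2 : tv (piece η f ρ a) * η ≤ K' * (M * η ^ 2) := by
    refine (mul_le_mul_of_nonneg_right b2 η0.le).trans ?_
    have : 9 * M * η ^ 2 * tv ρ * η ≤ 9 * M * η ^ 2 * tv ρ :=
      mul_le_of_le_one_right (by positivity) hη.2
    have e : 9 * (M / η + M * (Cp / η)) * η ^ 2 * η = 9 * (1 + Cp) * (M * η ^ 2) := by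
      field_simp
    rw [add_mul, e, hK']
    linarith
  have c3 : m1 (piece η f ρ a) ≤ Q * K * (M * η ^ 2) :=
    (b3.trans (mul_le_mul_of_nonneg_left c1 Q0)).trans_eq (by ring)
  have e4 : tv (piece η f ρ a) ^ 2 / (1 / η) ^ 2 = (tv (piece η f ρ a) * η) ^ 2 := by
    field_simp
  rw [e4, div_one] at b4
  unfold nn
  generalize M * η ^ 2 = T at T0 c1 c2 c3 ⊢
  have u : ∀ {x D : ℝ}, 0 ≤ x → 0 ≤ D → x ≤ D * T → x ^ 2 ≤ D ^ 2 * (T * y) ^ 2 :=
    fun {x D} hx hD h => by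
      rw [← mul_pow]
      exact pow_le_pow_left₀ hx (h.trans (mul_le_mul_of_nonneg_left
        (le_mul_of_one_le_right T0 y1) hD)) 2
  have d2 : (∫ z, |piece η f ρ a z|) ^ 2 * Real.log (1 / η) ≤ K ^ 2 / γ * (T * y) ^ 2 := by
    have y4 : y / γ ≤ y ^ 2 / γ := div_le_div_of_nonneg_right (by nlinarith) hγ.le
    refine (mul_le_mul (pow_le_pow_left₀ L0 c1 2) (y2.trans y4) (Real.log_nonneg i1)
      (by positivity)).trans_eq (by ring)
  have d := t4p_sqrt E0 (mul_nonneg T0 (zero_le_one.trans y1)) (b4.trans (by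
    have d1 := u m0 (mul_nonneg Q0 K0) c3
    have d3 := u (mul_nonneg t0 η0.le) K1 c2
    linarith))
  have d5 := c1.trans (mul_le_mul_of_nonneg_left (le_mul_of_one_le_right T0 y1) K0)
  rw [add_mul]
  exact add_le_add d d5

/-- The oscillation of `u` at scale `η` has small energy. -/
theorem osc_le {u : ℂ → ℝ} (hu : ContDiff ℝ (⊤ : ℕ∞) u) (R : ℝ) : ∃ C : ℝ, 0 ≤ C ∧
    ∀ η ∈ Set.Ioc (0 : ℝ) 1, ∀ p : ℂ, ‖p‖ ≤ R →
      √(cov (lap fun z => (u z - u p) * cut η p z) (lap fun z => (u z - u p) * cut η p z)) ≤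
        C * η := by
  obtain ⟨Cc', hC, hp⟩ := cut_deriv
  obtain ⟨B, hB⟩ := (isCompact_closedBall (0 : ℂ) (|R| + 3)).exists_bound_of_continuousOn
    (hu.continuous_fderiv (by simp)).continuousOn
  have B0 : 0 ≤ B := (norm_nonneg _).trans (hB 0 (Metric.mem_closedBall_self (by positivity)))
  refine ⟨9 * (B * (3 * Cc') + B), by positivity, fun η hη p hR => ?_⟩
  have η0 := hη.1
  have hu' : ContDiff ℝ (⊤ : ℕ∞) fun z => u z - u p := hu.sub contDiff_const
  have sub : Metric.closedBall p (3 * η) ⊆ Metric.closedBall 0 (|R| + 3) :=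
    Metric.closedBall_subset_closedBall' (by
      rw [dist_zero_right]
      linarith [le_abs_self R, hη.2])
  refine (t4p_en ((cut_cc η0 p).mul hu') (p := p) (r := 3 * η) (B := B * (3 * Cc') + B)
    (by positivity) (tsupport_mul_subset_right.trans (cut_supp η0 p)) fun z hz => ?_).trans_eq
    (by ring)
  refine (t4p_fd hu' (cut_cc η0 p).1 z).trans (add_le_add ?_ ?_)
  · have k := (convex_closedBall p (3 * η)).norm_image_sub_le_of_norm_fderiv_le
      (fun x _ => hu.differentiable (by simp) x) (fun x hx => hB x (sub hx))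
      (Metric.mem_closedBall_self (by positivity)) hz
    have k2 : |u z - u p| ≤ B * (3 * η) :=
      k.trans (mul_le_mul_of_nonneg_left (mem_closedBall_iff_norm.1 hz) B0)
    refine (mul_le_mul k2 (hp η η0 p z) (norm_nonneg _) (by positivity)).trans_eq ?_
    field_simp
  · rw [fderiv_sub_const, abs_of_nonneg (cut_mem η p z).1]
    exact (mul_le_of_le_one_left (norm_nonneg _) (cut_mem η p z).2).trans (hB z (sub hz))

theorem cut_le : ∃ C : ℝ, 0 ≤ C ∧ ∀ η : ℝ, 0 < η → ∀ p : ℂ,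
    √(cov (lap (cut η p)) (lap (cut η p))) ≤ C := by
  obtain ⟨C, hC, hp⟩ := cut_deriv
  refine ⟨9 * C, by positivity, fun η hη p => (t4p_en (cut_cc hη p) (by positivity)
    (cut_supp hη p) fun z _ => hp η hη p z).trans_eq ?_⟩
  field_simp
  ring

end Vale.Agent.P153

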