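import Vale.Agent.P153.C2a
import Vale.Agent.P153.T4P

/-! Removing a cell or a column from a test function. -/

open MeasureTheory Filter Topology

noncomputable section

namespace Vale.Agent.P153

variable {σ : ℝ} {S : List (ℂ → ℝ) → ℝ}

/-- Grid points near `a`. -/
def near (R η : ℝ) (a : ℤ × ℤ) : Finset (ℤ × ℤ) :=
  (grid R η).filter fun b => |b.1 - a.1| ≤ 2 ∧ |b.2 - a.2| ≤ 2

/-- Grid points in the columns near `a`. -/
def col (R η : ℝ) (a : ℤ × ℤ) : Finset (ℤ × ℤ) := (grid R η).filter fun b => |b.1 - a.1| ≤ 5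

/-- The part of `f` near `a`. -/
def inn (R η : ℝ) (a : ℤ × ℤ) (f : ℂ → ℝ) : ℂ → ℝ := fun z => (∑ b ∈ near R η a, pu η b z) * f z

/-- `f` with the part near `a` moved to `ρ`. -/
def outc (R η : ℝ) (ρ : ℂ → ℝ) (a : ℤ × ℤ) (f : ℂ → ℝ) : ℂ → ℝ :=
  fun z => f z - ∑ b ∈ near R η a, piece η f ρ b z

/-- `f` with the columns near `a` moved to `ρ`. -/
def outs (R η : ℝ) (ρ : ℂ → ℝ) (a : ℤ × ℤ) (f : ℂ → ℝ) : ℂ → ℝ :=
  fun z => f z - ∑ b ∈ col R η a, piece η f ρ b z

variable {R η : ℝ} {ρ f : ℂ → ℝ} {a : ℤ × ℤ}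

theorem far_C2g (hη : 0 < η) {x : ℝ} {i j n : ℤ} (h : |x - η * i| ≤ η) (hn : ¬ |i - j| ≤ n) :
    n * η ≤ |x - η * j| := by
  have h1 : (n : ℝ) + 1 ≤ |(i : ℝ) - j| := by
    have : n + 1 ≤ |i - j| := by omega
    exact_mod_cast this
  have h2 : |η * i - η * j| = η * |(i : ℝ) - j| := by rw [← mul_sub, abs_mul, abs_of_pos hη]
  have h3 := abs_sub_le (η * i) x (η * j)
  rw [abs_sub_comm (η * i) x] at h3
  nlinarith

theorem close_C2g (hη : 0 < η) {x : ℝ} {i j : ℤ} (h : |x - η * i| ≤ η) (hn : |i - j| ≤ 2) :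
    |x - η * j| ≤ 3 * η := by
  have h1 : |(i : ℝ) - j| ≤ 2 := by exact_mod_cast hn
  have h2 : |η * i - η * j| = η * |(i : ℝ) - j| := by rw [← mul_sub, abs_mul, abs_of_pos hη]
  have h3 := abs_sub_le x (η * i) (η * j)
  nlinarith

theorem inn_cc (hη : 0 < η) (hf : Cc f) : Cc (inn R η a f) :=
  hf.mul (Cc.sum (near R η a) fun b _ => pu_cc hη b).1

theorem inn_supp (hη : 0 < η) :
    tsupport (inn R η a f) ⊆ tsupport f ∩ {z | |z.re - η * a.1| ≤ 3 * η} := by
  refine Set.subset_inter tsupport_mul_subset_right (closure_minimal (fun z hz => ?_) ?_)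
  · obtain ⟨b, hb, h0⟩ := Finset.exists_ne_zero_of_sum_ne_zero (left_ne_zero_of_mul hz)
    exact close_C2g hη (pu_supp hη b (subset_tsupport _ h0)).1 (Finset.mem_filter.1 hb).2.1
  · exact isClosed_le (by fun_prop) continuous_const

theorem notnear_C2g (hη : 0 < η) {b : ℤ × ℤ} (hb : ¬ (|b.1 - a.1| ≤ 2 ∧ |b.2 - a.2| ≤ 2)) :
    tsupport (pu η b) ⊆ {z | 2 * η ≤ |z.re - η * a.1|} ∪ {z | 2 * η ≤ |z.im - η * a.2|} := by
  intro z hz
  have k := pu_supp hη b hz
  rcases not_and_or.1 hb with h | h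
  · left
    simpa using far_C2g hη k.1 h
  · right
    simpa using far_C2g hη k.2 h

theorem disj_C2g (hη : 0 < η) :
    {z : ℂ | 2 * η ≤ |z.re - η * a.1|} ∪ {z | 2 * η ≤ |z.im - η * a.2|} ⊆
      (tsupport (pu η a))ᶜ := by
  intro z hz h
  have k := pu_supp hη a h
  rcases hz with h' | h'
  · have h1 : 2 * η ≤ |z.re - η * a.1| := h'
    linarith [k.1]
  · have h1 : 2 * η ≤ |z.im - η * a.2| := h'
    linarith [k.2]

theorem inn_eq (hη : 0 < η) (hR : tsupport f ⊆ Metric.closedBall 0 R) (z : ℂ) :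
    pu η a z * inn R η a f z = pu η a z * f z := by
  by_cases h0 : pu η a z = 0
  · rw [h0, zero_mul, zero_mul]
  by_cases hz : f z = 0
  · rw [inn, hz, mul_zero]
  have h1 := pu_sum hη (mem_closedBall_zero_iff.1 (hR (subset_tsupport f hz)))
  have h2 : ∑ b ∈ near R η a, pu η b z = ∑ b ∈ grid R η, pu η b z := by
    refine Finset.sum_subset (Finset.filter_subset _ _) fun b hb hn => ?_
    by_contra hb0
    have hb' : ¬ (|b.1 - a.1| ≤ 2 ∧ |b.2 - a.2| ≤ 2) := fun h =>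
      hn (Finset.mem_filter.2 ⟨hb, h⟩)
    exact disj_C2g hη (notnear_C2g hη hb' (subset_tsupport _ hb0)) (subset_tsupport _ h0)
  rw [inn, h2, h1, one_mul]

theorem sub_outc (hη : 0 < η) (hf : Cc f) :
    (fun z => f z - outc R η ρ a f z) = cz ρ (inn R η a f) := by
  have _ := hη
  funext z
  unfold outc cz inn piece
  simp only [Finset.sum_mul]
  rw [integral_finsetSum _ fun b _ => (hf.mul (pu_smooth η b)).int, Finset.sum_sub_distrib,
    Finset.sum_mul]
  ring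

theorem outc_test (hη : 0 < η) (hρ : Cc ρ) (h1 : ∫ z, ρ z = 1) (hf : Test f) :
    Test (outc R η ρ a f) :=
  hf.sub (Test.sum _ fun b _ => piece_test hη hf.cc hρ h1 b)

theorem outs_test (hη : 0 < η) (hρ : Cc ρ) (h1 : ∫ z, ρ z = 1) (hf : Test f) :
    Test (outs R η ρ a f) :=
  hf.sub (Test.sum _ fun b _ => piece_test hη hf.cc hρ h1 b)

theorem rest_C2g (hη : 0 < η) (hf : Test f) (hR : tsupport f ⊆ Metric.closedBall 0 R)
    (p : ℤ × ℤ → Prop) [DecidablePred p] {F : Set ℂ} (hF : IsClosed F)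
    (h : ∀ b, ¬ p b → tsupport (pu η b) ⊆ F) :
    tsupport (fun z => f z - ∑ b ∈ (grid R η).filter p, piece η f ρ b z) ⊆ F ∪ tsupport ρ := by
  refine closure_minimal (fun z hz => ?_) (hF.union (isClosed_tsupport _))
  have e1 := piece_sum (ρ := ρ) hη hf.cc hR z
  rw [hf.2.2, zero_mul, sub_zero,
    ← Finset.sum_filter_add_sum_filter_not (grid R η) p] at e1
  have e2 : ∑ b ∈ (grid R η).filter fun b => ¬ p b, piece η f ρ b z ≠ 0 := fun h0 =>
    hz (by
      change f z - ∑ b ∈ (grid R η).filter p, piece η f ρ b z = 0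
      linarith)
  obtain ⟨b, hb, h0⟩ := Finset.exists_ne_zero_of_sum_ne_zero e2
  rcases piece_supp η f ρ b (subset_tsupport _ h0) with k | k
  · exact Or.inl (h b (Finset.mem_filter.1 hb).2 k.1)
  · exact Or.inr k

theorem outc_supp (hη : 0 < η) (hf : Test f) (hR : tsupport f ⊆ Metric.closedBall 0 R) :
    tsupport (outc R η ρ a f) ⊆ (tsupport (pu η a))ᶜ ∪ tsupport ρ :=
  (rest_C2g hη hf hR _ ((isClosed_le continuous_const (by fun_prop)).union
    (isClosed_le continuous_const (by fun_prop))) fun _ hb => notnear_C2g hη hb).trans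
    (Set.union_subset_union_left _ (disj_C2g hη))

theorem outs_supp (hη : 0 < η) (hf : Test f) (hR : tsupport f ⊆ Metric.closedBall 0 R) :
    tsupport (outs R η ρ a f) ⊆ {z | 5 * η ≤ |z.re - η * a.1|} ∪ tsupport ρ :=
  rest_C2g hη hf hR _ (isClosed_le continuous_const (by fun_prop)) fun b hb z hz => by
    simpa using far_C2g hη (pu_supp hη b hz).1 hb

end Vale.Agent.P153
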