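import Vale.Agent.P153.C2d
import Vale.Agent.P153.C2t
import Vale.Agent.P153.C2f
import Vale.Agent.P153.C2n

/-! The estimate for one cell. -/

open MeasureTheory Filter Topology

noncomputable section

namespace Vale.Agent.P153

variable {σ : ℝ} {S : List (ℂ → ℝ) → ℝ}

theorem list_unif_C2h {α : Type} (A : List α) (P : α → ℝ → Prop)
    (mono : ∀ f C C', C ≤ C' → P f C → P f C') (h : ∀ f ∈ A, ∃ C, 0 ≤ C ∧ P f C) :
    ∃ C, 0 ≤ C ∧ ∀ f ∈ A, P f C := by
  induction A with
  | nil => exact ⟨0, le_rfl, by simp⟩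
  | cons x A ih =>
    obtain ⟨C, hC, hP⟩ := ih fun f hf => h f (List.mem_cons_of_mem _ hf)
    obtain ⟨C', hC', hP'⟩ := h x List.mem_cons_self
    refine ⟨max C C', le_max_of_le_left hC, fun f hf => ?_⟩
    rcases List.mem_cons.mp hf with rfl | hf
    · exact mono _ _ _ (le_max_right _ _) hP'
    · exact mono _ _ _ (le_max_left _ _) (hP f hf)

/-- An open rectangle. -/
def box_C2h (a b c d : ℝ) : Set ℂ := {z | a < z.re ∧ z.re < b ∧ c < z.im ∧ z.im < d}

theorem box_open_C2h (a b c d : ℝ) : IsOpen (box_C2h a b c d) :=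
  (isOpen_lt continuous_const Complex.continuous_re).inter
    ((isOpen_lt Complex.continuous_re continuous_const).inter
      ((isOpen_lt continuous_const Complex.continuous_im).inter
        (isOpen_lt Complex.continuous_im continuous_const)))

theorem box_conn_C2h (a b c d : ℝ) : IsPreconnected (box_C2h a b c d) :=
  ((convex_halfSpace_re_gt a).inter ((convex_halfSpace_re_lt b).inter
    ((convex_halfSpace_im_gt c).inter (convex_halfSpace_im_lt d)))).isPreconnected

theorem box_closure_C2h (a b c d : ℝ) : closure (box_C2h a b c d) ⊆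
    {z | a ≤ z.re ∧ z.re ≤ b ∧ c ≤ z.im ∧ z.im ≤ d} := by
  refine closure_minimal (fun z hz => ⟨hz.1.le, hz.2.1.le, hz.2.2.1.le, hz.2.2.2.le⟩) ?_
  exact (isClosed_le continuous_const Complex.continuous_re).inter
    ((isClosed_le Complex.continuous_re continuous_const).inter
      ((isClosed_le continuous_const Complex.continuous_im).inter
        (isClosed_le Complex.continuous_im continuous_const)))

theorem box_compact_C2h (a b c d : ℝ) : IsCompact (closure (box_C2h a b c d)) := by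
  refine Bornology.IsBounded.isCompact_closure ?_
  refine (Metric.isBounded_closedBall (x := (0 : ℂ)) (r := |a| + |b| + |c| + |d|)).subset ?_
  intro z hz
  rw [mem_closedBall_zero_iff]
  obtain ⟨h1, h2, h3, h4⟩ := hz
  have e1 : |z.re| ≤ |a| + |b| := abs_le.mpr
    ⟨by linarith [neg_abs_le a, abs_nonneg b], by linarith [le_abs_self b, abs_nonneg a]⟩
  have e2 : |z.im| ≤ |c| + |d| := abs_le.mpr
    ⟨by linarith [neg_abs_le c, abs_nonneg d], by linarith [le_abs_self d, abs_nonneg c]⟩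
  linarith [Complex.norm_le_abs_re_add_abs_im z]

theorem ball_re_im_C2h {p z : ℂ} {r : ℝ} (h : z ∈ Metric.closedBall p r) :
    |z.re - p.re| ≤ r ∧ |z.im - p.im| ≤ r := by
  rw [mem_closedBall_iff_norm] at h
  exact ⟨(Complex.abs_re_le_norm (z - p)).trans h, (Complex.abs_im_le_norm (z - p)).trans h⟩

theorem grid_re_C2h {R η : ℝ} (hη : 0 < η) {a : ℤ × ℤ} (ha : a ∈ grid R η) :
    |η * a.1| ≤ R + 2 * η := by
  have h1 := (Finset.mem_Icc.mp (Finset.mem_product.mp ha).1)
  have h2 : ((⌈R / η⌉ : ℤ) : ℝ) < R / η + 1 := Int.ceil_lt_add_one _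
  have h3 : |(a.1 : ℝ)| ≤ R / η + 2 := by
    have l1 : (-((⌈R / η⌉ : ℤ) + 1 : ℝ)) ≤ (a.1 : ℝ) := by exact_mod_cast h1.1
    have l2 : (a.1 : ℝ) ≤ ((⌈R / η⌉ : ℤ) + 1 : ℝ) := by exact_mod_cast h1.2
    exact abs_le.mpr ⟨by linarith, by linarith⟩
  rw [abs_mul, abs_of_pos hη]
  calc η * |(a.1 : ℝ)| ≤ η * (R / η + 2) := by gcongr
    _ = R + 2 * η := by field_simp

theorem kappa_C2h {κ : ℝ} {O Q : Set ℂ} {ρ x : ℂ → ℝ} {B : List (ℂ → ℝ)}
    (hκ : ∀ u f, Cc u → tsupport u ⊆ O → Cc f → tsupport f ⊆ Q →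
      S (lap u :: cz ρ f :: B) = κ * ∫ z, u z * f z)
    (hQO : Q ⊆ O) (hx : Cc x) (hxQ : tsupport x ⊆ Q) (hx1 : cov (lap x) (lap x) = 1) :
    S (lap x :: lap x :: B) = -κ := by
  have h1 := hκ x (lap x) hx (hxQ.trans hQO) hx.test_lap.cc ((tsupport_lap x hx.1).trans hxQ)
  rw [cz_of_test hx.test_lap] at h1
  have h2 := cov_lap hx hx.test_lap
  rw [hx1] at h2
  have h3 : ∫ z, x z * lap x z = -1 := by linarith
  rw [h1, h3]; ring

theorem cell_est (h : Lim σ S) (hL : Local S) {R : ℝ} (hR : 1 ≤ R) {u w : ℂ → ℝ} (hu : Cc u)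
    (huR : tsupport u ⊆ Metric.closedBall 0 R) (hw : Cc w)
    (hwR : tsupport w ⊆ Metric.closedBall (((R + 4 : ℝ) : ℂ) * Complex.I) 1)
    (hw1 : cov (lap w) (lap w) = 1) {A : List (ℂ → ℝ)} (hA : Tests A)
    (hAR : Sup A (Metric.closedBall 0 R)) : ∃ C : ℝ, ∀ η ∈ Set.Ioc (0 : ℝ) 1, ∀ a ∈ grid R η,
      |S (lap (fun z => pu η a z * u z) :: A) + ∑ j : Fin A.length,
        (∫ z, pu η a z * u z * A.get j z) * S (lap w :: lap w :: A.eraseIdx j)| ≤
        C * η ^ (5 / 2 : ℝ) := by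
  set ρ : ℂ → ℝ := bump 1 (((-(R + 10) : ℝ)) : ℂ) with hρdef
  have hρ : Cc ρ := bump_cc one_pos _
  have hρ1 : ∫ z, ρ z = 1 := bump_int one_pos _
  have hρs : ∀ z ∈ tsupport ρ, z.re ≤ -(R + 9) ∧ z.im ≤ 1 := by
    intro z hz
    obtain ⟨h1, h2⟩ := ball_re_im_C2h (bump_supp one_pos _ hz)
    simp only [Complex.ofReal_re, Complex.ofReal_im, sub_zero] at h1 h2
    exact ⟨by linarith [(abs_le.mp h1).2], (abs_le.mp h2).2⟩
  obtain ⟨K, hK0, hK⟩ := list_unif_C2h A (fun f C => ∀ η ∈ Set.Ioc (0 : ℝ) 1,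
      ∀ a : ℤ × ℤ, nn f ≤ C ∧ nn (outc R η ρ a f) ≤ C ∧ nn (outs R η ρ a f) ≤ C ∧
        nn (fun z => f z - outc R η ρ a f z) ≤ C * η ^ (7 / 4 : ℝ) ∧
        nn (fun z => f z - outs R η ρ a f z) ≤ C * η ^ (3 / 4 : ℝ) ∧
        nn (fun z => outc R η ρ a f z - outs R η ρ a f z) ≤ C * η ^ (3 / 4 : ℝ))
    (by
      intro f C C' hCC hP η hη a
      obtain ⟨h1, h2, h3, h4, h5, h6⟩ := hP η hη a
      have e1 : 0 ≤ η ^ (7 / 4 : ℝ) := Real.rpow_nonneg hη.1.le _
      have e2 : 0 ≤ η ^ (3 / 4 : ℝ) := Real.rpow_nonneg hη.1.le _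
      exact ⟨h1.trans hCC, h2.trans hCC, h3.trans hCC,
        h4.trans (mul_le_mul_of_nonneg_right hCC e1),
        h5.trans (mul_le_mul_of_nonneg_right hCC e2),
        h6.trans (mul_le_mul_of_nonneg_right hCC e2)⟩)
    (fun f hf => out_nn hρ hρ1 (hA f hf) (by linarith) (hAR f hf))
  obtain ⟨M, hM0, hM⟩ := list_unif_C2h A (fun f C => ∀ η : ℝ, 0 < η →
      ∀ a : ℤ × ℤ, |∫ z, pu η a z * (u z * f z)| ≤ C * η ^ 2)
    (fun f C C' hCC hP η hη a => (hP η hη a).trans
      (mul_le_mul_of_nonneg_right hCC (sq_nonneg _)))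
    (fun f hf => cell_mass ((hA f hf).cc.mul hu.1))
  obtain ⟨Ct, hCt0, hCt⟩ := h.tele A.length K
  obtain ⟨Cp, hCp0, hCp⟩ := h.pert (A.length - 1) K
  obtain ⟨Ce, hCe0, hCe⟩ := cell_energy hu
  obtain ⟨Cr, hCr0, hCr⟩ := ref_scale
  refine ⟨Ct * Ce * K * K + A.length * (M * (Cp * Cr * K)), fun η hη a ha => ?_⟩
  have hη0 := hη.1
  have hga := abs_le.mp (grid_re_C2h hη0 ha)
  have hη1 := hη.2
  have e7 : 0 ≤ η ^ (7 / 4 : ℝ) := Real.rpow_nonneg hη0.le _
  have e3 : 0 ≤ η ^ (3 / 4 : ℝ) := Real.rpow_nonneg hη0.le _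
  have e5 : η ^ (7 / 4 : ℝ) * η ^ (3 / 4 : ℝ) = η ^ (5 / 2 : ℝ) := by
    rw [← Real.rpow_add hη0]; norm_num
  have e6 : η ^ 2 * η ^ (3 / 4 : ℝ) ≤ η ^ (5 / 2 : ℝ) := by
    rw [← Real.rpow_natCast, ← Real.rpow_add hη0]
    exact Real.rpow_le_rpow_of_exponent_ge hη0 hη1 (by norm_num)
  set ua : ℂ → ℝ := fun z => pu η a z * u z with hua
  have huac : Cc ua := hu.mul (pu_smooth η a)
  have hus1 : tsupport ua ⊆ tsupport (pu η a) := tsupport_mul_subset_left
  have hus2 : tsupport ua ⊆ tsupport u := tsupport_mul_subset_right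
  have hT := hCt (lap ua) A (outc R η ρ a) (outs R η ρ a) (K * η ^ (7 / 4 : ℝ))
    (K * η ^ (3 / 4 : ℝ)) huac.test_lap rfl (mul_nonneg hK0 e7) (mul_nonneg hK0 e3) (by
      intro f hf
      obtain ⟨h1, h2, h3, h4, h5, h6⟩ := hK f hf η hη a
      exact ⟨hA f hf, outc_test hη0 hρ hρ1 (hA f hf), outs_test hη0 hρ hρ1 (hA f hf),
        h1, h2, h3, h4, h5, h6⟩)
  have hZ : S (lap ua :: A.map (outc R η ρ a)) = 0 := by
    refine hL ua _ huac ?_ ?_
    · intro g hg
      obtain ⟨f, hf, rfl⟩ := List.mem_map.mp hg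
      exact outc_test hη0 hρ hρ1 (hA f hf)
    · intro g hg z hz hz'
      obtain ⟨f, hf, rfl⟩ := List.mem_map.mp hg
      rcases outc_supp hη0 (hA f hf) (hAR f hf) hz with h1 | h1
      · exact h1 (hus1 hz')
      · have h2 := (ball_re_im_C2h (huR (hus2 hz'))).1
        simp only [Complex.zero_re, sub_zero] at h2
        linarith [(hρs z h1).1, (abs_le.mp h2).1]
  -- the reference bump in the column of `a`
  obtain ⟨x, hx, hxs, hx1, hxn⟩ := hCr η hη0 ⟨η * a.1, R + 4⟩
  have hterm : ∀ j : Fin A.length,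
      |S (lap ua :: (fun z => A.get j z - outc R η ρ a (A.get j) z) ::
          (A.eraseIdx j).map (outs R η ρ a)) +
        (∫ z, pu η a z * u z * A.get j z) * S (lap w :: lap w :: A.eraseIdx j)| ≤
        M * (Cp * Cr * K) * η ^ (5 / 2 : ℝ) := by
    intro j
    have hfA : A.get j ∈ A := List.get_mem A j
    set f := A.get j with hf
    set B := A.eraseIdx j with hB
    have hBA : ∀ g ∈ B, g ∈ A := fun g hg => List.mem_of_mem_eraseIdx hg
    have hBt : Tests B := fun g hg => hA g (hBA g hg)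
    have hBs : Tests (B.map (outs R η ρ a)) := by
      intro g hg
      obtain ⟨g', hg', rfl⟩ := List.mem_map.mp hg
      exact outs_test hη0 hρ hρ1 (hBt g' hg')
    -- the strip
    have hO : IsOpen {z : ℂ | |z.re - η * a.1| < 5 * η} :=
      isOpen_lt (by fun_prop) continuous_const
    have hρO : tsupport ρ ⊆ {z : ℂ | |z.re - η * a.1| < 5 * η}ᶜ := by
      intro z hz hz'
      have h0 : |z.re - η * a.1| < 5 * η := hz'
      have h1 := (abs_lt.mp h0).1
      linarith [(hρs z hz).1, hga.1]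
    have hQO : closure (box_C2h (η * a.1 - 4 * η) (η * a.1 + 4 * η) (-(R + 6)) (R + 6)) ⊆
        {z : ℂ | |z.re - η * a.1| < 5 * η} := by
      intro z hz
      obtain ⟨h1, h2, -, -⟩ := box_closure_C2h _ _ _ _ hz
      change |z.re - η * a.1| < 5 * η
      exact abs_lt.mpr ⟨by linarith, by linarith⟩
    obtain ⟨κ, hκ⟩ := contact h hL hO (box_open_C2h _ _ _ _) (box_conn_C2h _ _ _ _)
      (box_compact_C2h _ _ _ _) hQO hρ hρ1 hρO hBs (by
        intro g hg z hz
        obtain ⟨g', hg', rfl⟩ := List.mem_map.mp hg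
        rcases outs_supp hη0 (hBt g' hg') (hAR g' (hBA g' hg')) hz with h1 | h1
        · have h0 : 5 * η ≤ |z.re - η * a.1| := h1
          exact fun h2 => absurd (show |z.re - η * a.1| < 5 * η from h2) (not_lt.mpr h0)
        · exact hρO h1)
    have h1 : S (lap ua :: (fun z => f z - outc R η ρ a f z) :: B.map (outs R η ρ a)) =
        κ * ∫ z, pu η a z * u z * f z := by
      rw [sub_outc hη0 (hA f hfA).cc, hκ ua _ huac ?_ (inn_cc hη0 (hA f hfA).cc) ?_]
      · congr 1
        refine integral_congr_ae (Eventually.of_forall fun z => ?_)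
        have := inn_eq (a := a) hη0 (hAR f hfA) z
        simp only [hua]
        linear_combination u z * this
      · intro z hz
        have h2 : |z.re - η * a.1| ≤ η := (pu_supp hη0 a (hus1 hz)).1
        change |z.re - η * a.1| < 5 * η
        linarith
      · intro z hz
        obtain ⟨h2, h3⟩ := inn_supp hη0 hz
        have h4 := (ball_re_im_C2h (hAR f hfA h2)).2
        simp only [Complex.zero_im, sub_zero] at h4
        have h5 := abs_le.mp (show |z.re - η * a.1| ≤ 3 * η from h3)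
        have h6 := abs_le.mp h4
        exact ⟨by linarith [h5.1], by linarith [h5.2], by linarith [h6.1], by linarith [h6.2]⟩
    have h2 : S (lap x :: lap x :: B.map (outs R η ρ a)) = -κ := by
      refine kappa_C2h hκ (subset_closure.trans hQO) hx ?_ hx1
      intro z hz
      obtain ⟨h3, h4⟩ := ball_re_im_C2h (hxs hz)
      have h5 := abs_le.mp h3
      have h6 := abs_le.mp h4
      exact ⟨by linarith [h5.1], by linarith [h5.2], by linarith [h6.1], by linarith [h6.2]⟩
    -- the upper half plane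
    have hO' : IsOpen {z : ℂ | R + 1 < z.im} := isOpen_lt continuous_const Complex.continuous_im
    have hQO' : closure (box_C2h (-(R + 4)) (R + 4) (R + 2) (R + 6)) ⊆ {z : ℂ | R + 1 < z.im} := by
      intro z hz
      obtain ⟨-, -, h3, -⟩ := box_closure_C2h _ _ _ _ hz
      change R + 1 < z.im
      linarith
    obtain ⟨κ', hκ'⟩ := contact h hL hO' (box_open_C2h _ _ _ _) (box_conn_C2h _ _ _ _)
      (box_compact_C2h _ _ _ _) hQO' hρ hρ1 (by
        intro z hz hz'
        have h3 : R + 1 < z.im := hz'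
        linarith [(hρs z hz).2]) hBt (by
        intro g hg z hz hz'
        have h3 : R + 1 < z.im := hz'
        have h4 := (ball_re_im_C2h (hAR g (hBA g hg) hz)).2
        simp only [Complex.zero_im, sub_zero] at h4
        linarith [(abs_le.mp h4).2])
    have h3 : S (lap x :: lap x :: B) = -κ' := by
      refine kappa_C2h hκ' (subset_closure.trans hQO') hx ?_ hx1
      intro z hz
      obtain ⟨h3, h4⟩ := ball_re_im_C2h (hxs hz)
      have h5 := abs_le.mp h3
      have h6 := abs_le.mp h4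
      exact ⟨by linarith [h5.1, hga.1], by linarith [h5.2, hga.2], by linarith [h6.1],
        by linarith [h6.2]⟩
    have h4 : S (lap w :: lap w :: B) = -κ' := by
      refine kappa_C2h hκ' (subset_closure.trans hQO') hw ?_ hw1
      intro z hz
      obtain ⟨h3, h4⟩ := ball_re_im_C2h (hwR hz)
      simp only [Complex.mul_re, Complex.ofReal_re, Complex.I_re, mul_zero, Complex.ofReal_im,
        Complex.I_im, mul_one, sub_self, sub_zero, Complex.mul_im, add_zero] at h3 h4
      have h5 := abs_le.mp h3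
      have h6 := abs_le.mp h4
      exact ⟨by linarith [h5.1], by linarith [h5.2], by linarith [h6.1], by linarith [h6.2]⟩
    have h5 := hCp (lap x) (lap x) B id (outs R η ρ a) (K * η ^ (3 / 4 : ℝ)) hx.test_lap
      hx.test_lap (List.length_eraseIdx_of_lt j.2) (mul_nonneg hK0 e3) (by
        intro g hg
        obtain ⟨k1, -, k3, -, k5, -⟩ := hK g (hBA g hg) η hη a
        exact ⟨hBt g hg, outs_test hη0 hρ hρ1 (hBt g hg), k1, k3, k5⟩)
    rw [List.map_id, h3, h2, hx1, Real.sqrt_one, mul_one] at h5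
    have h6 : |∫ z, pu η a z * u z * f z| ≤ M * η ^ 2 := by
      simpa only [mul_assoc] using hM f hfA η hη0 a
    rw [h1, h4]
    have h7 : κ * (∫ z, pu η a z * u z * f z) + (∫ z, pu η a z * u z * f z) * -κ' =
        (∫ z, pu η a z * u z * f z) * (-κ' - -κ) := by ring
    rw [h7, abs_mul]
    have h8 : |-κ' - -κ| ≤ Cp * Cr * K * η ^ (3 / 4 : ℝ) := by
      refine h5.trans ?_
      have : Cp * nn (lap x) * (K * η ^ (3 / 4 : ℝ)) ≤ Cp * Cr * (K * η ^ (3 / 4 : ℝ)) := by
        gcongr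
      linarith
    calc _ ≤ (M * η ^ 2) * (Cp * Cr * K * η ^ (3 / 4 : ℝ)) :=
          mul_le_mul h6 h8 (abs_nonneg _) (by positivity)
      _ = M * (Cp * Cr * K) * (η ^ 2 * η ^ (3 / 4 : ℝ)) := by ring
      _ ≤ _ := by gcongr
  rw [hZ, sub_zero] at hT
  have hT' : |S (lap ua :: A) - ∑ j : Fin A.length,
      S (lap ua :: (fun z => A.get j z - outc R η ρ a (A.get j) z) ::
        (A.eraseIdx j).map (outs R η ρ a))| ≤ Ct * Ce * K * K * η ^ (5 / 2 : ℝ) := by
    refine hT.trans ?_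
    have h1 := hCe η hη a
    calc _ ≤ Ct * Ce * (K * η ^ (7 / 4 : ℝ)) * (K * η ^ (3 / 4 : ℝ)) := by gcongr
      _ = Ct * Ce * K * K * (η ^ (7 / 4 : ℝ) * η ^ (3 / 4 : ℝ)) := by ring
      _ = _ := by rw [e5]
  have hS := (Finset.abs_sum_le_sum_abs _ Finset.univ).trans
    (Finset.sum_le_sum fun j _ => hterm j)
  rw [Finset.sum_add_distrib, Finset.sum_const, Finset.card_univ, Fintype.card_fin,
    nsmul_eq_mul] at hS
  have := abs_add_le _ _ |>.trans (add_le_add hT' hS)
  refine le_of_eq_of_le ?_ (this.trans_eq (by ring))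
  congr 1
  ring

end Vale.Agent.P153
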