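import Vale.Agent.P153.C2h

/-! The Schwinger-Dyson equation. -/

open MeasureTheory Filter Topology

noncomputable section

namespace Vale.Agent.P153

variable {σ : ℝ} {S : List (ℂ → ℝ) → ℝ}

/-- `u = ∑ a ∈ grid R η, pu η a * u` (`pu_sum`, `lap_sum`, `Lim.sum1`, `integral_finset_sum`),
`cell_est`, `grid_card`, `η → 0`, `cov_lap`. -/
theorem sd_far (h : Lim σ S) (hL : Local S) {R : ℝ} (hR : 1 ≤ R) {u w : ℂ → ℝ} (hu : Cc u)
    (huR : tsupport u ⊆ Metric.closedBall 0 R) (hw : Cc w)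
    (hwR : tsupport w ⊆ Metric.closedBall (((R + 4 : ℝ) : ℂ) * Complex.I) 1)
    (hw1 : cov (lap w) (lap w) = 1) {A : List (ℂ → ℝ)} (hA : Tests A)
    (hAR : Sup A (Metric.closedBall 0 R)) :
    S (lap u :: A) = ∑ j : Fin A.length,
      cov (lap u) (A.get j) * S (lap w :: lap w :: A.eraseIdx j) := by
  obtain ⟨C, hC⟩ := cell_est h hL hR hu huR hw hwR hw1 hA hAR
  have hj : ∀ j : Fin A.length, Test (A.get j) := fun j => hA _ (List.get_mem A j)
  have key : ∀ η ∈ Set.Ioc (0 : ℝ) 1, |S (lap u :: A) + ∑ j : Fin A.length,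
      (∫ z, u z * A.get j z) * S (lap w :: lap w :: A.eraseIdx j)| ≤
      (2 * R + 5) ^ 2 * |C| * √η := fun η hη => by
    have h0 := hη.1
    have hc : ∀ a, Cc fun z => pu η a z * u z := fun a => hu.mul (pu_smooth η a)
    have h1 : ∀ z, ∑ a ∈ grid R η, pu η a z * u z = u z := fun z => by
      rw [← Finset.sum_mul]
      by_cases hz : z ∈ tsupport u
      · rw [pu_sum h0 (mem_closedBall_zero_iff.1 (huR hz)), one_mul]
      · rw [image_eq_zero_of_notMem_tsupport hz, mul_zero]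
    have h2 : S (lap u :: A) = ∑ a ∈ grid R η, S (lap (fun z => pu η a z * u z) :: A) := by
      rw [← h.sum1 _ (fun a _ => (hc a).test_lap) hA, ← lap_sum _ fun a _ => hc a]
      simp only [h1]
    have h3 : ∀ j : Fin A.length, ∫ z, u z * A.get j z =
        ∑ a ∈ grid R η, ∫ z, pu η a z * u z * A.get j z := fun j => by
      rw [← integral_finsetSum _ fun a _ => ((hj j).cc.mul (hc a).1).int]
      simp only [← Finset.sum_mul, h1]
    have h4 : η ^ (5 / 2 : ℝ) = η ^ 2 * √η := by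
      rw [Real.sqrt_eq_rpow, ← Real.rpow_natCast, ← Real.rpow_add h0]
      norm_num
    have h5 := grid_card (R := R) h0 (by linarith)
    have h6 : (2 * R / η + 5) ^ 2 * η ^ 2 ≤ (2 * R + 5) ^ 2 := by
      rw [← mul_pow, add_mul, div_mul_cancel₀ _ h0.ne']
      gcongr
      linarith [hη.2]
    simp only [h2, h3, Finset.sum_mul]
    rw [Finset.sum_comm, ← Finset.sum_add_distrib]
    calc _ ≤ _ := Finset.abs_sum_le_sum_abs _ _
      _ ≤ (grid R η).card • (|C| * (η ^ 2 * √η)) :=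
        Finset.sum_le_card_nsmul _ _ _ fun a ha => (hC η hη a ha).trans (by
          rw [h4]
          gcongr
          exact le_abs_self C)
      _ ≤ (2 * R / η + 5) ^ 2 * (|C| * (η ^ 2 * √η)) := by
        rw [nsmul_eq_mul]
        gcongr
      _ = (2 * R / η + 5) ^ 2 * η ^ 2 * |C| * √η := by ring
      _ ≤ _ := by gcongr
  have hl : Tendsto (fun η : ℝ => (2 * R + 5) ^ 2 * |C| * √η) (𝓝[>] 0) (𝓝 0) := by
    have : Continuous fun η : ℝ => (2 * R + 5) ^ 2 * |C| * √η := by fun_prop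
    simpa using (this.tendsto 0).mono_left nhdsWithin_le_nhds
  have h0 := abs_nonpos_iff.1 (ge_of_tendsto hl
    (Filter.mem_of_superset (Ioc_mem_nhdsGT one_pos) key))
  simp only [fun j => cov_lap hu (hj j), neg_mul, Finset.sum_neg_distrib]
  linarith

end Vale.Agent.P153
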