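import Vale.Agent.P153.C3F
import Vale.Agent.P153.T5

/-! The limit moments are a mixture of Gaussian moments. -/

open MeasureTheory Filter Topology

noncomputable section

namespace Vale.Agent.P153

/-- The properties which are stable under insertion of a far away pair. -/
structure Nice (S : List (ℂ → ℝ) → ℝ) : Prop where
  perm : ∀ l l', Tests l → l.Perm l' → S l = S l'
  lin : ∀ (a b : ℝ) f g l, Test f → Test g → Tests l →
    S ((fun z => a * f z + b * g z) :: l) = a * S (f :: l) + b * S (g :: l)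
  bdd : ∀ n : ℕ, ∃ C : ℝ, ∀ f l, Test f → Tests l → l.length = n →
    |S (f :: l)| ≤ C * √(cov f f) * (l.map nn).prod
  sd : SD S

theorem c3_cs {l : List (ℂ → ℝ)} (hl : Tests l) : ∀ f ∈ l, HasCompactSupport f :=
  fun f hf => (hl f hf).2.1

/-- A normalised function far from `l`. -/
def fu (l : List (ℂ → ℝ)) : ℂ → ℝ :=
  open Classical in if h : Tests l then (exists_far.choose_spec l (c3_cs h)).choose else 0

theorem fu_spec {l : List (ℂ → ℝ)} (h : Tests l) :
    Cc (fu l) ∧ cov (lap (fu l)) (lap (fu l)) = 1 ∧ Sup l (tsupport (fu l))ᶜ := by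
  rw [fu, dif_pos h]
  have := (exists_far.choose_spec l (c3_cs h)).choose_spec
  exact ⟨this.1, this.2.1, this.2.2.2⟩

theorem c3_far {l : List (ℂ → ℝ)} (hl : Tests l) {u v : ℂ → ℝ} (hu : Cc u) (hv : Cc v) :
    ∃ w, Cc w ∧ cov (lap w) (lap w) = 1 ∧ Sup l (tsupport w)ᶜ ∧
      Disjoint (tsupport u) (tsupport w) ∧ Disjoint (tsupport v) (tsupport w) := by
  obtain ⟨_, hN⟩ := exists_far
  obtain ⟨w, a, b, -, c⟩ := hN (u :: v :: l)
    (List.forall_mem_cons.2 ⟨hu.2, List.forall_mem_cons.2 ⟨hv.2, c3_cs hl⟩⟩)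
  exact ⟨w, a, b, fun f hf => c f (by simp [hf]),
    Set.subset_compl_iff_disjoint_right.1 (c u (by simp)),
    Set.subset_compl_iff_disjoint_right.1 (c v (by simp))⟩

theorem c3_sup {l : List (ℂ → ℝ)} {v w : ℂ → ℝ} (hv : Cc v) (hs : Sup l (tsupport w)ᶜ)
    (hd : Disjoint (tsupport v) (tsupport w)) : Sup (lap v :: l) (tsupport w)ᶜ :=
  List.forall_mem_cons.2
    ⟨(tsupport_lap v hv.1).trans (Set.subset_compl_iff_disjoint_right.2 hd), hs⟩

/-- Insertion of a far away pair. -/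
def ins (S : List (ℂ → ℝ) → ℝ) (l : List (ℂ → ℝ)) : ℝ := S (lap (fu l) :: lap (fu l) :: l)

variable {S : List (ℂ → ℝ) → ℝ} {l : List (ℂ → ℝ)} {u v w : ℂ → ℝ}

theorem c3_swap (h : SD S) (hl : Tests l) (hv : Cc v) (h1 : cov (lap v) (lap v) = 1)
    (h2 : Sup l (tsupport v)ᶜ) (hw : Cc w) (h3 : cov (lap w) (lap w) = 1)
    (h4 : Sup l (tsupport w)ᶜ) (hd : Disjoint (tsupport v) (tsupport w)) :
    S (lap v :: lap v :: l) = S (lap w :: lap w :: l) := by
  rw [h v w _ hv hw h3 (hl.cns hv.test_lap) (c3_sup hv h4 hd) hd]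
  simp only [List.length_cons]
  rw [Fin.sum_univ_succ, Finset.sum_eq_zero fun j _ => ?_]
  · simp [h1]
  · exact mul_eq_zero_of_left (c3_orth hv hl h2 _ (by simp)) _

theorem c3_ins (h : SD S) (hl : Tests l) (hv : Cc v) (h1 : cov (lap v) (lap v) = 1)
    (h2 : Sup l (tsupport v)ᶜ) : ins S l = S (lap v :: lap v :: l) := by
  obtain ⟨a, b, c⟩ := fu_spec hl
  obtain ⟨w, d, e, f, g, g'⟩ := c3_far hl a hv
  exact (c3_swap h hl a b c d e f g).trans (c3_swap h hl hv h1 h2 d e f g').symm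

theorem c3_p (x f : ℂ → ℝ) (l : List (ℂ → ℝ)) : (x :: x :: f :: l).Perm (f :: x :: x :: l) :=
  ((List.Perm.swap f x l).cons x).trans (List.Perm.swap f x _)

theorem c3_head (h : Nice S) {f : ℂ → ℝ} (hf : Test f) (hl : Tests l) (hv : Cc v)
    (h1 : cov (lap v) (lap v) = 1) (h2 : Sup l (tsupport v)ᶜ)
    (h3 : Disjoint (tsupport f) (tsupport v)) : ins S (f :: l) = S (f :: lap v :: lap v :: l) :=
  (c3_ins h.sd (hl.cns hf) hv h1
    (List.forall_mem_cons.2 ⟨Set.subset_compl_iff_disjoint_right.2 h3, h2⟩)).trans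
    (h.perm _ _ (((hl.cns hf).cns hv.test_lap).cns hv.test_lap) (c3_p _ _ _))

theorem c3_lap (h : Nice S) (hu : Cc u) (hl : Tests l) :
    S (lap u :: l) = ∑ j : Fin l.length, cov (lap u) (l.get j) * ins S (l.eraseIdx j) := by
  obtain ⟨w, a, b, c, d, -⟩ := c3_far hl hu hu
  rw [h.sd u w l hu a b hl c d]
  exact Finset.sum_congr rfl fun j _ => by
    rw [c3_ins h.sd (hl.erase j) a b fun f hf => c f (List.mem_of_mem_eraseIdx hf)]

theorem c3_step (h : Nice S) {f : ℂ → ℝ} (hf : Test f) (hl : Tests l) :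
    S (f :: l) = ∑ j : Fin l.length, cov f (l.get j) * ins S (l.eraseIdx j) := by
  obtain ⟨C, hC⟩ : ∃ C : ℝ, ∀ f, Test f → |S (f :: l)| ≤ C * √(cov f f) := by
    obtain ⟨C, hC⟩ := h.bdd l.length
    exact ⟨C * (l.map nn).prod, fun f hf => (hC f l hf hl rfl).trans_eq (by ring)⟩
  have hj : ∀ j : Fin l.length, Test (l.get j) := fun j => hl _ (List.get_mem l j)
  obtain ⟨D, hD⟩ : ∃ D, D = |C| + ∑ j : Fin l.length,
    √(cov (l.get j) (l.get j)) * |ins S (l.eraseIdx j)| := ⟨_, rfl⟩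
  have D0 : 0 ≤ D := hD ▸ by positivity
  refine sub_eq_zero.1 (abs_nonpos_iff.1 (le_of_forall_pos_le_add fun ε hε => ?_))
  obtain ⟨u, hu, h1⟩ := lap_dense hf (ε := (ε / (D + 1)) ^ 2) (by positivity)
  have hg := hf.sub hu.test_lap
  have h2 := Real.sqrt_le_iff.2 ⟨by positivity, h1⟩
  obtain ⟨g, e⟩ : ∃ g, g = fun z => f z - lap u z := ⟨_, rfl⟩
  rw [← e] at hg h2
  have e1 : f = fun z => 1 * g z + 1 * lap u z := by
    funext z
    simp [e]
  have e2 : S (f :: l) - ∑ j : Fin l.length, cov f (l.get j) * ins S (l.eraseIdx j) =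
      S (g :: l) - ∑ j : Fin l.length, cov g (l.get j) * ins S (l.eraseIdx j) := by
    rw [e1, h.lin 1 1 g _ l hg hu.test_lap hl, c3_lap h hu hl]
    simp only [cov_lin hg hu.test_lap (hj _)]
    simp only [one_mul, add_mul, Finset.sum_add_distrib]
    ring
  rw [e2, zero_add]
  have h3 : |∑ j : Fin l.length, cov g (l.get j) * ins S (l.eraseIdx j)| ≤ √(cov g g) *
      ∑ j : Fin l.length, √(cov (l.get j) (l.get j)) * |ins S (l.eraseIdx j)| := by
    rw [Finset.mul_sum]
    refine (Finset.abs_sum_le_sum_abs _ _).trans (Finset.sum_le_sum fun j _ => ?_)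
    rw [abs_mul, ← mul_assoc]
    exact mul_le_mul_of_nonneg_right (cov_cs hg (hj j)) (abs_nonneg _)
  have h4 := (hC g hg).trans (mul_le_mul_of_nonneg_right (le_abs_self C) (Real.sqrt_nonneg _))
  refine ((abs_sub _ _).trans (add_le_add h4 h3)).trans ?_
  rw [mul_comm |C|, ← mul_add, ← hD]
  rw [le_div_iff₀ (by positivity)] at h2
  nlinarith [Real.sqrt_nonneg (cov g g)]

theorem Nice.ins (h : Nice S) : Nice (ins S) where
  perm l l' hl hp := by
    obtain ⟨a, b, c⟩ := fu_spec hl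
    rw [c3_ins h.sd (fun f hf => hl f (hp.mem_iff.2 hf)) a b fun f hf => c f (hp.mem_iff.2 hf)]
    exact h.perm _ _ ((hl.cns a.test_lap).cns a.test_lap) ((hp.cons _).cons _)
  lin a b f g l hf hg hl := by
    have hs := hf.lin hg a b
    obtain ⟨w, d, e, k, k1, k2⟩ := c3_far (hl.cns hs) hf.cc hg.cc
    have k3 := List.forall_mem_cons.1 k
    rw [c3_head h hs hl d e k3.2 (Set.subset_compl_iff_disjoint_right.1 k3.1),
      c3_head h hf hl d e k3.2 k1, c3_head h hg hl d e k3.2 k2]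
    exact h.lin a b f g _ hf hg ((hl.cns d.test_lap).cns d.test_lap)
  bdd n := by
    obtain ⟨C, hC⟩ := h.bdd (n + 2)
    obtain ⟨N, hN⟩ := exists_far
    refine ⟨C * N ^ 2, fun f l hf hl hn => ?_⟩
    obtain ⟨w, a, b, c, d⟩ := hN _ (c3_cs (hl.cns hf))
    have k := List.forall_mem_cons.1 d
    rw [c3_head h hf hl a b k.2 (Set.subset_compl_iff_disjoint_right.1 k.1)]
    refine (hC f _ hf ((hl.cns a.test_lap).cns a.test_lap) (by simp [hn])).trans_eq ?_
    simp only [List.map_cons, List.prod_cons, c]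
    ring
  sd u v A hu hv h1 hA h2 h3 := by
    obtain ⟨w, d, e, k, k1, k2⟩ := c3_far hA hu hv
    have hw := d.test_lap
    rw [c3_head h hu.test_lap hA d e k (k1.mono_left (tsupport_lap u hu.1)),
      h.sd u v _ hu hv h1 ((hA.cns hw).cns hw) (c3_sup d (c3_sup d h2 k2.symm) k2.symm) h3]
    simp only [List.length_cons]
    have h0 := cov_lap_disj hu hw (k1.mono_right (tsupport_lap w d.1))
    rw [Fin.sum_univ_succ, Fin.sum_univ_succ]
    simp only [List.get_eq_getElem, Fin.val_zero, Fin.val_succ, List.getElem_cons_zero,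
      List.getElem_cons_succ, h0, zero_mul, zero_add, List.eraseIdx_cons_succ]
    refine Finset.sum_congr rfl fun j _ => ?_
    have hE := hA.erase j
    rw [c3_ins h.sd ((hE.cns hv.test_lap).cns hv.test_lap) d e (c3_sup hv (c3_sup hv
      (fun f hf => k f (List.mem_of_mem_eraseIdx hf)) k2) k2)]
    congr 1
    exact h.perm _ _ ((((hE.cns hw).cns hw).cns hv.test_lap).cns hv.test_lap)
      (((c3_p _ _ _).symm.cons _).trans (c3_p _ _ _).symm)

theorem mix_of_sd {σ : ℝ} {S : List (ℂ → ℝ) → ℝ} (h : Lim σ S) (hS : SD S) :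
    ∃ T, Mix σ S T := by
  have h0 : Nice S := ⟨fun l l' _ => h.perm l l', h.lin,
    fun n => (h.bdd n).imp fun _ hC => hC.2, hS⟩
  have h1 : ∀ n, Nice (ins^[n] S) := fun n => by
    induction n with
    | zero => exact h0
    | succ n ih =>
      rw [Function.iterate_succ_apply']
      exact ih.ins
  refine ⟨fun n => ins^[n] S, fun _ _ => rfl, ?_, fun n f A hf hA => ?_⟩
  · obtain ⟨a, b, -⟩ := fu_spec (l := []) fun _ h => (List.not_mem_nil h).elim
    exact (h.two _ _ a.test_lap a.test_lap).trans (by rw [b, mul_one])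
  · rw [Function.iterate_succ_apply']
    exact c3_step (h1 n) hf hA

end Vale.Agent.P153
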