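import Vale.Agent.P153.T6

/-! Far away normalised functions. -/

open MeasureTheory Filter Topology

noncomputable section

namespace Vale.Agent.P153

theorem c3_ball {l : List (ℂ → ℝ)} (hl : ∀ f ∈ l, HasCompactSupport f) :
    ∃ R : ℝ, ∀ f ∈ l, tsupport f ⊆ Metric.closedBall 0 R := by
  induction l with
  | nil => exact ⟨0, by simp⟩
  | cons f l ih =>
    obtain ⟨R, hR⟩ := ih fun g hg => hl g (List.mem_cons_of_mem _ hg)
    obtain ⟨R', hR'⟩ := (hl f List.mem_cons_self).isCompact.isBounded.subset_closedBall 0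
    refine ⟨max R R', fun g hg => ?_⟩
    rcases List.mem_cons.1 hg with rfl | hg
    · exact hR'.trans (Metric.closedBall_subset_closedBall (le_max_right _ _))
    · exact (hR g hg).trans (Metric.closedBall_subset_closedBall (le_max_left _ _))

theorem exists_far : ∃ N : ℝ, ∀ l : List (ℂ → ℝ), (∀ f ∈ l, HasCompactSupport f) →
    ∃ v, Cc v ∧ cov (lap v) (lap v) = 1 ∧ nn (lap v) = N ∧ Sup l (tsupport v)ᶜ := by
  obtain ⟨v, h1, h2, h3⟩ := exists_unit
  refine ⟨nn (lap v), fun l hl => ?_⟩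
  obtain ⟨R, hR⟩ := c3_ball hl
  refine ⟨tr ((|R| + 2 : ℝ) : ℂ) v, h1.tr _, by rw [lap_tr h1, cov_tr, h2],
    by rw [lap_tr h1, nn_tr], fun f hf z hz hz' => ?_⟩
  rw [tsupport_tr] at hz'
  obtain ⟨w, hw, rfl⟩ := hz'
  have a := mem_closedBall_zero_iff.1 (h3 hw)
  have b := mem_closedBall_zero_iff.1 (hR f hf hz)
  have c := norm_sub_le (w + ((|R| + 2 : ℝ) : ℂ)) w
  rw [add_sub_cancel_left, Complex.norm_real, Real.norm_of_nonneg (by positivity)] at c
  linarith [le_abs_self R]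

theorem c3_orth {v : ℂ → ℝ} {l : List (ℂ → ℝ)} (hv : Cc v) (hl : Tests l)
    (hs : Sup l (tsupport v)ᶜ) : ∀ g ∈ l, cov (lap v) g = 0 := fun g hg =>
  cov_lap_disj hv (hl g hg) (Set.disjoint_right.2 fun _ h => hs g hg h)

theorem Tests.cns {f : ℂ → ℝ} {l : List (ℂ → ℝ)} (hf : Test f) (hl : Tests l) :
    Tests (f :: l) := List.forall_mem_cons.2 ⟨hf, hl⟩

theorem Tests.erase {l : List (ℂ → ℝ)} (hl : Tests l) (j : ℕ) : Tests (l.eraseIdx j) :=
  fun f hf => hl f (List.mem_of_mem_eraseIdx hf)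

end Vale.Agent.P153
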