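import Vale.Agent.P153.D1h
import Vale.Agent.P153.D1b
import Vale.Agent.P153.D1e
import Vale.Agent.P153.D1r
import Vale.Agent.P153.D1g
import Vale.Agent.P153.T6
import Vale.Agent.P153.T2

/-! Part D1: the thin shell estimate. -/

open MeasureTheory Filter Topology Set

noncomputable section

namespace Vale.Agent.P153

open scoped InnerProductSpace

theorem d1_cov {N : ℕ} {f : Fin N → ℂ → ℝ} (hf : ∀ i, Test (f i))
    (ho : ∀ i j, cov (f i) (f j) = if i = j then 1 else 0) (t : EuclideanSpace ℝ (Fin N)) :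
    cov (fun z => ∑ i, t i * f i z) (fun z => ∑ i, t i * f i z) = ‖t‖ ^ 2 := by
  rw [cov_sum _ _ hf (d3_test t hf), EuclideanSpace.real_norm_sq_eq]
  refine Finset.sum_congr rfl fun i _ => ?_
  rw [cov_symm, cov_sum _ _ hf (hf i)]
  simp [ho, pow_two]

theorem d1_lim {a c : ℝ} (h : ∀ n : ℕ, ((n + 1 : ℕ) * ((n + 1 : ℕ) + 2) * a) * ((n + 1) * (n + 2)) ≤
    ((n + 1 : ℕ) * c + 1) ^ 2 * ((n + 3) * (n + 4))) : a ≤ c ^ 2 := by
  have t0 : Tendsto (fun n : ℕ => 1 / ((n : ℝ) + 1)) atTop (𝓝 0) :=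
    tendsto_one_div_add_atTop_nhds_zero_nat
  have t1 : Tendsto (fun n : ℕ => (c + 1 / ((n : ℝ) + 1)) ^ 2 * (1 + 3 * (1 / ((n : ℝ) + 1))))
      atTop (𝓝 ((c + 0) ^ 2 * (1 + 3 * 0))) :=
    ((t0.const_add c).pow 2).mul ((t0.const_mul 3).const_add 1)
  rw [add_zero, mul_zero, add_zero, mul_one] at t1
  by_contra hc
  have hc' := not_le.1 hc
  have ha : 0 ≤ a := (sq_nonneg c).trans hc'.le
  refine absurd (ge_of_tendsto' t1 fun n => ?_) hc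
  have h1 := h n
  push_cast at h1
  have hn : (0 : ℝ) < n + 1 := by positivity
  have e : (c + 1 / ((n : ℝ) + 1)) ^ 2 * (1 + 3 * (1 / ((n : ℝ) + 1))) =
      ((n + 1) * c + 1) ^ 2 * ((n + 3) * (n + 4)) / ((n + 1) ^ 3 * (n + 3)) := by
    field_simp
    ring
  rw [e, le_div_iff₀ (by positivity)]
  refine le_trans ?_ h1
  have : 0 ≤ a * ((n + 1 : ℝ) ^ 2 * (n + 3)) := by positivity
  nlinarith

theorem shell {P : Measure Cfg} [IsProbabilityMeasure P] (h : Good P) (hM : Mom P) {σ : ℝ}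
    (hC : CovT P σ) (U : Ultrafilter ℝ) (hU : (U : Filter ℝ) ≤ 𝓝[>] 0)
    {S : List (ℂ → ℝ) → ℝ} (hS : ∀ l, Tests l → Tendsto (fun δ => mom P δ l) U (𝓝 (S l)))
    {T : ℕ → List (ℂ → ℝ) → ℝ} (hT : Mix σ S T) : T 2 [] ≤ σ ^ 4 := by
  rw [show σ ^ 4 = (σ ^ 2) ^ 2 by ring]
  refine d1_lim fun n => ?_
  have key : ∀ ε : ℝ, 0 < ε → ∃ μ : Measure (EuclideanSpace ℝ (Fin (n + 1))),
      IsProbabilityMeasure μ ∧ (∀ u v, sm μ u * sm μ v ≤
        (sm μ ((1 / 2 : ℝ) • (u + v)) + (n + 1 : ℕ) * ε) ^ 2) ∧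
      ∀ t : EuclideanSpace ℝ (Fin (n + 1)),
        (∃ a : ℝ, 0 < a ∧ Integrable (fun x => Real.exp (a * |⟪x, t⟫_ℝ|)) μ) ∧
        ∃ F, Test F ∧ cov F F = ‖t‖ ^ 2 ∧ ∀ m : ℕ, Integrable (fun x => ⟪x, t⟫_ℝ ^ m) μ ∧
          ∫ x, ⟪x, t⟫_ℝ ^ m ∂μ = S (List.replicate m F) := fun ε hε => by
    obtain ⟨f, hf, ho, h1⟩ := exists_ortho (n + 1) hε
    obtain ⟨μ, i, m1, m2⟩ := lim_law h hM hC U hU hS hf
    refine ⟨μ, i, fun u v => ?_, fun t => ⟨(m2 t).1, _, d3_test t hf, d1_cov hf ho t, (m2 t).2⟩⟩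
    refine le_of_tendsto_of_tendsto ((m1 u).mul (m1 v)) (((m1 _).add_const _).pow 2) ?_
    filter_upwards [hU self_mem_nhdsWithin] with δ hδ
    exact vec_pl h hδ hf hε.le h1 u v
  choose! μ hμ h1 h2 using key
  have hch : ∀ ε, 0 < ε → ∀ t t', ‖t‖ = ‖t'‖ → charFun (μ ε) t = charFun (μ 1) t' :=
    fun ε hε t t' e => by
      have := hμ ε hε
      have := hμ 1 one_pos
      obtain ⟨⟨a, ha, ia⟩, F, hF, cF, mF⟩ := h2 ε hε t
      obtain ⟨⟨b, hb, ib⟩, G, hG, cG, mG⟩ := h2 1 one_pos t'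
      rw [charFun_apply, charFun_apply]
      exact char_eq_of_mom (Y := fun x => ⟪x, t⟫_ℝ) (Y' := fun x => ⟪x, t'⟫_ℝ) (by fun_prop)
        (by fun_prop) ha hb ia ib fun m => by
          rw [(mF m).2, (mG m).2, hT.rep_eq hF hG (by rw [cF, cG, e])]
  have := hμ 1 one_pos
  have he : ∀ ε, 0 < ε → μ ε = μ 1 := fun ε hε => by
    have := hμ ε hε
    exact Measure.ext_of_charFun (funext fun t => hch ε hε t t rfl)
  obtain ⟨i4, e2, e4⟩ := norm_mom (μ := μ 1) (c₁ := σ ^ 2) (c₂ := T 2 [])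
    (fun t m => by
      obtain ⟨-, F, -, -, mF⟩ := h2 1 one_pos t
      exact (mF m).1)
    (fun t => by
      obtain ⟨-, F, hF, cF, mF⟩ := h2 1 one_pos t
      rw [(mF 2).2, hT.rep_two hF, cF])
    (fun t => by
      obtain ⟨-, F, hF, cF, mF⟩ := h2 1 one_pos t
      rw [(mF 4).2, hT.rep_four hF, cF]
      ring)
  rw [← e2, ← e4]
  refine shell_rad i4 (sm_rad (hch 1 one_pos)) fun u v => ?_
  have t1 : Tendsto (fun ε : ℝ => (sm (μ 1) ((1 / 2 : ℝ) • (u + v)) + (n + 1 : ℕ) * ε) ^ 2)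
      (𝓝[>] 0) (𝓝 ((sm (μ 1) ((1 / 2 : ℝ) • (u + v)) + (n + 1 : ℕ) * 0) ^ 2)) :=
    (Continuous.tendsto (by fun_prop) 0).mono_left nhdsWithin_le_nhds
  rw [mul_zero, add_zero] at t1
  refine ge_of_tendsto t1 ?_
  filter_upwards [self_mem_nhdsWithin] with ε hε
  rw [← he ε hε]
  exact h1 ε hε u v

end Vale.Agent.P153
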