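import Vale.Agent.P153.D3h
import Vale.Agent.P153.D3a

/-! Part D3: from moments to the law. -/

open MeasureTheory Filter Topology

noncomputable section

namespace Vale.Agent.P153

variable {P : Measure Cfg} [IsProbabilityMeasure P] {σ δ : ℝ}

theorem d3_test {ι : Type} [Fintype ι] (t : ι → ℝ) {f : ι → ℂ → ℝ} (hf : ∀ j, Test (f j)) :
    Test fun z => ∑ j, t j * f j z :=
  Vale.Agent.P152.C4.test_sum t (f := f) hf

theorem d3_pow (h : Good P) (hδ : 0 < δ) {f : ℂ → ℝ} (hf : Test f) (n : ℕ) :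
    Integrable (fun k => fld δ f k ^ n) P := by
  obtain ⟨B, hB⟩ := d3_bdd h hδ hf
  refine Integrable.of_bound ((d3_meas hδ hf).pow_const n).aestronglyMeasurable (B ^ n) ?_
  filter_upwards [hB] with k hk
  rw [Real.norm_eq_abs, abs_pow]
  exact pow_le_pow_left₀ (abs_nonneg _) hk n

theorem d3_mul (h : Good P) (hδ : 0 < δ) {f g : ℂ → ℝ} (hf : Test f) (hg : Test g) :
    Integrable (fun k => fld δ f k * fld δ g k) P := by
  obtain ⟨B, hB⟩ := d3_bdd h hδ hf
  obtain ⟨B', hB'⟩ := d3_bdd h hδ hg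
  refine Integrable.of_bound ((d3_meas hδ hf).mul (d3_meas hδ hg)).aestronglyMeasurable (B * B') ?_
  filter_upwards [hB, hB'] with k hk hk'
  rw [Real.norm_eq_abs, abs_mul]
  exact mul_le_mul hk hk' (abs_nonneg _) ((abs_nonneg _).trans hk)

omit [IsProbabilityMeasure P] in
theorem d3_symm (hC : CovT P σ) {f g : ℂ → ℝ} (hf : Test f) (hg : Test g) :
    σ ^ 2 * cov f g = σ ^ 2 * cov g f :=
  tendsto_nhds_unique (hC.lim f g hf hg) (by simpa only [mul_comm] using hC.lim g f hg hf)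

omit [IsProbabilityMeasure P] in
theorem d3_nonneg (hC : CovT P σ) {f : ℂ → ℝ} (hf : Test f) : 0 ≤ σ ^ 2 * cov f f :=
  ge_of_tendsto' (hC.lim f f hf hf) fun _ => integral_nonneg fun _ => mul_self_nonneg _

theorem d3_cov (h : Good P) (hC : CovT P σ) {ι : Type} [Fintype ι] (t : ι → ℝ) {f : ι → ℂ → ℝ}
    (hf : ∀ j, Test (f j)) :
    σ ^ 2 * cov (fun z => ∑ j, t j * f j z) (fun z => ∑ j, t j * f j z) =
      ∑ j, ∑ i, t j * (σ ^ 2 * cov (f j) (f i) * t i) := by
  refine tendsto_nhds_unique (hC.lim _ _ (d3_test t hf) (d3_test t hf)) ?_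
  refine (tendsto_finsetSum _ fun j _ => tendsto_finsetSum _ fun i _ =>
    ((hC.lim _ _ (hf j) (hf i)).mul_const (t i)).const_mul (t j)).congr' ?_
  filter_upwards [self_mem_nhdsWithin] with δ hδ
  have hi : ∀ j i, Integrable (fun k => t j * fld δ (f j) k * (t i * fld δ (f i) k)) P :=
    fun j i => ((d3_mul h hδ (hf j) (hf i)).const_mul (t j * t i)).congr
      (ae_of_all _ fun k => by ring)
  simp only [d3_sum hδ t hf, Finset.sum_mul_sum]
  rw [integral_finsetSum _ fun j _ => integrable_finsetSum _ fun i _ => hi j i]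
  refine Finset.sum_congr rfl fun j _ => ?_
  rw [integral_finsetSum _ fun i _ => hi j i]
  refine Finset.sum_congr rfl fun i _ => ?_
  rw [← integral_mul_const, ← integral_const_mul]
  exact integral_congr_ae (ae_of_all _ fun k => by ring)

theorem d3_scalar (h : Good P)
    (hW : ∀ U : Ultrafilter ℝ, (U : Filter ℝ) ≤ 𝓝[>] 0 → ∃ S, Lim σ S ∧
      (∀ l, Tests l → Tendsto (fun δ => mom P δ l) U (𝓝 (S l))) ∧ ∀ f, Test f → ∀ n : ℕ,
        S (List.replicate (n + 2) f) = (n + 1) * (σ ^ 2 * cov f f) * S (List.replicate n f))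
    {f : ℂ → ℝ} (hf : Test f) :
    Tendsto (fun δ => ∫ k, Complex.exp (fld δ f k * Complex.I) ∂P) (𝓝[>] 0)
      (𝓝 (Real.exp (-(σ ^ 2 * cov f f / 2)) : ℂ)) := by
  refine (tendsto_iff_ultrafilter _ _ _).2 fun U hU => ?_
  obtain ⟨S, hS, hl, hr⟩ := hW U hU
  have h2 : S (List.replicate 2 f) = σ ^ 2 * cov f f := hS.two f f hf hf
  rw [← h2]
  refine char_of_mom (Z := fun δ => fld δ f) (M := fun n => S (List.replicate n f)) ?_
    (fun n => ?_) (hS.one f hf) fun n => by rw [hr f hf n, h2]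
  · filter_upwards [hU self_mem_nhdsWithin] with δ hδ
    exact ⟨(d3_meas hδ hf).aestronglyMeasurable, d3_pow h hδ hf⟩
  · have := hl (List.replicate n f) fun g hg => by rw [List.eq_of_mem_replicate hg]; exact hf
    simpa only [mom, List.map_replicate, List.prod_replicate] using this

theorem toGFF_of_mom {P : Measure Cfg} [IsProbabilityMeasure P] (h : Good P) (_hM : Mom P) {σ : ℝ}
    (hC : CovT P σ) (hW : ∀ U : Ultrafilter ℝ, (U : Filter ℝ) ≤ 𝓝[>] 0 → ∃ S, Lim σ S ∧
      (∀ l, Tests l → Tendsto (fun δ => mom P δ l) U (𝓝 (S l))) ∧ ∀ f, Test f → ∀ n : ℕ,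
        S (List.replicate (n + 2) f) = (n + 1) * (σ ^ 2 * cov f f) * S (List.replicate n f)) :
    ToGFF P σ := by
  intro m f hf
  set S : Matrix (Fin m) (Fin m) ℝ := Matrix.of fun j k => σ ^ 2 * cov (f j) (f k) with hS
  have hq : ∀ t : Fin m → ℝ, t ⬝ᵥ S.mulVec t =
      σ ^ 2 * cov (fun z => ∑ j, t j * f j z) fun z => ∑ j, t j * f j z := fun t => by
    rw [d3_cov h hC t hf]
    simp only [hS, dotProduct, Matrix.mulVec, Matrix.of_apply, Finset.mul_sum]
  have hP : S.PosSemidef := by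
    refine Matrix.PosSemidef.of_dotProduct_mulVec_nonneg ?_ fun t => ?_
    · ext j k
      simp [hS, d3_symm hC (hf j) (hf k)]
    · rw [star_trivial, hq]
      exact d3_nonneg hC (d3_test t hf)
  refine ⟨hP, fun φ => ?_⟩
  set Y : ℝ → Cfg → EuclideanSpace ℝ (Fin m) :=
    fun δ ω => WithLp.toLp 2 fun j => fld δ (f j) ω with hY
  have mY : ∀ δ, 0 < δ → Measurable (Y δ) := fun δ hδ =>
    (WithLp.measurable_toLp 2 _).comp (measurable_pi_lambda _ fun j => d3_meas hδ (hf j))
  refine tendsto_iff_seq_tendsto.2 fun u hu => ?_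
  have hpos : ∀ᶠ n in atTop, 0 < u n := hu.eventually self_mem_nhdsWithin
  set u' : ℕ → ℝ := fun n => if 0 < u n then u n else 1 with hu'
  have h0 : ∀ n, 0 < u' n := fun n => by
    simp only [hu']
    split_ifs with h
    exacts [h, one_pos]
  have he : u' =ᶠ[atTop] u := hpos.mono fun n h => if_pos h
  have hu2 : Tendsto u' atTop (𝓝[>] 0) := hu.congr' he.symm
  let μ : ℕ → ProbabilityMeasure (EuclideanSpace ℝ (Fin m)) := fun n =>
    ⟨P.map (Y (u' n)), Measure.isProbabilityMeasure_map (mY _ (h0 n)).aemeasurable⟩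
  let μ₀ : ProbabilityMeasure (EuclideanSpace ℝ (Fin m)) :=
    ⟨ProbabilityTheory.multivariateGaussian 0 S, inferInstance⟩
  have hT : Tendsto μ atTop (𝓝 μ₀) := by
    refine ProbabilityMeasure.tendsto_iff_tendsto_charFun.2 fun t => ?_
    have h1 := (d3_scalar h hW (d3_test t hf)).comp hu2
    have e1 : charFun (μ₀ : Measure (EuclideanSpace ℝ (Fin m))) t = (Real.exp
        (-(σ ^ 2 * cov (fun z => ∑ j, t j * f j z) (fun z => ∑ j, t j * f j z) / 2)) : ℂ) := by
      change charFun (ProbabilityTheory.multivariateGaussian 0 S) t = _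
      rw [ProbabilityTheory.charFun_multivariateGaussian hP, ← hq]
      simp
    rw [e1]
    refine h1.congr fun n => ?_
    change _ = charFun (P.map (Y (u' n))) t
    rw [charFun_apply, integral_map (mY _ (h0 n)).aemeasurable (by fun_prop)]
    refine integral_congr_ae (ae_of_all _ fun ω => ?_)
    simp only [d3_sum (h0 n) t hf ω, hY, PiLp.inner_apply]
    simp
  have h2 := ProbabilityMeasure.tendsto_iff_forall_integral_tendsto.1 hT φ
  refine h2.congr' (he.mono fun n hn => ?_)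
  change ∫ x, φ x ∂P.map (Y (u' n)) = _
  rw [integral_map (mY _ (h0 n)).aemeasurable φ.continuous.aestronglyMeasurable, hn]
  rfl

end Vale.Agent.P153
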