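import Vale.Agent.P153.Defs

/-! The tested field is a finite sum of heights. -/

open MeasureTheory Filter Topology

noncomputable section

namespace Vale.Agent.P153

theorem d3h_hat : Continuous hat := by unfold hat; fun_prop

theorem d3h_near {w : ℂ} {x : ℤ × ℤ} {D : ℝ} (hw : ‖w‖ ≤ D) (h : hat (w - pos x) ≠ 0) :
    |(x.1 : ℝ)| ≤ 2 * D + 1 ∧ |(x.2 : ℝ)| ≤ 2 * D + 1 := by
  have h3 : (1 : ℝ) ≤ √3 := Real.one_le_sqrt.2 (by norm_num)
  have h0 : (0 : ℝ) < √3 := by linarith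
  have hlt : max |(w - pos x).re - (w - pos x).im / √3| (max |2 * (w - pos x).im / √3|
      |(w - pos x).re + (w - pos x).im / √3|) < 1 := by
    by_contra hc
    exact h (max_eq_left (by linarith [not_lt.1 hc]))
  have e1 : (w - pos x).re - (w - pos x).im / √3 = w.re - w.im / √3 - x.1 := by
    simp [pos, om]; field_simp; ring
  have e2 : 2 * (w - pos x).im / √3 = 2 * (w.im / √3) - x.2 := by
    simp [pos, om]; field_simp
  rw [e1, e2] at hlt
  have a1 := abs_lt.1 ((le_max_left _ _).trans_lt hlt)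
  have a2 := abs_lt.1 (((le_max_left _ _).trans (le_max_right _ _)).trans_lt hlt)
  have b1 := abs_le.1 ((Complex.abs_re_le_norm w).trans hw)
  have b2 : |w.im / √3| ≤ D := by
    rw [abs_div, abs_of_pos h0]
    exact (div_le_self (abs_nonneg _) h3).trans ((Complex.abs_im_le_norm w).trans hw)
  have b3 := abs_le.1 b2
  constructor <;> rw [abs_le] <;> constructor <;> linarith [a1.1, a1.2, a2.1, a2.2]

theorem d3h_int (δ : ℝ) {f : ℂ → ℝ} (hf : Continuous f) (hs : HasCompactSupport f) (x : ℤ × ℤ) :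
    Integrable fun z : ℂ => hat (z / δ - pos x) * f z :=
  ((d3h_hat.comp (by fun_prop)).mul hf).integrable_of_hasCompactSupport hs.mul_left

/-- One finite set works for all functions supported in the ball of radius `R`. -/
theorem fld_eq_sum {δ : ℝ} (hδ : 0 < δ) (R : ℝ) : ∃ S : Finset (ℤ × ℤ), ∀ f : ℂ → ℝ,
    Continuous f → (∀ z, f z ≠ 0 → ‖z‖ ≤ R) →
      (∀ x ∉ S, wt δ f x = 0) ∧ ∀ k, fld δ f k = ∑ x ∈ S, (k x : ℝ) * wt δ f x := by
  obtain ⟨n, hn⟩ := exists_nat_ge (2 * (R / δ) + 1)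
  refine ⟨Finset.Icc (-(n : ℤ)) n ×ˢ Finset.Icc (-(n : ℤ)) n, fun f hf hR => ?_⟩
  have hs : HasCompactSupport f := HasCompactSupport.intro (isCompact_closedBall (0 : ℂ) R)
    fun z hz => by
      by_contra hc
      exact hz (mem_closedBall_zero_iff.2 (hR z hc))
  have hm : ∀ z x, f z ≠ 0 → hat (z / δ - pos x) ≠ 0 →
      x ∈ Finset.Icc (-(n : ℤ)) n ×ˢ Finset.Icc (-(n : ℤ)) n := fun z x hz hx => by
    have hw : ‖z / δ‖ ≤ R / δ := by
      rw [norm_div, Complex.norm_real, Real.norm_of_nonneg hδ.le]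
      exact div_le_div_of_nonneg_right (hR z hz) hδ.le
    obtain ⟨h1, h2⟩ := d3h_near hw hx
    have h1' : |x.1| ≤ (n : ℤ) := by exact_mod_cast h1.trans hn
    have h2' : |x.2| ≤ (n : ℤ) := by exact_mod_cast h2.trans hn
    exact Finset.mem_product.2 ⟨Finset.mem_Icc.2 (abs_le.1 h1'), Finset.mem_Icc.2 (abs_le.1 h2')⟩
  refine ⟨fun x hx => ?_, fun k => ?_⟩
  · refine (integral_congr_ae (ae_of_all _ fun z => ?_)).trans (integral_zero _ _)
    by_contra hc
    exact hx (hm z x (right_ne_zero_of_mul hc) (left_ne_zero_of_mul hc))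
  · simp only [wt, ← integral_const_mul]
    rw [← integral_finsetSum _ fun x _ => (d3h_int δ hf hs x).const_mul _]
    refine integral_congr_ae (ae_of_all _ fun z => ?_)
    by_cases hz : f z = 0
    · simp [hz]
    · simp only [interp, ← mul_assoc, ← Finset.sum_mul]
      rw [finsum_eq_sum_of_support_subset]
      exact fun x hx => hm z x hz (right_ne_zero_of_mul hx)

theorem d3h_rad {ι : Type} [Finite ι] {f : ι → ℂ → ℝ} (hf : ∀ j, HasCompactSupport (f j)) :
    ∃ R : ℝ, ∀ j z, f j z ≠ 0 → ‖z‖ ≤ R := by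
  obtain ⟨R, hR⟩ := (isCompact_iUnion hf).isBounded.exists_norm_le
  exact ⟨R, fun j z hz => hR z (Set.mem_iUnion.2 ⟨j, subset_tsupport _ hz⟩)⟩

theorem d3h_one {δ : ℝ} (hδ : 0 < δ) {f : ℂ → ℝ} (hf : Test f) :
    ∃ S : Finset (ℤ × ℤ), ∀ k, fld δ f k = ∑ x ∈ S, (k x : ℝ) * wt δ f x := by
  obtain ⟨R, hR⟩ := d3h_rad (f := fun _ : Unit => f) fun _ => hf.2.1
  obtain ⟨S, hS⟩ := fld_eq_sum hδ R
  exact ⟨S, (hS f hf.1.continuous (hR ())).2⟩

theorem d3_meas {δ : ℝ} (hδ : 0 < δ) {f : ℂ → ℝ} (hf : Test f) : Measurable (fld δ f) := by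
  obtain ⟨S, hS⟩ := d3h_one hδ hf
  rw [funext hS]
  exact Finset.measurable_sum _ fun x _ =>
    ((measurable_of_countable fun n : ℤ => (n : ℝ)).comp (measurable_pi_apply x)).mul_const _

theorem d3h_step (g : ℤ → ℤ) (h : ∀ n, |g (n + 1) - g n| ≤ 1) (n : ℤ) : |g n - g 0| ≤ |n| := by
  induction n using Int.induction_on with
  | zero => simp
  | succ n ih =>
    have := abs_le.1 (h n)
    have := abs_le.1 ih
    rw [abs_of_nonneg (Int.natCast_nonneg n)] at this
    rw [abs_of_nonneg (by omega : (0 : ℤ) ≤ n + 1), abs_le]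
    omega
  | pred n ih =>
    have h1 := abs_le.1 (h (-n - 1))
    have h2 := abs_le.1 ih
    rw [abs_neg, abs_of_nonneg (Int.natCast_nonneg n)] at h2
    rw [show (-(n : ℤ) - 1 + 1) = -n by ring] at h1
    rw [abs_of_nonpos (by omega : -(n : ℤ) - 1 ≤ 0), abs_le]
    omega

theorem d3h_lip {k : Cfg} (h : Lip k) (x : ℤ × ℤ) : |k x - k 0| ≤ |x.1| + |x.2| := by
  have h1 := d3h_step (fun n => k (n, 0)) (fun n => by simpa using (h (n, 0)).1) x.1
  have h2 := d3h_step (fun n => k (x.1, n)) (fun n => by simpa using (h (x.1, n)).2.1) x.2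
  exact (abs_sub_le _ (k (x.1, 0)) _).trans (by rw [add_comm]; exact add_le_add h1 h2)

theorem d3_bdd {P : Measure Cfg} (h : Good P) {δ : ℝ} (hδ : 0 < δ) {f : ℂ → ℝ} (hf : Test f) :
    ∃ B : ℝ, ∀ᵐ k ∂P, |fld δ f k| ≤ B := by
  obtain ⟨S, hS⟩ := d3h_one hδ hf
  refine ⟨∑ x ∈ S, ((|x.1| + |x.2| : ℤ) : ℝ) * |wt δ f x|, ?_⟩
  filter_upwards [h.lip] with k hk
  rw [hS]
  refine (Finset.abs_sum_le_sum_abs _ _).trans (Finset.sum_le_sum fun x _ => ?_)
  rw [abs_mul]
  refine mul_le_mul_of_nonneg_right ?_ (abs_nonneg _)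
  have := d3h_lip hk.1 x
  rw [hk.2, sub_zero] at this
  exact_mod_cast this

theorem d3_sum {δ : ℝ} (hδ : 0 < δ) {ι : Type} [Fintype ι] (t : ι → ℝ) {f : ι → ℂ → ℝ}
    (hf : ∀ j, Test (f j)) (k : Cfg) :
    fld δ (fun z => ∑ j, t j * f j z) k = ∑ j, t j * fld δ (f j) k := by
  obtain ⟨R, hR⟩ := d3h_rad fun j => (hf j).2.1
  obtain ⟨S, hS⟩ := fld_eq_sum hδ R
  have hc := fun j => (hf j).1.continuous
  rw [(hS _ (by fun_prop) fun z hz => ?_).2]
  · simp only [fun j => (hS _ (hc j) (hR j)).2 k, Finset.mul_sum]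
    rw [Finset.sum_comm]
    refine Finset.sum_congr rfl fun x _ => ?_
    simp only [wt, Finset.mul_sum, mul_left_comm (hat _)]
    rw [integral_finsetSum _ fun j _ => (d3h_int δ (hc j) (hf j).2.1 x).const_mul _,
      Finset.mul_sum]
    exact Finset.sum_congr rfl fun j _ => by rw [integral_const_mul]; ring
  · obtain ⟨j, -, hj⟩ := Finset.exists_ne_zero_of_sum_ne_zero hz
    exact hR j z (right_ne_zero_of_mul hj)

end Vale.Agent.P153
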