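import Vale.Agent.P153.E1
import Vale.Agent.P153.A2

/-! Part E: local averages converge. Port of A2.lean (reuse `a2_sum`, `a2_meas`, `a2_T`, `a2_ext`; copy
`a2_null`, `a2_edge`, `lip_of_lim` with two limits; `hexPM_eq`, `mem_admG`). Choose p S η by `choose` and
take p M = ∑ t ∈ a2_T S, F (a2_ext S t) * p S (a2_ext S t) M. -/

open MeasureTheory Filter Topology

noncomputable section

namespace Vale.Agent.P153

lemma e2_null {φ : ℕ → ℕ} {P : Measure Cfg} [IsProbabilityMeasure P] (h : IsLimitM φ P)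
    (S : Finset (ℤ × ℤ)) (η : Cfg) (hη : ∀ k, Lip k → ¬∀ x ∈ S, k x - k 0 = η x) :
    ∀ᵐ k ∂P, ¬∀ x ∈ S, k x = η x := by
  have h0 : ∀ M n, hexPM M 0 n S η = 0 := fun M n => by
    have e : {k ∈ AdmM M 0 n | ∀ x ∈ S, k x - k 0 = η x} = ∅ :=
      Set.eq_empty_of_forall_notMem fun k hk => hη k hk.1.1 hk.2
    rw [hexPM, e]
    simp
  obtain ⟨p, h1, h3⟩ := h S η
  have h4 : ∀ M, p M = 0 := fun M => by
    have h5 := h1 M 0
    simp only [h0] at h5
    exact tendsto_nhds_unique h5 tendsto_const_nhds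
  simp only [h4] at h3
  have h2 := tendsto_nhds_unique h3 tendsto_const_nhds
  rw [measureReal_eq_zero_iff] at h2
  rw [ae_iff]
  simpa only [not_not] using h2

lemma e2_edge {φ : ℕ → ℕ} {P : Measure Cfg} [IsProbabilityMeasure P] (h : IsLimitM φ P)
    {e : ℤ × ℤ} (he : e ≠ 0)
    (hl : ∀ k, Lip k → ∀ x, |k (x + e) - k x| ≤ 1) : ∀ᵐ k ∂P, ∀ x, |k (x + e) - k x| ≤ 1 := by
  refine ae_all_iff.2 fun x => ?_
  have hx : x + e ≠ x := by simpa using he
  have h1 : ∀ᵐ k ∂P, ∀ a b : ℤ, 1 < |b - a| → ¬(k x = a ∧ k (x + e) = b) := by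
    refine ae_all_iff.2 fun a => ae_all_iff.2 fun b => ?_
    by_cases hab : 1 < |b - a|
    · have h2 := e2_null h {x, x + e} (fun z => if z = x then a else b) fun k hk h3 => by
        have h4 := h3 x (by simp)
        have h5 := h3 (x + e) (by simp)
        simp only [if_true, if_neg hx] at h4 h5
        have h6 := hl k hk x
        have h7 : b - a = k (x + e) - k x := by omega
        rw [h7] at hab
        omega
      filter_upwards [h2] with k hk _ h3
      refine hk fun z hz => ?_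
      rcases Finset.mem_insert.1 hz with rfl | hz
      · simp [h3.1]
      · rw [Finset.mem_singleton.1 hz, if_neg hx, h3.2]
    · exact Eventually.of_forall fun k h3 => absurd h3 hab
  filter_upwards [h1] with k hk
  by_contra h2
  exact hk _ _ (not_le.1 h2) ⟨rfl, rfl⟩

theorem lip_of_limM {φ : ℕ → ℕ} {P : Measure Cfg} [IsProbabilityMeasure P] (h : IsLimitM φ P) :
    ∀ᵐ k ∂P, Lip k ∧ k 0 = 0 := by
  have h0 : ∀ᵐ k ∂P, ∀ a : ℤ, a ≠ 0 → k 0 ≠ a := by
    refine ae_all_iff.2 fun a => ?_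
    by_cases ha : a = 0
    · exact Eventually.of_forall fun k h3 => absurd ha h3
    · have h2 := e2_null h {0} (fun _ => a) fun k _ h3 => by
        have h4 := h3 0 (by simp)
        exact ha (by omega)
      filter_upwards [h2] with k hk _ h3
      exact hk fun z hz => by rw [Finset.mem_singleton.1 hz, h3]
  filter_upwards [h0, e2_edge h (e := (1, 0)) (by decide) fun k hk x => (hk x).1,
    e2_edge h (e := (0, 1)) (by decide) fun k hk x => (hk x).2.1,
    e2_edge h (e := (-1, 1)) (by decide) fun k hk x => (hk x).2.2] with k k0 k1 k2 k3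
  refine ⟨fun x => ⟨k1 x, k2 x, k3 x⟩, ?_⟩
  by_contra h1
  exact k0 _ h1 rfl

theorem tend_avM {φ : ℕ → ℕ} {P : Measure Cfg} [IsProbabilityMeasure P] (h : IsLimitM φ P)
    {S : Finset (ℤ × ℤ)} {F : Cfg → ℝ} (hF : Loc S F) : ∃ p : ℕ → ℝ,
    (∀ M c, Tendsto (fun n => avM M c n F) atTop (𝓝 (p M))) ∧
      Tendsto (fun j => p (φ j)) atTop (𝓝 (∫ k, F k ∂P)) := by
  choose p hp1 hp2 using h S
  have h1 : ∀ M c n, avM M c n F =
      ∑ t ∈ a2_T S, F (a2_ext S t) * hexPM M c n S (a2_ext S t) := fun M c n => by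
    rw [avM, avG, Finset.sum_congr rfl fun k hk => a2_sum hF (mem_admG.1 hk).1, Finset.sum_comm,
      Finset.sum_div]
    refine Finset.sum_congr rfl fun t _ => ?_
    rw [hexPM_eq, avM, avG, ← Finset.mul_sum, mul_div_assoc]
  have h2 : ∫ k, F k ∂P =
      ∑ t ∈ a2_T S, F (a2_ext S t) * P.real {k | ∀ x ∈ S, k x = a2_ext S t x} := by
    have e : F =ᵐ[P] fun k => ∑ t ∈ a2_T S, F (a2_ext S t) *
        {k : Cfg | ∀ x ∈ S, k x = a2_ext S t x}.indicator 1 k := by
      filter_upwards [lip_of_limM h] with k hk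
      rw [a2_sum hF hk.1]
      refine Finset.sum_congr rfl fun t _ => ?_
      simp only [hk.2, sub_zero, Set.indicator_apply, Set.mem_ofPred_eq, Pi.one_apply]
    rw [integral_congr_ae e, integral_finsetSum _ fun t _ =>
      ((integrable_const 1).indicator (a2_meas S _)).const_mul _]
    exact Finset.sum_congr rfl fun t _ => by
      rw [integral_const_mul, integral_indicator_one (a2_meas S _)]
  refine ⟨fun M => ∑ t ∈ a2_T S, F (a2_ext S t) * p (a2_ext S t) M, fun M c => ?_, ?_⟩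
  · simp only [h1]
    exact tendsto_finsetSum _ fun t _ => (hp1 _ M c).const_mul _
  · rw [h2]
    exact tendsto_finsetSum _ fun t _ => (hp2 _).const_mul _

end Vale.Agent.P153
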