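import Vale.Agent.P153.E3
import Vale.Agent.P153.A4
import Vale.Agent.P153.A6

/-! Part E: reflection positivity and the Prekopa-Leindler inequality in finite volume. -/

open MeasureTheory Filter Topology

noncomputable section

namespace Vale.Agent.P153

theorem e4_sub {M n : ℕ} {k : Cfg} (h : k ∈ AdmM M 0 n) : k ∈ Adm 0 (n + 1) :=
  ⟨h.1, fun x hx => h.2.2.2 x (by exact_mod_cast hx)⟩

theorem e4_adm {M n : ℕ} {a b : Cfg} (ha : a ∈ AdmM M 0 n) (hb : b ∈ AdmM M 0 n)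
    (e : ∀ i : ℤ, a (i, 0) = b (i, 0)) : a4_glue a b ∈ AdmM M 0 n := by
  refine ⟨(a4_adm (e4_sub ha) (e4_sub hb) e).1, fun x => ?_, fun x hx => ?_, fun x hx => ?_⟩ <;>
    unfold a4_glue <;> split_ifs
  exacts [ha.2.1 x, hb.2.1 x, ha.2.2.1 x hx, hb.2.2.1 x hx, ha.2.2.2 x hx, hb.2.2.2 x hx]

theorem e4_fib {S : Finset (ℤ × ℤ)} {F : Cfg → ℝ} (hF : Loc S F) (hS : ∀ x ∈ S, 0 ≤ x.2)
    (A : Finset Cfg) (hg : ∀ a ∈ A, ∀ b ∈ A, ∀ i : ℤ, a (i, 0) = b (i, 0))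
    (hm : ∀ a ∈ A, ∀ b ∈ A, a4_glue a b ∈ A) (hr : ∀ k ∈ A, (fun x => k (rfl0 x)) ∈ A) :
    0 ≤ ∑ k ∈ A, F k * F fun x => k (rfl0 x) := by
  have h1 : ∑ b ∈ A, (F fun x => b (rfl0 x)) = ∑ b ∈ A, F b :=
    Finset.sum_nbij' (fun k x => k (rfl0 x)) (fun k x => k (rfl0 x)) hr hr
      (fun k _ => funext fun x => congrArg k (a4_rr x))
      (fun k _ => funext fun x => congrArg k (a4_rr x)) fun _ _ => rfl
  have h2 : ∑ q ∈ A ×ˢ A, F q.1 * F (fun x => q.2 (rfl0 x)) =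
      ∑ q ∈ A ×ˢ A, F q.1 * F fun x => q.1 (rfl0 x) := by
    have hm' : ∀ q ∈ A ×ˢ A, (a4_glue q.1 q.2, a4_glue q.2 q.1) ∈ A ×ˢ A := fun q hq =>
      Finset.mem_product.2 ⟨hm _ (Finset.mem_product.1 hq).1 _ (Finset.mem_product.1 hq).2,
        hm _ (Finset.mem_product.1 hq).2 _ (Finset.mem_product.1 hq).1⟩
    refine Finset.sum_nbij' (fun q => (a4_glue q.1 q.2, a4_glue q.2 q.1))
      (fun q => (a4_glue q.1 q.2, a4_glue q.2 q.1)) hm' hm'
      (fun q _ => Prod.ext (a4_invol _ _) (a4_invol _ _))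
      (fun q _ => Prod.ext (a4_invol _ _) (a4_invol _ _)) fun q hq => ?_
    have e := hg _ (Finset.mem_product.1 hq).1 _ (Finset.mem_product.1 hq).2
    have h3 : ∀ x ∈ S, (rfl0 x).2 ≤ 0 := fun x hx => neg_nonpos.2 (hS x hx)
    refine congrArg₂ (· * ·) (hF _ _ fun x hx y hy => ?_) (hF _ _ fun x hx y hy => ?_)
    · dsimp only
      rw [a4_up _ _ (hS x hx), a4_up _ _ (hS y hy)]
    · dsimp only
      rw [a4_down e (h3 x hx), a4_down e (h3 y hy)]
  rw [Finset.sum_product, Finset.sum_product] at h2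
  simp only [Finset.sum_const, nsmul_eq_mul] at h2
  rw [← Finset.sum_mul_sum, h1, ← Finset.mul_sum] at h2
  rcases A.eq_empty_or_nonempty with rfl | h0
  · simp
  · have h4 : (0 : ℝ) < A.card := Nat.cast_pos.2 h0.card_pos
    exact (mul_nonneg_iff_of_pos_left h4).1 (h2 ▸ mul_self_nonneg _)

theorem avM_rp (M n : ℕ) {S : Finset (ℤ × ℤ)} {F : Cfg → ℝ} (hF : Loc S F)
    (hS : ∀ x ∈ S, 0 ≤ x.2) : 0 ≤ avM M 0 n fun k => F k * F fun x => k (rfl0 x) := by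
  classical
  refine div_nonneg ?_ (Nat.cast_nonneg _)
  rw [← Finset.sum_fiberwise_of_maps_to (g := fun (k : Cfg) (i : ℤ) => k (i, 0))
    (t := (admG M (hexA 0 (n + 1)) (hexA 0 n)).image fun (k : Cfg) (i : ℤ) => k (i, 0))
    fun k hk => Finset.mem_image_of_mem _ hk]
  refine Finset.sum_nonneg fun r _ => ?_
  have hA : ∀ k, k ∈ (admG M (hexA 0 (n + 1)) (hexA 0 n)).filter
      (fun k : Cfg => (fun i : ℤ => k (i, 0)) = r) ↔ k ∈ AdmM M 0 n ∧ ∀ i, k (i, 0) = r i :=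
    fun k => by rw [Finset.mem_filter, mem_admM, funext_iff]
  have hg := fun a ha b hb (i : ℤ) => (((hA a).1 ha).2 i).trans (((hA b).1 hb).2 i).symm
  refine e4_fib hF hS _ hg (fun a ha b hb => ?_) fun k hk => ?_
  · exact (hA _).2 ⟨e4_adm ((hA a).1 ha).1 ((hA b).1 hb).1 (hg a ha b hb), fun i =>
      (a4_up a b le_rfl).trans (((hA a).1 ha).2 i)⟩
  · exact (hA _).2 ⟨admM_rfl0 ((hA k).1 hk).1, fun i => by
      simpa [rfl0] using ((hA k).1 hk).2 i⟩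

theorem e4_mid {M n : ℕ} {a b : Cfg} (ha : a ∈ AdmM M 0 n) (hb : b ∈ AdmM M 0 n) {c : ℤ}
    (hc : c = 0 ∨ c = 1) : (fun x => (a x + b x + c) / 2) ∈ AdmM M 0 n := by
  refine ⟨a6_mid ha.1 hb.1 c, fun x => ?_, fun x hx => ?_, fun x hx => ?_⟩
  · have h1 := ha.2.1 x
    have h2 := hb.2.1 x
    dsimp only
    omega
  · have h1 := ha.2.2.1 x hx
    have h2 := hb.2.2.1 x hx
    dsimp only
    omega
  · have h1 := ha.2.2.2 x hx
    have h2 := hb.2.2.2 x hx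
    dsimp only
    omega

theorem e4_sum (M n : ℕ) (F : Cfg → ℝ) :
    ∑ k ∈ admA 0 (n + 1), (AdmM M 0 n).indicator F k =
      ∑ k ∈ admG M (hexA 0 (n + 1)) (hexA 0 n), F k := by
  rw [← Finset.sum_subset (s₁ := admG M (hexA 0 (n + 1)) (hexA 0 n))
    (fun k hk => mem_admA.2 (e4_sub (mem_admM.1 hk)))
    fun k _ hk => Set.indicator_of_notMem (fun h => hk (mem_admM.2 h)) F]
  exact Finset.sum_congr rfl fun k hk => Set.indicator_of_mem (mem_admM.1 hk) F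

theorem avM_pl (M n : ℕ) {F G H : Cfg → ℝ} (hF : ∀ k, 0 ≤ F k) (hG : ∀ k, 0 ≤ G k)
    (hH : ∀ k, 0 ≤ H k) (h : ∀ a b : Cfg, Lip a → Lip b →
      F a * G b ≤ H (fun x => (a x + b x) / 2) * H (fun x => (a x + b x + 1) / 2)) :
    avM M 0 n F * avM M 0 n G ≤ avM M 0 n H ^ 2 := by
  have hn : ∀ {F : Cfg → ℝ}, (∀ k, 0 ≤ F k) → ∀ k, 0 ≤ (AdmM M 0 n).indicator F k :=
    fun hF k => Set.indicator_nonneg (fun k _ => hF k) k
  have h1 := avA_pl (n + 1) (hn hF) (hn hG) (hn hH) fun a b la lb => ?_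
  · have hc : (0 : ℝ) < (admA 0 (n + 1)).card := Nat.cast_pos.2 (card_admA _ _)
    rw [avA, avA, avA, div_mul_div_comm, sq, div_mul_div_comm,
      div_le_div_iff_of_pos_right (mul_pos hc hc), e4_sum, e4_sum, e4_sum] at h1
    rw [avM, avM, avM, avG, avG, avG, div_mul_div_comm, sq, div_mul_div_comm]
    exact div_le_div_of_nonneg_right h1 (by positivity)
  · have h0 := mul_nonneg (hn hH fun x => (a x + b x) / 2) (hn hH fun x => (a x + b x + 1) / 2)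
    by_cases ha : a ∈ AdmM M 0 n
    · by_cases hb : b ∈ AdmM M 0 n
      · have c1 := e4_mid ha hb (.inl rfl)
        simp only [add_zero] at c1
        rw [Set.indicator_of_mem ha, Set.indicator_of_mem hb, Set.indicator_of_mem c1,
          Set.indicator_of_mem (e4_mid ha hb (.inr rfl))]
        exact h a b la lb
      · rwa [Set.indicator_of_notMem hb, mul_zero]
    · rwa [Set.indicator_of_notMem ha, zero_mul]

end Vale.Agent.P153
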