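import Vale.Agent.P153.A2

/-! Part E: reflection positivity excludes a slope. Let v = (-1, 2), d p k = k (p + v) - k p (real), and
V p = ∫ (k p - k 0) ^ 2. All products of differences are measurable and a.e. bounded (`a2_bd`), so integrable.
(1) ∫ d (a v) * d (-(a + 1) v) ≤ 0 for a ≥ 0: `rp` for F = d (a v), since rfl0 (i v) = -i v gives
F (k ∘ rfl0) = -d (-(a + 1) v) k. With q i = (0, 1) + i v one has rfl0 (q i) = q (-i - 1), so
∫ d (q a) * d (q (-a - 2)) ≤ 0. By `shift`: ∫ d 0 * d (m v) ≤ 0 for all m ≥ 1 (odd, even), hence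
∫ d (i v) * d (n v) ≤ 0 for i < n. (2) k (n v) - k 0 = ∑ i < n, d (i v); induction: V (n v) ≤ 4 n.
(3) rot (1, 1) = v, rot (2, -1) = (1, 1), rot is additive, so V (n (1, 1)) = V (n (2, -1)) = V (n v);
(3 q, 0) = q (1, 1) + q (2, -1), (x + y) ^ 2 ≤ 2 x ^ 2 + 2 y ^ 2 and `shift` give V (3 q, 0) ≤ 16 q; `Lip.row`
gives V (n, 0) ≤ 32 (n / 3) + 8; `squeeze_zero`. -/

open MeasureTheory Filter Topology

noncomputable section

namespace Vale.Agent.P153

/-- The covariance of two differences. -/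
def e7_b (P : Measure Cfg) (p q r s : ℤ × ℤ) : ℝ :=
  ∫ k, ((k p : ℝ) - k q) * ((k r : ℝ) - k s) ∂P

/-- Multiples of the vertical vector. -/
def e7_p (i : ℤ) : ℤ × ℤ := (-i, 2 * i)

section aux

variable {P : Measure Cfg} [IsProbabilityMeasure P]

theorem e7_bd {k : Cfg} (hk : Lip k) (p : ℤ × ℤ) : |(k p : ℝ) - k 0| ≤ |(p.1 : ℝ)| + |(p.2 : ℝ)| := by
  exact_mod_cast a2_bd hk p

theorem e7_int (lip : ∀ᵐ k ∂P, Lip k ∧ k 0 = 0) (p q r s : ℤ × ℤ) :
    Integrable (fun k : Cfg => ((k p : ℝ) - k q) * ((k r : ℝ) - k s)) P := by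
  have m : ∀ x, Measurable fun k : Cfg => (k x : ℝ) := fun x =>
    (measurable_of_countable _).comp (measurable_pi_apply x)
  have b : ∀ k, Lip k → ∀ x y : ℤ × ℤ, |(k x : ℝ) - k y| ≤
      |(x.1 : ℝ)| + |(x.2 : ℝ)| + (|(y.1 : ℝ)| + |(y.2 : ℝ)|) := fun k hk x y =>
    (abs_sub_le _ (k 0 : ℝ) _).trans 
      (add_le_add (e7_bd hk x) ((abs_sub_comm _ _).trans_le (e7_bd hk y)))
  refine Integrable.of_bound (((m p).sub (m q)).mul ((m r).sub (m s))).aestronglyMeasurable _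
    (lip.mono fun k hk => (abs_mul _ _).trans_le
      (mul_le_mul (b k hk.1 p q) (b k hk.1 r s) (abs_nonneg _) (by positivity)))

theorem e7_loc (p q r s : ℤ × ℤ) :
    Loc {p, q, r, s} fun k => ((k p : ℝ) - k q) * ((k r : ℝ) - k s) := fun k k' h => by
  have h1 := h p (by simp) q (by simp)
  have h2 := h r (by simp) s (by simp)
  simp only [← Int.cast_sub, h1, h2]

theorem e7_add (lip : ∀ᵐ k ∂P, Lip k ∧ k 0 = 0) (p t q r s : ℤ × ℤ) :
    e7_b P p q r s = e7_b P p t r s + e7_b P t q r s := by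
  rw [e7_b, e7_b, e7_b, ← integral_add (e7_int lip _ _ _ _) (e7_int lip _ _ _ _)]
  exact integral_congr_ae (Eventually.of_forall fun k => by ring)

omit [IsProbabilityMeasure P] in
theorem e7_comm (p q r s : ℤ × ℤ) : e7_b P p q r s = e7_b P r s p q :=
  integral_congr_ae (Eventually.of_forall fun _ => mul_comm _ _)

omit [IsProbabilityMeasure P] in
theorem e7_swap (p q r s : ℤ × ℤ) : e7_b P p q r s = -e7_b P s r p q := by
  rw [e7_b, e7_b, ← integral_neg]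
  exact integral_congr_ae (Eventually.of_forall fun k => by ring)

theorem e7_le (lip : ∀ᵐ k ∂P, Lip k ∧ k 0 = 0) (p : ℤ × ℤ) :
    e7_b P p 0 p 0 ≤ (|(p.1 : ℝ)| + |(p.2 : ℝ)|) ^ 2 := by
  refine (integral_mono_ae (e7_int lip _ _ _ _) (integrable_const _) (lip.mono fun k hk =>
    ?_)).trans_eq (by rw [integral_const, probReal_univ, one_smul])
  have h := pow_le_pow_left₀ (abs_nonneg _) (e7_bd hk.1 p) 2
  rwa [sq_abs, sq] at h

theorem e7_tri (lip : ∀ᵐ k ∂P, Lip k ∧ k 0 = 0) (p q : ℤ × ℤ) :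
    e7_b P p 0 p 0 ≤ 2 * e7_b P p q p q + 2 * e7_b P q 0 q 0 := by
  have a := (e7_int lip p q p q).const_mul 2
  have b := (e7_int lip q 0 q 0).const_mul 2
  rw [e7_b, e7_b, e7_b, ← integral_const_mul, ← integral_const_mul, ← integral_add a b]
  refine integral_mono (e7_int lip _ _ _ _) (a.add b) fun k => ?_
  simp only []
  nlinarith [sq_nonneg ((k p : ℝ) - k q - (k q - k 0))]

end aux

theorem sub_of_rp {P : Measure Cfg} [IsProbabilityMeasure P] (lip : ∀ᵐ k ∂P, Lip k ∧ k 0 = 0)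
    (shift : ∀ S F, Loc S F → ∀ y : ℤ × ℤ, ∫ k, F (fun x => k (x + y)) ∂P = ∫ k, F k ∂P)
    (hrot : ∀ S F, Loc S F → ∫ k, F (fun x => k (rot x)) ∂P = ∫ k, F k ∂P)
    (rp : ∀ S F, Loc S F → (∀ x ∈ S, 0 ≤ x.2) → 0 ≤ ∫ k, F k * F (fun x => k (rfl0 x)) ∂P) :
    Tendsto (fun n : ℕ => (∫ k, ((k (n, 0) - k 0 : ℤ) : ℝ) ^ 2 ∂P) / (n : ℝ) ^ 2) atTop (𝓝 0) := by
  have sh : ∀ p q r s y p' q' r' s' : ℤ × ℤ, p' = p + y → q' = q + y → r' = r + y → s' = s + y →
      e7_b P p' q' r' s' = e7_b P p q r s := by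
    rintro p q r s y _ _ _ _ rfl rfl rfl rfl
    exact shift _ _ (e7_loc p q r s) y
  have ro : ∀ p, e7_b P (rot p) 0 (rot p) 0 = e7_b P p 0 p 0 := fun p =>
    hrot _ _ (e7_loc p 0 p 0)
  have rf : ∀ p q : ℤ × ℤ, 0 ≤ p.2 → 0 ≤ q.2 → e7_b P (rfl0 q) (rfl0 p) p q ≤ 0 := by
    intro p q hp hq
    have h := rp {p, q} (fun k => (k p : ℝ) - k q) (fun k k' h => by
      simp only [← Int.cast_sub, h p (by simp) q (by simp)]) (by simp [hp, hq])
    exact neg_nonneg.1 (h.trans_eq (e7_swap p q (rfl0 p) (rfl0 q)))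
  have h1 : ∀ i n : ℤ, i < n → e7_b P (e7_p (i + 1)) (e7_p i) (e7_p (n + 1)) (e7_p n) ≤ 0 := by
    intro i n hi
    obtain ⟨a, ha | ha⟩ := Int.even_or_odd' (n - i - 1)
    · refine (sh _ _ _ _ (e7_p (n - a)) _ _ _ _ ?_ ?_ ?_ ?_).trans_le
        (rf (e7_p (a + 1)) (e7_p a) ?_ ?_) <;>
      simp only [e7_p, rfl0, Prod.mk_add_mk, Prod.mk.injEq] <;> omega
    · refine (sh _ _ _ _ (-(n - a), 2 * (n - a) - 1) _ _ _ _ ?_ ?_ ?_ ?_).trans_le
        (rf (-(a + 1), 2 * a + 3) (-a, 2 * a + 1) ?_ ?_) <;>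
      simp only [e7_p, rfl0, Prod.mk_add_mk, Prod.mk.injEq] <;> omega
  have p0 : e7_p 0 = 0 := rfl
  have h2 : ∀ (i : ℕ) (n : ℤ), i ≤ n → e7_b P (e7_p i) 0 (e7_p (n + 1)) (e7_p n) ≤ 0 := by
    intro i n
    induction i with
    | zero => simp [e7_b, p0]
    | succ i ih =>
      intro hi
      push_cast at hi ⊢
      rw [e7_add lip _ (e7_p i)]
      exact add_nonpos (h1 i n (by omega)) (ih (by omega))
  have h3 : ∀ n : ℕ, e7_b P (e7_p n) 0 (e7_p n) 0 ≤ 9 * n := by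
    intro n
    induction n with
    | zero => simp [e7_b, p0]
    | succ n ih =>
      push_cast
      have a := h2 n n le_rfl
      have b := e7_le lip (e7_p 1)
      rw [← sh _ _ _ _ (e7_p n) (e7_p (n + 1)) (e7_p n) (e7_p (n + 1)) (e7_p n) ?_ (by simp) ?_
        (by simp)] at b
      · rw [e7_add lip _ (e7_p n), e7_comm (e7_p (n + 1)), e7_add lip _ (e7_p n),
          e7_comm (e7_p n) 0 (e7_p (n + 1)) 0, e7_add lip _ (e7_p n) 0 (e7_p n) 0,
          e7_comm (e7_p (n + 1)) (e7_p n) (e7_p n) 0]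
        norm_num [e7_p] at a b ih ⊢
        linarith
      all_goals
        simp only [e7_p, Prod.mk_add_mk, Prod.mk.injEq]
        omega
  have h4 : ∀ p q : ℤ × ℤ, e7_b P (p + q) 0 (p + q) 0 ≤ 2 * e7_b P p 0 p 0 + 2 * e7_b P q 0 q 0 :=
    fun p q => (e7_tri lip (p + q) q).trans_eq
      (by rw [sh p 0 p 0 q _ _ _ _ rfl (zero_add q).symm rfl (zero_add q).symm])
  have h5 : ∀ n : ℕ, e7_b P (n, 0) 0 (n, 0) 0 ≤ 24 * n + 8 := by
    intro n
    obtain ⟨q, hq⟩ : ∃ q : ℕ, q = n / 3 := ⟨_, rfl⟩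
    obtain ⟨r, hr⟩ : ∃ r : ℕ, r = n % 3 := ⟨_, rfl⟩
    have a := h3 q
    rw [show e7_p q = rot (q, q) by simp only [e7_p, rot, two_mul], ro] at a
    have b := a
    rw [show ((q : ℤ), (q : ℤ)) = rot (2 * (q : ℤ), -(q : ℤ)) by simp [rot, two_mul], ro] at b
    have c := h4 (q, q) (2 * (q : ℤ), -(q : ℤ))
    have d := h4 (((q : ℤ), (q : ℤ)) + (2 * (q : ℤ), -(q : ℤ))) (r, 0)
    have e := e7_le lip (r, 0)
    rw [show ((q : ℤ), (q : ℤ)) + (2 * (q : ℤ), -(q : ℤ)) + ((r : ℤ), 0) = ((n : ℤ), 0) by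
      simp only [Prod.mk_add_mk, Prod.mk.injEq]
      omega] at d
    have f : (r : ℝ) ≤ 2 := by exact_mod_cast (by omega : r ≤ 2)
    have g : 3 * (q : ℝ) ≤ n := by exact_mod_cast (by omega : 3 * q ≤ n)
    simp only [Int.cast_natCast, Int.cast_zero, abs_zero, add_zero, sq_abs] at e
    nlinarith [Nat.cast_nonneg (α := ℝ) r]
  refine squeeze_zero' (Eventually.of_forall fun n => div_nonneg
    (integral_nonneg fun _ => sq_nonneg _) (sq_nonneg _)) ((eventually_ge_atTop 1).mono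
      fun n hn => ?_) (tendsto_const_div_atTop_nhds_zero_nat (32 : ℝ))
  have n1 : (1 : ℝ) ≤ n := by exact_mod_cast hn
  have a := h5 n
  simp only [Int.cast_sub, sq]
  rw [div_le_div_iff₀ (by positivity) (by positivity)]
  exact (mul_le_mul_of_nonneg_right a (by positivity)).trans (by nlinarith)

end Vale.Agent.P153
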