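import Vale.Agent.P153.EC1

/-! Part E: all local observables converge. `Cv M` is closed under finite sums, scalars, and equality on
functions with values in [-M, M + 1]. For integers t, e: indicator (t = e) = ∑ over (i, j) : Bool × Bool of
c e i j * ((if ab e + i.toNat ≤ ab t then 1 else 0) * if j = true ∧ sg t = 1 then -1 else 1), where
c e i j = (1 / 2) * (if i then -1 else 1) * (if j = true ∧ sg e = 1 then -1 else 1) (ab and sg determine t).
Expand ∏ x ∈ S by `Finset.prod_sum` or `Finset.prod_univ_sum` over the subtype (or induct on S, carrying the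
factor bs of the remaining sites); `Finset.prod_mul_distrib` gives `bs`. Finally F k = ∑ over patterns
t ∈ Fintype.piFinset fun _ : S => Finset.Icc (-M) (M + 1) of F (a2_ext S t) * ∏ indicator (see `a2_sum`). -/

open MeasureTheory Filter Topology

noncomputable section

namespace Vale.Agent.P153

theorem ec2_congr {M : ℕ} {F G : Cfg → ℝ} (hG : Cv M G)
    (h : ∀ k : Cfg, (∀ x, -(M : ℤ) ≤ k x ∧ k x ≤ M + 1) → F k = G k) : Cv M F := by
  obtain ⟨p, hp⟩ := hG
  refine ⟨p, fun c => (hp c).congr fun n => ?_⟩
  unfold avM avG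
  rw [Finset.sum_congr rfl fun k hk => h k (mem_admG.1 hk).2.1]

theorem ec2_sum {M : ℕ} {ι : Type} (s : Finset ι) (a : ι → ℝ) {F : ι → Cfg → ℝ}
    (h : ∀ i, Cv M (F i)) : Cv M fun k => ∑ i ∈ s, a i * F i k := by
  choose p hp using h
  refine ⟨∑ i ∈ s, a i * p i, fun c =>
    (tendsto_finsetSum s fun i _ => (hp i c).const_mul (a i)).congr fun n => ?_⟩
  unfold avM avG
  rw [Finset.sum_comm, Finset.sum_div]
  refine Finset.sum_congr rfl fun i _ => ?_
  rw [← Finset.mul_sum, mul_div_assoc]

theorem ec2_sg (t : ℤ) : sg t = 1 ↔ 0 < t := by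
  unfold sg
  split_ifs with h
  · exact iff_of_false (by decide) (not_lt.2 h)
  · exact iff_of_true rfl (not_le.1 h)

/-- The coefficients of the expansion of an indicator. -/
def ec2c (e : ℤ) (q : Bool × Bool) : ℝ :=
  1 / 2 * (if q.1 = true then -1 else 1) * if q.2 = true ∧ sg e = 1 then -1 else 1

theorem ec2_ind (t e : ℤ) : (if t = e then (1 : ℝ) else 0) = ∑ q : Bool × Bool, ec2c e q *
    ((if ab e + q.1.toNat ≤ ab t then 1 else 0) * if q.2 = true ∧ sg t = 1 then -1 else 1) := by
  simp only [Fintype.sum_prod_type, Fintype.sum_bool, ec2c, ec2_sg, Bool.toNat_true,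
    Bool.toNat_false, Nat.cast_one, Nat.cast_zero, add_zero, true_and, Bool.false_eq_true,
    false_and, if_true, if_false, ab]
  split_ifs <;> first | omega | norm_num

theorem ec2_ins {T : Finset (ℤ × ℤ)} {x : ℤ × ℤ} (hx : x ∉ T) (b : Cfg) (ε : ℤ × ℤ → Bool) (m : ℤ)
    (j : Bool) (k : Cfg) : bs (insert x T) (Function.update b x m) (Function.update ε x j) k =
      ((if m ≤ ab (k x) then 1 else 0) * if j = true ∧ sg (k x) = 1 then -1 else 1) *
        bs T b ε k := by
  have ne : ∀ y ∈ T, y ≠ x := fun y hy e => hx (e ▸ hy)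
  unfold bs chi
  rw [Finset.prod_insert hx, Finset.prod_insert hx, Function.update_self, Function.update_self,
    mul_mul_mul_comm]
  congr 2
  · exact Finset.prod_congr rfl fun y hy => by rw [Function.update_of_ne (ne y hy)]
  · exact Finset.prod_congr rfl fun y hy => by rw [Function.update_of_ne (ne y hy)]

theorem ec2_key (M : ℕ) (S : Finset (ℤ × ℤ)) : ∀ (T : Finset (ℤ × ℤ)) (b : Cfg)
    (ε : ℤ × ℤ → Bool) (F : Cfg → ℝ), Disjoint S T → Dep S F →
    Cv M fun k => F k * bs T b ε k := by
  induction S using Finset.induction_on with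
  | empty =>
    intro T b ε F _ hF
    refine ec2_congr (ec2_sum {()} (fun _ => F 0) fun _ => cv_bs M T b ε) fun k _ => ?_
    rw [Finset.sum_singleton, hF k 0 fun x hx => absurd hx (Finset.notMem_empty x)]
  | insert x S hx ih =>
    intro T b ε F hd hF
    rw [Finset.disjoint_insert_left] at hd
    have h1 : ∀ (e : ℤ) (q : Bool × Bool), Cv M fun k => F (Function.update k x e) *
        bs (insert x T) (Function.update b x (ab e + q.1.toNat)) (Function.update ε x q.2) k :=
      fun e q => ih _ _ _ _ (Finset.disjoint_insert_right.2 ⟨hx, hd.2⟩) fun k k' h =>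
        hF _ _ fun y hy => by
          by_cases e : y = x
          · rw [e, Function.update_self, Function.update_self]
          · rw [Function.update_of_ne e, Function.update_of_ne e]
            exact h y ((Finset.mem_insert.1 hy).resolve_left e)
    refine ec2_congr (ec2_sum (Finset.Icc (-(M : ℤ)) (M + 1)) (fun _ => 1) fun e =>
      ec2_sum Finset.univ (ec2c e) (h1 e)) fun k hk => ?_
    have h2 : ∀ e : ℤ, 1 * ∑ q : Bool × Bool, ec2c e q * (F (Function.update k x e) *
        bs (insert x T) (Function.update b x (ab e + q.1.toNat)) (Function.update ε x q.2) k) =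
        if k x = e then F (Function.update k x e) * bs T b ε k else 0 := fun e => by
      rw [← boole_mul, ec2_ind, Finset.sum_mul, one_mul]
      refine Finset.sum_congr rfl fun q _ => ?_
      rw [ec2_ins hd.1]
      ring
    simp only [h2]
    rw [Finset.sum_ite_eq, if_pos (Finset.mem_Icc.2 (hk x)), Function.update_eq_self]

theorem cv_dep (M : ℕ) {S : Finset (ℤ × ℤ)} {F : Cfg → ℝ} (hF : Dep S F) : Cv M F := by
  refine ec2_congr (ec2_key M S ∅ 0 (fun _ => true) F (Finset.disjoint_empty_right S) hF)
    fun k _ => ?_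
  simp only [bs, chi, Finset.prod_empty, mul_one]

end Vale.Agent.P153
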