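import Vale.Agent.P153.E1
import Vale.Agent.P153.A2

/-! Part E: compactness. `KC` is compact (`isCompact_univ_pi`, finite intervals); the set of probability
measures with μ KCᶜ = 0 is tight (`isTightMeasureSet_iff_exists_isCompact_measure_compl_le`), so its closure is
compact (`isCompact_closure_of_isTightMeasureSet`, Mathlib/MeasureTheory/Measure/Prokhorov.lean) and
`IsCompact.tendsto_subseq` applies (`ProbabilityMeasure Cfg` is pseudo metrizable). Cylinders are clopen:
`ProbabilityMeasure.tendsto_measure_of_isClopen_of_tendsto` or `..of_null_frontier..`; KC is closed: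
`ProbabilityMeasure.limsup_measure_closed_le_of_tendsto`, or KC is a countable intersection of clopen sets.
`exists_fin`: the measure ∑ k ∈ admG .., (card)⁻¹ • dirac (fun x => k x - k 0); `hexPM_eq`, `a2_bd`, `a2_meas`. -/

open MeasureTheory Filter Topology

noncomputable section

namespace Vale.Agent.P153

theorem ex1_compact : IsCompact KC := by
  have e : KC = Set.pi Set.univ fun x : ℤ × ℤ => Set.Icc (-(|x.1| + |x.2|)) (|x.1| + |x.2|) := by
    ext k
    simp only [KC, Set.mem_ofPred_eq, Set.mem_pi, Set.mem_univ, true_imp_iff, Set.mem_Icc, abs_le]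
  rw [e]
  exact isCompact_univ_pi fun x => (Set.finite_Icc _ _).isCompact

theorem ex1_clopen (S : Finset (ℤ × ℤ)) (η : Cfg) : IsClopen {k : Cfg | ∀ x ∈ S, k x = η x} := by
  have e : {k : Cfg | ∀ x ∈ S, k x = η x} = ⋂ x ∈ S, (fun k : Cfg => k x) ⁻¹' {η x} := by
    ext k; simp
  rw [e]
  exact isClopen_biInter_finset fun x _ => (isClopen_discrete _).preimage (continuous_apply x)

theorem exists_sub (μ : ℕ → Measure Cfg) [∀ j, IsProbabilityMeasure (μ j)] (h : ∀ j, μ j KCᶜ = 0) :
    ∃ (φ : ℕ → ℕ) (P : Measure Cfg), StrictMono φ ∧ IsProbabilityMeasure P ∧ P KCᶜ = 0 ∧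
      ∀ (S : Finset (ℤ × ℤ)) (η : Cfg), Tendsto (fun j => (μ (φ j)).real {k | ∀ x ∈ S, k x = η x})
        atTop (𝓝 (P.real {k | ∀ x ∈ S, k x = η x})) := by
  let ν : ℕ → ProbabilityMeasure Cfg := fun j => ⟨μ j, inferInstance⟩
  have ht : IsTightMeasureSet {((m : ProbabilityMeasure Cfg) : Measure Cfg) | m ∈ Set.range ν} := by
    refine isTightMeasureSet_iff_exists_isCompact_measure_compl_le.2 fun ε _ =>
      ⟨KC, ex1_compact, ?_⟩
    rintro _ ⟨_, ⟨j, rfl⟩, rfl⟩
    exact (h j).le.trans zero_le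
  have hc := isCompact_closure_of_isTightMeasureSet ht
  obtain ⟨P, -, φ, hφ, hl⟩ := hc.tendsto_subseq (x := ν) fun j => subset_closure ⟨j, rfl⟩
  refine ⟨φ, P, hφ, inferInstance, ?_, fun S η => ?_⟩
  · have h1 := ProbabilityMeasure.le_liminf_measure_open_of_tendsto hl
      ex1_compact.isClosed.isOpen_compl
    have h2 : (fun j => ((ν ∘ φ) j : Measure Cfg) KCᶜ) = fun _ => 0 := funext fun j => h (φ j)
    rw [h2, liminf_const] at h1
    exact le_antisymm h1 zero_le
  · have h1 := ProbabilityMeasure.tendsto_measure_of_isClopen_of_tendsto hl (ex1_clopen S η)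
    have h2 := (NNReal.continuous_coe.tendsto _).comp h1
    exact h2

theorem exists_fin (M n : ℕ) : ∃ μ : Measure Cfg, IsProbabilityMeasure μ ∧ μ KCᶜ = 0 ∧
    ∀ (S : Finset (ℤ × ℤ)) (η : Cfg), μ.real {k | ∀ x ∈ S, k x = η x} = hexPM M 0 n S η := by
  classical
  set A := admG M (hexA 0 (n + 1)) (hexA 0 n) with hA
  have hc : 0 < A.card := card_admG _ _ _
  have hc' : (A.card : ENNReal) ≠ 0 := by exact_mod_cast hc.ne'
  have key : ∀ E : Set Cfg, MeasurableSet E →
      (∑ k ∈ A, (A.card : ENNReal)⁻¹ • Measure.dirac (fun x => k x - k 0 : Cfg)) E =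
        (∑ k ∈ A, E.indicator 1 (fun x => k x - k 0 : Cfg)) * (A.card : ENNReal)⁻¹ := by
    intro E hE
    rw [Measure.finsetSum_apply, Finset.sum_mul]
    refine Finset.sum_congr rfl fun k _ => ?_
    rw [Measure.smul_apply, Measure.dirac_apply' _ hE, smul_eq_mul, mul_comm]
  refine ⟨∑ k ∈ A, (A.card : ENNReal)⁻¹ • Measure.dirac (fun x => k x - k 0 : Cfg), ⟨?_⟩, ?_,
    fun S η => ?_⟩
  · rw [key _ MeasurableSet.univ]
    simp only [Set.indicator_univ, Pi.one_apply, Finset.sum_const, nsmul_eq_mul, mul_one]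
    exact ENNReal.mul_inv_cancel hc' (ENNReal.natCast_ne_top _)
  · rw [key _ ex1_compact.isClosed.measurableSet.compl, Finset.sum_eq_zero, zero_mul]
    intro k hk
    have h1 : (fun x => k x - k 0 : Cfg) ∈ KC := fun x => a2_bd (mem_admG.1 hk).1 x
    exact Set.indicator_of_notMem (Set.notMem_compl_iff.2 h1) _
  · rw [Measure.real, key _ (a2_meas S η), hexPM_eq, avM, avG, ← hA, ENNReal.toReal_mul,
      ENNReal.toReal_inv, ENNReal.toReal_natCast, div_eq_mul_inv, ENNReal.toReal_sum]
    · congr 1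
      refine Finset.sum_congr rfl fun k _ => ?_
      by_cases h1 : ∀ x ∈ S, k x - k 0 = η x
      · rw [if_pos h1, Set.indicator_of_mem (by exact h1)]
        simp
      · rw [if_neg h1, Set.indicator_of_notMem (by exact h1)]
        simp
    · intro k _
      rw [Set.indicator_apply]
      split_ifs <;> simp

end Vale.Agent.P153
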