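import Vale.Agent.P153.A
import Vale.Agent.P153.E2
import Vale.Agent.P153.E4
import Vale.Agent.P153.E7
import Vale.Agent.P153.EC2
import Vale.Agent.P153.EX1

/-! Part E: the confined limit measures exist and are good. -/

open MeasureTheory Filter Topology

noncomputable section

namespace Vale.Agent.P153

variable {φ : ℕ → ℕ} {P : Measure Cfg} [IsProbabilityMeasure P]

lemma e_eq (h : IsLimitM φ P) {S S' : Finset (ℤ × ℤ)} {F G : Cfg → ℝ} (hF : Loc S F)
    (hG : Loc S' G) (c : ℤ × ℤ) (e : ∀ M, ∀ᶠ n in atTop, avM M c n F = avM M 0 n G) :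
    ∫ k, F k ∂P = ∫ k, G k ∂P := by
  obtain ⟨p, h1, h2⟩ := tend_avM h hF
  obtain ⟨q, h3, h4⟩ := tend_avM h hG
  obtain rfl : p = q := funext fun M => tendsto_nhds_unique ((h1 M c).congr' (e M)) (h3 M 0)
  exact tendsto_nhds_unique h2 h4

theorem good_of_limM (h : IsLimitM φ P) : Good P := by
  have h1 : ∀ S F, Loc S F → ∀ y : ℤ × ℤ, ∫ k, F (fun x => k (x + y)) ∂P = ∫ k, F k ∂P :=
    fun S F hF y => e_eq h (hF.compA (· + y)) hF y fun M => .of_forall fun n => avM_shift M n F y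
  have h2 : ∀ S F, Loc S F → ∫ k, F (fun x => k (rot x)) ∂P = ∫ k, F k ∂P :=
    fun S F hF => e_eq h (hF.compA rot) hF 0 fun M => .of_forall fun n => avM_rot M n F
  have h3 : ∀ S F, Loc S F → (∀ x ∈ S, 0 ≤ x.2) →
      0 ≤ ∫ k, F k * F (fun x => k (rfl0 x)) ∂P := fun S F hF hS => by
    obtain ⟨p, k1, k2⟩ := tend_avM h (S := S ∪ S.image rfl0)
      (F := fun k => F k * F fun x => k (rfl0 x)) fun k k' e => congrArg₂ (· * ·)
      (hF k k' fun x hx y hy => e x (Finset.mem_union_left _ hx) y (Finset.mem_union_left _ hy))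
      (hF.compA rfl0 k k' fun x hx y hy =>
        e x (Finset.mem_union_right _ hx) y (Finset.mem_union_right _ hy))
    exact ge_of_tendsto' k2 fun j => ge_of_tendsto' (k1 _ 0) fun n => avM_rp _ n hF hS
  refine ⟨lip_of_limM h, h1, h2,
    fun S F hF => e_eq h (hF.compA rfl0) hF 0 fun M => .of_forall fun n => avM_rfl0 M n F,
    fun S F hF => e_eq h (S := S) (fun k k' e => hF _ _ fun x hx y hy => ?_) hF 0
      fun M => (ev_hexA S 0).mono fun n hn => avM_neg M n hF hn, h3,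
    fun S F G H hF hG hH k1 k2 k3 k4 => ?_, sub_of_rp (lip_of_limM h) h1 h2 h3⟩
  · have := e x hx y hy
    omega
  · obtain ⟨p, p1, p2⟩ := tend_avM h hF
    obtain ⟨q, q1, q2⟩ := tend_avM h hG
    obtain ⟨r, r1, r2⟩ := tend_avM h hH
    exact le_of_tendsto_of_tendsto' (p2.mul q2) (r2.pow 2) fun j =>
      le_of_tendsto_of_tendsto' ((p1 _ 0).mul (q1 _ 0)) ((r1 _ 0).pow 2)
        fun n => avM_pl _ n k1 k2 k3 k4

lemma e_cv (M : ℕ) (S : Finset (ℤ × ℤ)) (η : Cfg) :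
    ∃ p, ∀ c, Tendsto (fun n => hexPM M c n S η) atTop (𝓝 p) := by
  classical
  simp only [hexPM_eq]
  refine cv_dep M (S := insert 0 S) fun k k' e => ?_
  rw [e 0 (Finset.mem_insert_self _ _)]
  exact if_congr (forall₂_congr fun x hx => by rw [e x (Finset.mem_insert_of_mem hx)]) rfl rfl

theorem exists_limM (ψ : ℕ → ℕ) : ∃ (φ : ℕ → ℕ) (P : Measure Cfg), StrictMono φ ∧
    IsProbabilityMeasure P ∧ IsLimitM (fun j => ψ (φ j)) P := by
  choose p hp using e_cv
  have h : ∀ M, ∃ ν : Measure Cfg, IsProbabilityMeasure ν ∧ ν KCᶜ = 0 ∧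
      ∀ S η, ν.real {k | ∀ x ∈ S, k x = η x} = p M S η := fun M => by
    choose μ h1 h2 h3 using exists_fin M
    obtain ⟨φ, ν, k1, k2, k3, k4⟩ := exists_sub μ h2
    refine ⟨ν, k2, k3, fun S η => tendsto_nhds_unique (k4 S η) ?_⟩
    simp only [h3]
    exact (hp M S η 0).comp k1.tendsto_atTop
  choose ν h1 h2 h3 using h
  obtain ⟨φ, P, k1, k2, -, k4⟩ := exists_sub (fun j => ν (ψ j)) fun j => h2 _
  refine ⟨φ, P, k1, k2, fun S η => ⟨fun M => p M S η, fun M c => hp M S η c, ?_⟩⟩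
  simpa only [h3] using k4 S η

end Vale.Agent.P153
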