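import Vale.Agent.P153.Stmt

/-! Confined Lipschitz heights with free boundary values `±1`. -/

open MeasureTheory Filter Topology

noncomputable section

namespace Vale.Agent.P153

/-- Lipschitz functions `k` with values in `[-M, M + 1]`, with values `0` or `1` outside the hexagon
of centre `c` and radius `n`, and zero outside the hexagon of radius `n + 1`. The odd function
`h = 2 k - 1` has `|h| ≤ 2 M + 1` and free values `±1` on the boundary of the larger hexagon. -/
def AdmM (M : ℕ) (c : ℤ × ℤ) (n : ℕ) : Set Cfg :=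
  {k | Lip k ∧ (∀ x, -(M : ℤ) ≤ k x ∧ k x ≤ M + 1) ∧
    (∀ x, (n : ℤ) < hx (x - c) → k x = 0 ∨ k x = 1) ∧ ∀ x, (n : ℤ) + 1 < hx (x - c) → k x = 0}

/-- Probability, under the uniform measure on `AdmM M c n`, that `k - k 0` equals `η` on `S`. -/
def hexPM (M : ℕ) (c : ℤ × ℤ) (n : ℕ) (S : Finset (ℤ × ℤ)) (η : Cfg) : ℝ :=
  ({k ∈ AdmM M c n | ∀ x ∈ S, k x - k 0 = η x}.ncard : ℝ) / (AdmM M c n).ncard

/-- `P` is the local limit of the law of `k - k 0` when first the hexagons grow and then the bound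
`M` grows along the sequence `φ`. -/
def IsLimitM (φ : ℕ → ℕ) (P : Measure Cfg) : Prop :=
  ∀ (S : Finset (ℤ × ℤ)) (η : Cfg), ∃ p : ℕ → ℝ,
    (∀ (M : ℕ) (c : ℤ × ℤ), Tendsto (fun n => hexPM M c n S η) atTop (𝓝 (p M))) ∧
    Tendsto (fun j => p (φ j)) atTop (𝓝 (P.real {k | ∀ x ∈ S, k x = η x}))

end Vale.Agent.P153
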