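import Vale.Agent.P153.A1
import Vale.Agent.P153.EStmt

/-! Part E: definitions. FROZEN. -/

open MeasureTheory Filter Topology

noncomputable section

namespace Vale.Agent.P153

variable {M : ℕ} {L D : Finset (ℤ × ℤ)} {k : Cfg}

lemma fin_of_bd (L : Finset (ℤ × ℤ)) (a b : ℤ) :
    {k : Cfg | (∀ x, a ≤ k x ∧ k x ≤ b) ∧ ∀ x ∉ L, k x = 0}.Finite := by
  have h : (Set.pi Set.univ fun _ : L => Set.Icc a b).Finite :=
    Set.Finite.pi fun _ => Set.finite_Icc _ _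
  refine Set.Finite.of_finite_image (f := fun (k : Cfg) (x : L) => k x) (h.subset ?_) ?_
  · rintro _ ⟨k, hk, rfl⟩ x -
    exact hk.1 x
  · intro k hk k' hk' e
    funext x
    by_cases h1 : x ∈ L
    · exact congrFun e ⟨x, h1⟩
    · rw [hk.2 x h1, hk'.2 x h1]

/-- Confined functions with values `0` or `1` off `D` and zero off `L`. -/
def AdmG (M : ℕ) (L D : Finset (ℤ × ℤ)) : Set Cfg :=
  {k | Lip k ∧ (∀ x, -(M : ℤ) ≤ k x ∧ k x ≤ M + 1) ∧ (∀ x ∉ D, k x = 0 ∨ k x = 1) ∧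
    ∀ x ∉ L, k x = 0}

/-- The same as a finite set. -/
def admG (M : ℕ) (L D : Finset (ℤ × ℤ)) : Finset Cfg :=
  ((fin_of_bd L (-M) (M + 1)).subset (s := _) (t := AdmG M L D) fun _ h => ⟨h.2.1, h.2.2.2⟩).toFinset

lemma mem_admG : k ∈ admG M L D ↔ Lip k ∧ (∀ x, -(M : ℤ) ≤ k x ∧ k x ≤ M + 1) ∧
    (∀ x ∉ D, k x = 0 ∨ k x = 1) ∧ ∀ x ∉ L, k x = 0 := Set.Finite.mem_toFinset _

lemma card_admG (M : ℕ) (L D : Finset (ℤ × ℤ)) : 0 < (admG M L D).card :=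
  Finset.card_pos.2 ⟨0, mem_admG.2 ⟨lip_zero, fun _ => ⟨by simp, by simp only [Pi.zero_apply]; omega⟩,
    fun _ _ => .inl rfl, fun _ _ => rfl⟩⟩

/-- The average under the uniform measure on `AdmG M L D`. -/
def avG (M : ℕ) (L D : Finset (ℤ × ℤ)) (F : Cfg → ℝ) : ℝ :=
  (∑ k ∈ admG M L D, F k) / (admG M L D).card

/-- The average under the uniform measure on `AdmM M c n`. -/
def avM (M : ℕ) (c : ℤ × ℤ) (n : ℕ) (F : Cfg → ℝ) : ℝ := avG M (hexA c (n + 1)) (hexA c n) F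

lemma mem_admM {c : ℤ × ℤ} {n : ℕ} : k ∈ admG M (hexA c (n + 1)) (hexA c n) ↔ k ∈ AdmM M c n := by
  simp only [mem_admG, mem_hexA, not_le, AdmM, Set.mem_ofPred_eq, Nat.cast_add, Nat.cast_one]

open Classical in
lemma hexPM_eq (M : ℕ) (c : ℤ × ℤ) (n : ℕ) (S : Finset (ℤ × ℤ)) (η : Cfg) :
    hexPM M c n S η = avM M c n fun k => if ∀ x ∈ S, k x - k 0 = η x then 1 else 0 := by
  have e1 : {k ∈ AdmM M c n | ∀ x ∈ S, k x - k 0 = η x} =
      ↑((admG M (hexA c (n + 1)) (hexA c n)).filter fun k => ∀ x ∈ S, k x - k 0 = η x) := by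
    ext k; simp [mem_admM]
  have e2 : AdmM M c n = ↑(admG M (hexA c (n + 1)) (hexA c n)) := by
    ext k; simp [mem_admM]
  rw [hexPM, e1, Set.ncard_coe_finset, e2, Set.ncard_coe_finset, Finset.card_filter]
  push_cast
  rfl

/-- `F` depends only on the values in `S`. -/
def Dep (S : Finset (ℤ × ℤ)) (F : Cfg → ℝ) : Prop :=
  ∀ k k' : Cfg, (∀ x ∈ S, k x = k' x) → F k = F k'

/-- `L` contains `D` and its neighbours. -/
def Nb (D L : Finset (ℤ × ℤ)) : Prop := ∀ x ∈ D, ∀ y, hx (y - x) ≤ 1 → y ∈ L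

/-- The number `(|2 t - 1| - 1) / 2`. -/
def ab (t : ℤ) : ℤ := max (-t) (t - 1)

/-- The sign of `2 t - 1`. -/
def sg (t : ℤ) : ZMod 2 := if t ≤ 0 then 0 else 1

/-- The character of a set of signs. -/
def chi (S : Finset (ℤ × ℤ)) (ε : ℤ × ℤ → Bool) (s : ℤ × ℤ → ZMod 2) : ℝ :=
  ∏ x ∈ S, if ε x = true ∧ s x = 1 then -1 else 1

/-- The basic observables. -/
def bs (S : Finset (ℤ × ℤ)) (b : Cfg) (ε : ℤ × ℤ → Bool) (k : Cfg) : ℝ :=
  (∏ x ∈ S, if b x ≤ ab (k x) then 1 else 0) * chi S ε fun x => sg (k x)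

/-- The signs that are compatible with the absolute values `a`. -/
def GS (L : Finset (ℤ × ℤ)) (a : Cfg) : AddSubgroup (ℤ × ℤ → ZMod 2) where
  carrier := {s | (∀ x ∉ L, s x = 0) ∧ ∀ x y, hx (y - x) ≤ 1 → a x ≠ 0 → s y = s x}
  zero_mem' := ⟨fun _ _ => rfl, fun _ _ _ _ => rfl⟩
  add_mem' h h' := ⟨fun x e => by simp [h.1 x e, h'.1 x e],
    fun x y e f => by simp [h.2 x y e f, h'.2 x y e f]⟩
  neg_mem' h := ⟨fun x e => by simp [h.1 x e], fun x y e f => by simp [h.2 x y e f]⟩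

/-- The number of compatible signs. -/
def wS (L : Finset (ℤ × ℤ)) (a : Cfg) : ℝ := Nat.card (GS L a)

/-- The possible absolute values. -/
def abS (M : ℕ) (D : Finset (ℤ × ℤ)) : Finset Cfg :=
  ((fin_of_bd D 0 M).subset (s := _) (t := {a | Lip a ∧ (∀ x, 0 ≤ a x ∧ a x ≤ M) ∧ ∀ x ∉ D, a x = 0})
    fun _ h => h.2).toFinset

lemma mem_abS : k ∈ abS M D ↔ Lip k ∧ (∀ x, 0 ≤ k x ∧ k x ≤ M) ∧ ∀ x ∉ D, k x = 0 :=
  Set.Finite.mem_toFinset _

/-- The averages of `F` converge to a limit that does not depend on the centre. -/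
def Cv (M : ℕ) (F : Cfg → ℝ) : Prop := ∃ p, ∀ c, Tendsto (fun n => avM M c n F) atTop (𝓝 p)

/-- The compact set that carries all the measures. -/
def KC : Set Cfg := {k | ∀ x : ℤ × ℤ, |k x| ≤ |x.1| + |x.2|}

end Vale.Agent.P153
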