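import Vale.Agent.P153.E1
import Vale.Agent.P153.A3

/-! Part E: symmetries in finite volume. Port of A3.lean (reuse its lemmas on `Lip` and `hx`; `mem_admM`).
For `avM_neg` use the involution k ↦ fun x => if x ∈ hexA 0 (n + 1) then 1 - k x else 0 of `AdmM M 0 n`
(an edge leaving the larger hexagon starts outside the smaller one); by `Loc` the value of F at the image
is F (fun x => -k x). -/

open MeasureTheory Filter Topology

noncomputable section

namespace Vale.Agent.P153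

theorem e3_hx {M n : ℕ} {c c' : ℤ × ℤ} {k : Cfg} (h : k ∈ AdmM M c n) {f : ℤ × ℤ → ℤ × ℤ}
    (hl : Lip fun x => k (f x)) (hf : ∀ x, hx (x - c') ≤ hx (f x - c)) :
    (fun x => k (f x)) ∈ AdmM M c' n :=
  ⟨hl, fun _ => h.2.1 _, fun x hn => h.2.2.1 _ (hn.trans_le (hf x)),
    fun x hn => h.2.2.2 _ (hn.trans_le (hf x))⟩

theorem e3_le {x : ℤ × ℤ} {t : ℤ} : hx x ≤ t ↔
    (-t ≤ x.1 ∧ x.1 ≤ t) ∧ (-t ≤ x.2 ∧ x.2 ≤ t) ∧ -t ≤ x.1 + x.2 ∧ x.1 + x.2 ≤ t := by
  simp only [hx, max_le_iff, abs_le]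

theorem admM_rfl0 {M n : ℕ} {k : Cfg} (h : k ∈ AdmM M 0 n) : (fun x => k (rfl0 x)) ∈ AdmM M 0 n := by
  refine e3_hx h h.1.rfl0 fun x => ?_
  have h1 := e3_le.1 (le_refl (hx (rfl0 x)))
  rw [sub_zero, sub_zero, e3_le]
  generalize hx (rfl0 x) = t at h1 ⊢
  simp only [rfl0] at h1
  omega

theorem e3_rot {M n : ℕ} {k : Cfg} (h : k ∈ AdmM M 0 n) : (fun x => k (rot x)) ∈ AdmM M 0 n := by
  refine e3_hx h h.1.rot fun x => ?_
  have h1 := e3_le.1 (le_refl (hx (rot x)))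
  rw [sub_zero, sub_zero, e3_le]
  generalize hx (rot x) = t at h1 ⊢
  simp only [rot] at h1
  omega

theorem e3_av {M : ℕ} {c c' : ℤ × ℤ} {n : ℕ} (φ ψ : Cfg → Cfg)
    (h1 : ∀ k ∈ AdmM M c n, φ k ∈ AdmM M c' n) (h2 : ∀ k ∈ AdmM M c' n, ψ k ∈ AdmM M c n)
    (l : ∀ k ∈ AdmM M c n, ψ (φ k) = k) (r : ∀ k ∈ AdmM M c' n, φ (ψ k) = k) (F : Cfg → ℝ) :
    avM M c n (fun k => F (φ k)) = avM M c' n F := by
  have a : ∀ G : Cfg → ℝ, ∑ k ∈ admG M (hexA c (n + 1)) (hexA c n), G (φ k) =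
      ∑ k ∈ admG M (hexA c' (n + 1)) (hexA c' n), G k := fun G =>
    Finset.sum_nbij' φ ψ (fun k hk => mem_admM.2 (h1 k (mem_admM.1 hk)))
      (fun k hk => mem_admM.2 (h2 k (mem_admM.1 hk))) (fun k hk => l k (mem_admM.1 hk))
      (fun k hk => r k (mem_admM.1 hk)) fun _ _ => rfl
  have b := a fun _ => 1
  simp only [Finset.sum_const, nsmul_eq_mul, mul_one] at b
  unfold avM avG
  rw [a F, b]

theorem avM_shift (M n : ℕ) (F : Cfg → ℝ) (y : ℤ × ℤ) :
    avM M y n (fun k => F fun x => k (x + y)) = avM M 0 n F := by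
  refine e3_av (fun k x => k (x + y)) (fun k x => k (x + -y))
    (fun k hk => e3_hx hk (hk.1.shift y) fun x => ?_)
    (fun k hk => e3_hx hk (hk.1.shift (-y)) fun x => ?_) (fun k _ => ?_) (fun k _ => ?_) F
  · rw [add_sub_cancel_right, sub_zero]
  · rw [sub_zero, sub_eq_add_neg]
  · funext x
    simp only [neg_add_cancel_right]
  · funext x
    simp only [add_neg_cancel_right]

theorem avM_rot (M n : ℕ) (F : Cfg → ℝ) :
    avM M 0 n (fun k => F fun x => k (rot x)) = avM M 0 n F := by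
  have e : ∀ x : ℤ × ℤ, rot (rot (rot (rot (rot (rot x))))) = x := fun x => by
    ext <;> simp only [rot] <;> ring
  exact e3_av (fun k x => k (rot x)) (fun k x => k (rot (rot (rot (rot (rot x))))))
    (fun k hk => e3_rot hk) (fun k hk => e3_rot (e3_rot (e3_rot (e3_rot (e3_rot hk)))))
    (fun k _ => funext fun x => congrArg k (e x)) (fun k _ => funext fun x => congrArg k (e x)) F

theorem avM_rfl0 (M n : ℕ) (F : Cfg → ℝ) :
    avM M 0 n (fun k => F fun x => k (rfl0 x)) = avM M 0 n F := by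
  have e : ∀ x : ℤ × ℤ, rfl0 (rfl0 x) = x := fun x => by
    ext <;> simp only [rfl0] <;> ring
  exact e3_av (fun k x => k (rfl0 x)) (fun k x => k (rfl0 x))
    (fun k hk => admM_rfl0 hk) (fun k hk => admM_rfl0 hk)
    (fun k _ => funext fun x => congrArg k (e x)) (fun k _ => funext fun x => congrArg k (e x)) F

theorem e3_edge {M n : ℕ} {k : Cfg} (h : k ∈ AdmM M 0 n) {x d : ℤ × ℤ} (hd : hx d ≤ 1)
    (he : |k (x + d) - k x| ≤ 1) : |(if hx (x + d) ≤ n + 1 then 1 - k (x + d) else 0) -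
      if hx x ≤ n + 1 then 1 - k x else 0| ≤ 1 := by
  have h1 := h.2.2.1 x
  have h2 := h.2.2.1 (x + d)
  rw [sub_zero] at h1 h2
  have h3 := e3_le.1 hd
  have h4 : hx (x + d) ≤ hx x + 1 := by
    have h0 := e3_le.1 (le_refl (hx x))
    rw [e3_le, Prod.fst_add, Prod.snd_add]
    omega
  have h5 : hx x ≤ hx (x + d) + 1 := by
    have h0 := e3_le.1 (le_refl (hx (x + d)))
    rw [Prod.fst_add, Prod.snd_add] at h0
    rw [e3_le]
    omega
  rw [abs_le] at he ⊢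
  split_ifs <;> omega

theorem e3_neg {M n : ℕ} {k : Cfg} (h : k ∈ AdmM M 0 n) :
    (fun x => if hx x ≤ n + 1 then 1 - k x else 0) ∈ AdmM M 0 n := by
  refine ⟨fun x => ⟨e3_edge h (by decide) (h.1 x).1, e3_edge h (by decide) (h.1 x).2.1,
    e3_edge h (by decide) (h.1 x).2.2⟩, fun x => ?_, fun x hn => ?_, fun x hn => ?_⟩
  · have h1 := h.2.1 x
    dsimp only
    split_ifs <;> omega
  · have h1 := h.2.2.1 x hn
    dsimp only
    split_ifs <;> omega
  · rw [sub_zero] at hn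
    exact if_neg (not_le.2 hn)

theorem e3_inv {M n : ℕ} {k : Cfg} (h : k ∈ AdmM M 0 n) : (fun x => if hx x ≤ n + 1 then
    1 - (if hx x ≤ n + 1 then 1 - k x else 0) else 0) = k := by
  funext x
  have h1 := h.2.2.2 x
  rw [sub_zero] at h1
  split_ifs <;> omega

theorem avM_neg (M n : ℕ) {S : Finset (ℤ × ℤ)} {F : Cfg → ℝ} (hF : Loc S F) (hS : S ⊆ hexA 0 n) :
    avM M 0 n (fun k => F fun x => -k x) = avM M 0 n F := by
  have h0 : ∀ x ∈ S, hx x ≤ n + 1 := fun x hx' => by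
    have h1 := mem_hexA.1 (hS hx')
    rw [sub_zero] at h1
    omega
  rw [← e3_av (fun k x => if hx x ≤ n + 1 then 1 - k x else 0)
    (fun k x => if hx x ≤ n + 1 then 1 - k x else 0) (fun k hk => e3_neg hk)
    (fun k hk => e3_neg hk) (fun k hk => e3_inv hk) (fun k hk => e3_inv hk) F]
  refine congrArg _ (funext fun k => hF _ _ fun x hx' y hy => ?_)
  simp only [if_pos (h0 x hx'), if_pos (h0 y hy)]
  ring

theorem ev_hexA (S : Finset (ℤ × ℤ)) (c : ℤ × ℤ) : ∀ᶠ n in atTop, S ⊆ hexA c n := by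
  have h : ∀ᶠ n : ℕ in atTop, ∀ x ∈ S, hx (x - c) ≤ n :=
    (eventually_all_finset S).2 fun x _ =>
      (eventually_ge_atTop (hx (x - c)).toNat).mono fun n hn => Int.toNat_le.1 hn
  exact h.mono fun n hn x hx' => mem_hexA.2 (hn x hx')

end Vale.Agent.P153
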