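import Vale.Agent.P153.E1

/-! Part E: the far away free sites do not matter. One site z ∉ L with Nb D L (so z ∉ D and no neighbour
of z is in D: all neighbours have values 0 or 1): admG M (insert z L) D is the disjoint union of admG M L D
and its image under `Function.update · z 1` (`Finset.sum_filter_add_sum_filter_not` with k z = 0,
`Finset.sum_nbij'`), so ∑ k ∈ admG M (insert z L) D, F k = 2 * ∑ k ∈ admG M L D, F k for `Dep D F` (also for
F = 1). Induction: `Finset.le_induction`-style, or induction on L' \ L. -/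

open MeasureTheory Filter Topology

noncomputable section

namespace Vale.Agent.P153

theorem e8_edge {L D : Finset (ℤ × ℤ)} (h : Nb D L) {z : ℤ × ℤ} (hz : z ∉ L) {k : Cfg}
    (hk : ∀ x ∉ D, k x = 0 ∨ k x = 1) {t : ℤ} (ht : t = 0 ∨ t = 1) {x e : ℤ × ℤ} (h1 : hx e ≤ 1)
    (h2 : hx (-e) ≤ 1) (h3 : |k (x + e) - k x| ≤ 1) :
    |Function.update k z t (x + e) - Function.update k z t x| ≤ 1 := by
  by_cases a : x + e = z
  · by_cases b : x = z
    · rw [a, b, sub_self]
      simp
    · have c : x ∉ D := fun c => hz (h x c z (by rwa [← a, add_sub_cancel_left]))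
      rw [a, Function.update_self, Function.update_of_ne b, abs_le]
      have := hk x c
      omega
  · by_cases b : x = z
    · have c : x + e ∉ D := fun c => hz (h _ c z (by rwa [← b, sub_add_cancel_left]))
      rw [Function.update_of_ne a, b, Function.update_self, abs_le]
      have := hk _ c
      rw [b] at this
      omega
    · rwa [Function.update_of_ne a, Function.update_of_ne b]

theorem e8_upd {M : ℕ} {L D : Finset (ℤ × ℤ)} (h : Nb D L) {z : ℤ × ℤ} (hz : z ∉ L) {k : Cfg}
    (hk : k ∈ admG M (insert z L) D) {t : ℤ} (ht : t = 0 ∨ t = 1) :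
    Function.update k z t ∈ admG M (insert z L) D := by
  obtain ⟨h1, h2, h3, h4⟩ := mem_admG.1 hk
  refine mem_admG.2 ⟨fun x => ⟨?_, ?_, ?_⟩, fun x => ?_, fun x hx => ?_, fun x hx => ?_⟩
  · exact e8_edge h hz h3 ht (by decide) (by decide) (h1 x).1
  · exact e8_edge h hz h3 ht (by decide) (by decide) (h1 x).2.1
  · exact e8_edge h hz h3 ht (by decide) (by decide) (h1 x).2.2
  · by_cases b : x = z
    · rw [b, Function.update_self]
      omega
    · rw [Function.update_of_ne b]
      exact h2 x
  · by_cases b : x = z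
    · rwa [b, Function.update_self]
    · rw [Function.update_of_ne b]
      exact h3 x hx
  · rw [Function.update_of_ne fun b => hx (by rw [b]; exact Finset.mem_insert_self _ _)]
    exact h4 x hx

theorem e8_step (M : ℕ) {L D : Finset (ℤ × ℤ)} (h : Nb D L) {z : ℤ × ℤ} (hz : z ∉ L) {F : Cfg → ℝ}
    (hF : Dep D F) : ∑ k ∈ admG M (insert z L) D, F k = 2 * ∑ k ∈ admG M L D, F k := by
  have hD : z ∉ D := fun c => hz (h z c z (by rw [sub_self]; decide))
  have e1 : (admG M (insert z L) D).filter (fun k => k z = 0) = admG M L D := by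
    ext k
    rw [Finset.mem_filter, mem_admG, mem_admG]
    constructor
    · rintro ⟨⟨h1, h2, h3, h4⟩, h5⟩
      refine ⟨h1, h2, h3, fun x hx => ?_⟩
      by_cases b : x = z
      · rwa [b]
      · exact h4 x fun c => (Finset.mem_insert.1 c).elim b hx
    · rintro ⟨h1, h2, h3, h4⟩
      exact ⟨⟨h1, h2, h3, fun x hx => h4 x fun c => hx (Finset.mem_insert_of_mem c)⟩, h4 z hz⟩
  have e2 : ∑ k ∈ (admG M (insert z L) D).filter (fun k => ¬k z = 0), F k =
      ∑ k ∈ (admG M (insert z L) D).filter (fun k => k z = 0), F k := by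
    refine Finset.sum_nbij' (fun k => Function.update k z 0) (fun k => Function.update k z 1)
      (fun k hk => ?_) (fun k hk => ?_) (fun k hk => ?_) (fun k hk => ?_) fun k _ => ?_
    · exact Finset.mem_filter.2 ⟨e8_upd h hz (Finset.mem_filter.1 hk).1 (.inl rfl), by simp⟩
    · exact Finset.mem_filter.2 ⟨e8_upd h hz (Finset.mem_filter.1 hk).1 (.inr rfl), by simp⟩
    · obtain ⟨h1, h2⟩ := Finset.mem_filter.1 hk
      have h3 : k z = 1 := ((mem_admG.1 h1).2.2.1 z hD).resolve_left h2
      simp only [Function.update_idem]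
      rw [← h3, Function.update_eq_self]
    · simp only [Function.update_idem]
      rw [← (Finset.mem_filter.1 hk).2, Function.update_eq_self]
    · exact hF _ _ fun x hx => (Function.update_of_ne (fun b => hD (by rwa [← b])) _ _).symm
  rw [← Finset.sum_filter_add_sum_filter_not _ (fun k => k z = 0), e2, e1, two_mul]

theorem e8_av (M : ℕ) {L D : Finset (ℤ × ℤ)} (h : Nb D L) {z : ℤ × ℤ} (hz : z ∉ L) {F : Cfg → ℝ}
    (hF : Dep D F) : avG M (insert z L) D F = avG M L D F := by
  have e := e8_step M h hz (F := fun _ => 1) fun _ _ _ => rfl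
  simp only [Finset.sum_const, nsmul_eq_mul, mul_one] at e
  rw [avG, avG, e8_step M h hz hF, e, mul_div_mul_left _ _ two_ne_zero]

theorem avG_far (M : ℕ) {L L' D : Finset (ℤ × ℤ)} (h : Nb D L) (hL : L ⊆ L') {F : Cfg → ℝ}
    (hF : Dep D F) : avG M L' D F = avG M L D F := by
  have key : ∀ T : Finset (ℤ × ℤ), avG M (T ∪ L) D F = avG M L D F := fun T => by
    induction T using Finset.induction_on with
    | empty => rw [Finset.empty_union]
    | insert z T _ ih =>
      rw [Finset.insert_union]
      by_cases hz : z ∈ T ∪ L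
      · rwa [Finset.insert_eq_of_mem hz]
      · rw [e8_av M (fun x hx y hy => Finset.mem_union_right _ (h x hx y hy)) hz hF, ih]
  rw [← key L', Finset.union_eq_left.2 hL]

theorem nb_hexA (c : ℤ × ℤ) (n : ℕ) : Nb (hexA c n) (hexA c (n + 1)) := by
  intro x hx y hy
  rw [mem_hexA] at hx ⊢
  simp only [P153.hx, Prod.fst_sub, Prod.snd_sub, max_le_iff, abs_le] at hx hy ⊢
  push_cast
  omega

theorem hexA_sub {c c' : ℤ × ℤ} {n n' : ℕ} (h : n + hx (c - c') ≤ n') : hexA c n ⊆ hexA c' n' := by
  intro x hx
  rw [mem_hexA] at hx ⊢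
  have h1 : P153.hx (c - c') ≤ (n' : ℤ) - n := by omega
  simp only [P153.hx, Prod.fst_sub, Prod.snd_sub, max_le_iff, abs_le] at hx h1 ⊢
  omega

end Vale.Agent.P153
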