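import Vale.Agent.P153.EG3
import Vale.Agent.P153.E8
import Vale.Agent.P153.E3

/-! Part E: the basic observables converge. Key: if S ⊆ hexA c n ⊆ hexA c' n' and hexA c (n + 1) ⊆
hexA c' (n' + 1) then avM M c n (bs S b ε) ≤ avM M c' n' (bs S b ε) (`avG_far` with `nb_hexA`, `avG_mono`;
`Dep`). So n ↦ avM M c (n + n0) _ is monotone and at most 1 (`tendsto_atTop_ciSup`,
`tendsto_add_atTop_iff_nat`, `ev_hexA`), and the limits for c and 0 bound each other (`hexA_sub`,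
`le_of_tendsto_of_tendsto` with the shifted sequence). -/

open MeasureTheory Filter Topology

noncomputable section

namespace Vale.Agent.P153

theorem ec1_dep {S D : Finset (ℤ × ℤ)} (h : S ⊆ D) (b : Cfg) (ε : ℤ × ℤ → Bool) :
    Dep D (bs S b ε) := fun k k' e => by
  simp only [bs, chi]
  congr 1 <;> exact Finset.prod_congr rfl fun x hx => by simp only [e x (h hx)]

theorem ec1_le (S : Finset (ℤ × ℤ)) (b : Cfg) (ε : ℤ × ℤ → Bool) (k : Cfg) : bs S b ε k ≤ 1 := by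
  refine (le_abs_self _).trans ?_
  rw [bs, chi, abs_mul, Finset.abs_prod, Finset.abs_prod]
  refine mul_le_one₀ ?_ (Finset.prod_nonneg fun _ _ => abs_nonneg _) ?_ <;>
    refine Finset.prod_le_one (fun _ _ => abs_nonneg _) fun x _ => ?_ <;> split_ifs <;> simp

theorem ec1_av (M : ℕ) (c : ℤ × ℤ) (n : ℕ) (S : Finset (ℤ × ℤ)) (b : Cfg) (ε : ℤ × ℤ → Bool) :
    avM M c n (bs S b ε) ≤ 1 := by
  rw [avM, avG, div_le_one (Nat.cast_pos.2 (card_admG _ _ _))]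
  exact (Finset.sum_le_card_nsmul _ _ 1 fun k _ => ec1_le S b ε k).trans (by simp)

theorem ec1_mono (M : ℕ) {S : Finset (ℤ × ℤ)} (b : Cfg) (ε : ℤ × ℤ → Bool) {c c' : ℤ × ℤ}
    {n n' : ℕ} (hS : S ⊆ hexA c n) (h : n + hx (c - c') ≤ n') :
    avM M c n (bs S b ε) ≤ avM M c' n' (bs S b ε) := by
  rw [avM, avM, ← avG_far M (nb_hexA c n) (L' := hexA c' (n' + 1))
    (hexA_sub (by push_cast; omega)) (ec1_dep hS b ε)]
  exact avG_mono M (hexA_sub h) (hexA_sub (by simp [hx])) S b ε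

theorem cv_bs (M : ℕ) (S : Finset (ℤ × ℤ)) (b : Cfg) (ε : ℤ × ℤ → Bool) : Cv M (bs S b ε) := by
  have hb : BddAbove {t | ∃ c n, S ⊆ hexA c n ∧ avM M c n (bs S b ε) = t} :=
    ⟨1, by rintro _ ⟨c, n, -, rfl⟩; exact ec1_av M c n S b ε⟩
  obtain ⟨n₀, h₀⟩ := (ev_hexA S 0).exists
  refine ⟨sSup {t | ∃ c n, S ⊆ hexA c n ∧ avM M c n (bs S b ε) = t}, fun c =>
    tendsto_order.2 ⟨fun a ha => ?_, fun a ha => ?_⟩⟩
  · obtain ⟨_, ⟨c', n', h1, rfl⟩, h2⟩ :=
      exists_lt_of_lt_csSup (Set.nonempty_of_mem (by exact ⟨0, n₀, h₀, rfl⟩)) ha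
    filter_upwards [eventually_ge_atTop (n' + (hx (c' - c)).toNat)] with n hn
    exact h2.trans_le (ec1_mono M b ε h1 (by omega))
  · filter_upwards [ev_hexA S c] with n hn
    exact (le_csSup hb ⟨c, n, hn, rfl⟩).trans_lt ha

end Vale.Agent.P153
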