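import Vale.Agent.P153.E1

/-! Part E: the number of compatible signs is log-supermodular. `GS L a` is finite (restriction to L is
injective). GS L a ⊓ GS L b ≤ GS L (a ⊔ b) and GS L a ⊔ GS L b ≤ GS L (a ⊓ b) for a, b ≥ 0; for finite subgroups
card G * card G' = card (G ⊓ G') * card (G ⊔ G') (second isomorphism theorem
`QuotientAddGroup.quotientInfEquivSumNormalQuotient`, or `AddSubgroup.relIndex_sup_right`-type lemmas, or the
map G × G' → G ⊔ G' whose kernel injects into G ⊓ G'); `AddSubgroup.card_le_of_le`.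
`chi_sum`: chi is multiplicative (ZMod 2 cases, `decide`); if chi s0 = -1 then s ↦ s + s0 reverses the sum. -/

open MeasureTheory Filter Topology

noncomputable section

namespace Vale.Agent.P153

theorem GS_finite (L : Finset (ℤ × ℤ)) (a : Cfg) : Finite (GS L a) := by
  refine Finite.of_injective (fun (s : GS L a) (x : L) => s.1 x) fun s t e => Subtype.ext ?_
  funext x
  by_cases h : x ∈ L
  · exact congrFun e ⟨x, h⟩
  · rw [s.2.1 x h, t.2.1 x h]

theorem GS_anti (L : Finset (ℤ × ℤ)) {a b : Cfg} (ha : 0 ≤ a) (h : a ≤ b) : GS L b ≤ GS L a :=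
  fun _ hs => ⟨hs.1, fun x y e f => hs.2 x y e fun g => f (le_antisymm ((h x).trans g.le) (ha x))⟩

theorem eg1_card {A : Type} [AddCommGroup A] (G G' : AddSubgroup A) :
    Nat.card G * Nat.card G' = Nat.card (G ⊓ G' : AddSubgroup A) *
      Nat.card (G ⊔ G' : AddSubgroup A) := by
  have h1 := (G.addSubgroupOf G').card_mul_index
  have h2 := (G.addSubgroupOf (G' ⊔ G)).card_mul_index
  have h3 : (G.addSubgroupOf (G' ⊔ G)).index = (G.addSubgroupOf G').index :=
    AddSubgroup.relIndex_sup_right G' G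
  rw [Nat.card_congr (AddSubgroup.addSubgroupOfEquivOfLe (le_sup_right : G ≤ G' ⊔ G)).toEquiv,
    h3] at h2
  rw [← AddSubgroup.inf_addSubgroupOf_right G G',
    Nat.card_congr (AddSubgroup.addSubgroupOfEquivOfLe (inf_le_right : G ⊓ G' ≤ G')).toEquiv,
    AddSubgroup.inf_addSubgroupOf_right] at h1
  rw [sup_comm, ← h1, ← h2]
  ring

theorem wS_sup (L : Finset (ℤ × ℤ)) {a b : Cfg} (ha : 0 ≤ a) (hb : 0 ≤ b) :
    wS L a * wS L b ≤ wS L (a ⊓ b) * wS L (a ⊔ b) := by
  have := GS_finite L (a ⊓ b)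
  have := GS_finite L (a ⊔ b)
  have h1 : GS L a ⊔ GS L b ≤ GS L (a ⊓ b) :=
    sup_le (GS_anti L (le_inf ha hb) inf_le_left) (GS_anti L (le_inf ha hb) inf_le_right)
  have h2 : GS L a ⊓ GS L b ≤ GS L (a ⊔ b) := fun s hs => ⟨hs.1.1, fun x y e f => by
    by_cases h : a x = 0
    · refine hs.2.2 x y e fun g => f ?_
      rw [Pi.sup_apply, h, g, sup_idem]
    · exact hs.1.2 x y e h⟩
  simp only [wS]
  norm_cast
  rw [eg1_card, mul_comm]
  exact Nat.mul_le_mul (AddSubgroup.card_le_of_le h1) (AddSubgroup.card_le_of_le h2)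

theorem eg1_add (S : Finset (ℤ × ℤ)) (ε : ℤ × ℤ → Bool) (s t : ℤ × ℤ → ZMod 2) :
    chi S ε (s + t) = chi S ε s * chi S ε t := by
  rw [chi, chi, chi, ← Finset.prod_mul_distrib]
  refine Finset.prod_congr rfl fun x _ => ?_
  have h : ∀ u v : ZMod 2, (u + v = 1 ↔ ¬(u = 1 ↔ v = 1)) := by decide
  rw [Pi.add_apply]
  by_cases h0 : ε x = true <;> by_cases h1 : s x = 1 <;> by_cases h2 : t x = 1 <;>
    simp [h, h0, h1, h2]

theorem eg1_sq (S : Finset (ℤ × ℤ)) (ε : ℤ × ℤ → Bool) (s : ℤ × ℤ → ZMod 2) :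
    chi S ε s * chi S ε s = 1 := by
  rw [chi, ← Finset.prod_mul_distrib]
  exact Finset.prod_eq_one fun x _ => by split_ifs <;> norm_num

open Classical in
theorem chi_sum (L S : Finset (ℤ × ℤ)) (ε : ℤ × ℤ → Bool) (a : Cfg) {T : Finset (ℤ × ℤ → ZMod 2)}
    (hT : ∀ s, s ∈ T ↔ s ∈ GS L a) :
    ∑ s ∈ T, chi S ε s = wS L a * if ∀ s ∈ GS L a, chi S ε s = 1 then 1 else 0 := by
  split_ifs with h
  · rw [Finset.sum_congr rfl fun s hs => h s ((hT s).1 hs), wS, Nat.subtype_card T hT]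
    simp
  · push Not at h
    obtain ⟨t, ht, h1⟩ := h
    have h2 : chi S ε t = -1 := (mul_self_eq_one_iff.1 (eg1_sq S ε t)).resolve_left h1
    have h3 : ∑ s ∈ T, chi S ε (s + t) = ∑ s ∈ T, chi S ε s :=
      Finset.sum_equiv (Equiv.addRight t) (fun s => by
        rw [hT, hT]
        exact ((GS L a).add_mem_cancel_right ht).symm) fun _ _ => rfl
    simp only [eg1_add, h2, mul_neg, mul_one, Finset.sum_neg_distrib] at h3
    linarith

end Vale.Agent.P153
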