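import Vale.Agent.P153.EG1

/-! Part E: a function is an absolute value and a sign. Split the sum by a = fun x => ab (k x)
(`Finset.sum_fiberwise_of_maps_to`; a ∈ abS M D). On a fibre k ↦ fun x => sg (k x) is a bijection onto the finite
set of `GS L a` with inverse s ↦ fun x => if s x = 0 then -a x else a x + 1 (`Finset.sum_nbij'`); then
`chi_sum`. A useful form of `Lip k`: ∀ x y, hx (y - x) ≤ 1 → |k y - k x| ≤ 1 (seven cases of y - x). -/

open MeasureTheory Filter Topology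

noncomputable section

namespace Vale.Agent.P153

theorem eg2_lip {k : Cfg} (h : Lip k) (x y : ℤ × ℤ) (e : hx (y - x) ≤ 1) : |k y - k x| ≤ 1 := by
  obtain ⟨a, b⟩ := x
  obtain ⟨c, d⟩ := y
  simp only [hx, Prod.fst_sub, Prod.snd_sub, max_le_iff, abs_le] at e
  have h1 := h (a, b)
  have h2 := h (c, d)
  simp only [Prod.mk_add_mk, add_zero] at h1 h2
  have : (c = a ∧ d = b) ∨ (c = a + 1 ∧ d = b) ∨ (c = a ∧ d = b + 1) ∨ (c = a + -1 ∧ d = b + 1) ∨
      (a = c + 1 ∧ b = d) ∨ (a = c ∧ b = d + 1) ∨ (a = c + -1 ∧ b = d + 1) := by omega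
  rcases this with ⟨rfl, rfl⟩ | ⟨rfl, rfl⟩ | ⟨rfl, rfl⟩ | ⟨rfl, rfl⟩ | ⟨rfl, rfl⟩ | ⟨rfl, rfl⟩ |
    ⟨rfl, rfl⟩
  · simp
  · exact h1.1
  · exact h1.2.1
  · exact h1.2.2
  · rw [abs_sub_comm]; exact h2.1
  · rw [abs_sub_comm]; exact h2.2.1
  · rw [abs_sub_comm]; exact h2.2.2

theorem eg2_lip' {k : Cfg} (h : ∀ x y : ℤ × ℤ, hx (y - x) ≤ 1 → |k y - k x| ≤ 1) : Lip k :=
  fun x => ⟨h _ _ (by simp [hx]), h _ _ (by simp [hx]), h _ _ (by simp [hx])⟩

theorem eg2_sym {x y : ℤ × ℤ} (e : hx (y - x) ≤ 1) : hx (x - y) ≤ 1 := by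
  simp only [hx, Prod.fst_sub, Prod.snd_sub, max_le_iff, abs_le] at e ⊢
  omega

theorem eg2_two (t : ZMod 2) : t = 0 ∨ t = 1 := by
  revert t
  decide

theorem eg2_sg0 {t : ℤ} (h : t ≤ 0) : sg t = 0 := if_pos h

theorem eg2_sg1 {t : ℤ} (h : 0 < t) : sg t = 1 := if_neg (not_le.2 h)

/-- The function with given absolute value and sign. -/
def eg2_mk (a : Cfg) (s : ℤ × ℤ → ZMod 2) : Cfg := fun x => if s x = 0 then -a x else a x + 1

theorem eg2_ab {M : ℕ} {L D : Finset (ℤ × ℤ)} {k : Cfg} (hk : k ∈ admG M L D) :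
    (fun x => ab (k x)) ∈ abS M D := by
  obtain ⟨h1, h2, h3, -⟩ := mem_admG.1 hk
  refine mem_abS.2 ⟨fun x => ?_, fun x => ?_, fun x hx => ?_⟩
  · have := h1 x
    simp only [ab, abs_le] at this ⊢
    omega
  · have := h2 x
    simp only [ab]
    omega
  · have := h3 x hx
    simp only [ab]
    omega

theorem eg2_sg {M : ℕ} {L D : Finset (ℤ × ℤ)} {k : Cfg} (hk : k ∈ admG M L D) :
    (fun x => sg (k x)) ∈ GS L fun x => ab (k x) := by
  obtain ⟨h1, -, -, h4⟩ := mem_admG.1 hk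
  refine ⟨fun x hx => ?_, fun x y e ha => ?_⟩
  · exact eg2_sg0 (h4 x hx).le
  · have h5 := eg2_lip h1 x y e
    have ha' : ab (k x) ≠ 0 := ha
    simp only [ab, abs_le] at ha' h5
    show sg (k y) = sg (k x)
    rcases le_or_gt (k x) 0 with h6 | h6
    · rw [eg2_sg0 h6, eg2_sg0 (by omega)]
    · rw [eg2_sg1 h6, eg2_sg1 (by omega)]

theorem eg2_mem {M : ℕ} {L D : Finset (ℤ × ℤ)} (h : D ⊆ L) {a : Cfg} (ha : a ∈ abS M D)
    {s : ℤ × ℤ → ZMod 2} (hs : s ∈ GS L a) : eg2_mk a s ∈ admG M L D := by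
  obtain ⟨h1, h2, h3⟩ := mem_abS.1 ha
  obtain ⟨s1, s2⟩ := hs
  refine mem_admG.2 ⟨eg2_lip' fun x y e => ?_, fun x => ?_, fun x hx => ?_, fun x hx => ?_⟩
  · have h4 := eg2_lip h1 x y e
    have h5 := s2 x y e
    have h6 := s2 y x (eg2_sym e)
    simp only [eg2_mk, abs_le] at h4 ⊢
    by_cases e1 : s y = s x
    · rw [e1]
      split_ifs <;> omega
    · have a1 : a x = 0 := by_contra fun c => e1 (h5 c)
      have a2 : a y = 0 := by_contra fun c => e1 (h6 c).symm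
      rw [a1, a2]
      split_ifs <;> omega
  · have := h2 x
    simp only [eg2_mk]
    split_ifs <;> omega
  · have := h3 x hx
    simp only [eg2_mk]
    split_ifs <;> omega
  · have := h3 x fun c => hx (h c)
    simp only [eg2_mk]
    rw [if_pos (s1 x hx), this, neg_zero]

theorem eg2_ab_mk {a : Cfg} (ha : ∀ x, 0 ≤ a x) (s : ℤ × ℤ → ZMod 2) :
    (fun x => ab (eg2_mk a s x)) = a := by
  funext x
  have := ha x
  simp only [eg2_mk, ab]
  split_ifs <;> omega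

theorem eg2_sg_mk {a : Cfg} (ha : ∀ x, 0 ≤ a x) (s : ℤ × ℤ → ZMod 2) :
    (fun x => sg (eg2_mk a s x)) = s := by
  funext x
  have := ha x
  simp only [eg2_mk]
  rcases eg2_two (s x) with e | e
  · rw [if_pos e, e, eg2_sg0 (by omega)]
  · rw [if_neg (by rw [e]; decide), e, eg2_sg1 (by omega)]

theorem eg2_mk_self (k : Cfg) : eg2_mk (fun x => ab (k x)) (fun x => sg (k x)) = k := by
  funext x
  simp only [eg2_mk]
  rcases le_or_gt (k x) 0 with h | h
  · rw [if_pos (eg2_sg0 h)]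
    simp only [ab]
    omega
  · rw [if_neg (by rw [eg2_sg1 h]; decide)]
    simp only [ab]
    omega

open Classical in
theorem sum_split (M : ℕ) {L D : Finset (ℤ × ℤ)} (h : D ⊆ L) (g : Cfg → ℝ) (S : Finset (ℤ × ℤ))
    (ε : ℤ × ℤ → Bool) :
    ∑ k ∈ admG M L D, g (fun x => ab (k x)) * chi S ε (fun x => sg (k x)) =
      ∑ a ∈ abS M D, g a * (wS L a * if ∀ s ∈ GS L a, chi S ε s = 1 then 1 else 0) := by
  rw [← Finset.sum_fiberwise_of_maps_to (g := fun (k : Cfg) (x : ℤ × ℤ) => ab (k x))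
    (t := abS M D) fun k hk => eg2_ab hk]
  refine Finset.sum_congr rfl fun a ha => ?_
  have hf : (GS L a : Set (ℤ × ℤ → ZMod 2)).Finite := by
    have := GS_finite L a
    exact Set.toFinite _
  have h0 : ∀ x, 0 ≤ a x := fun x => ((mem_abS.1 ha).2.1 x).1
  rw [← chi_sum L S ε a (T := hf.toFinset) fun s => by simp, Finset.mul_sum]
  refine Finset.sum_nbij' (fun k x => sg (k x)) (eg2_mk a) (fun k hk => ?_) (fun s hs => ?_)
    (fun k hk => ?_) (fun s _ => eg2_sg_mk h0 s) fun k hk => ?_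
  · obtain ⟨h1, h2⟩ := Finset.mem_filter.1 hk
    rw [Set.Finite.mem_toFinset, ← h2]
    exact eg2_sg h1
  · exact Finset.mem_filter.2 ⟨eg2_mem h ha (by simpa using hs), eg2_ab_mk h0 s⟩
  · rw [← (Finset.mem_filter.1 hk).2]
    exact eg2_mk_self k
  · rw [(Finset.mem_filter.1 hk).2]

end Vale.Agent.P153
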