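import Vale.Agent.P153.EG2
import Vale.Agent.P153.A7

/-! Part E: monotonicity in the domain. -/

open MeasureTheory Filter Topology
open scoped FinsetFamily

noncomputable section

namespace Vale.Agent.P153

open Classical in
theorem avG_mono (M : ℕ) {L D D' : Finset (ℤ × ℤ)} (h : D ⊆ D') (h' : D' ⊆ L)
    (S : Finset (ℤ × ℤ)) (b : Cfg) (ε : ℤ × ℤ → Bool) :
    avG M L D (bs S b ε) ≤ avG M L D' (bs S b ε) := by
  set φ : Cfg → ℝ := fun a => (∏ x ∈ S, if b x ≤ a x then 1 else 0) *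
    if ∀ s ∈ GS L a, chi S ε s = 1 then 1 else 0 with hφ
  set w : Cfg → ℝ := fun a => if 0 ≤ a then wS L a else 0 with hw
  have w0 : ∀ a, 0 ≤ w a := fun a => by
    simp only [hw]
    split_ifs
    exacts [Nat.cast_nonneg _, le_rfl]
  have p0 : ∀ a : Cfg, (0 : ℝ) ≤ ∏ x ∈ S, if b x ≤ a x then 1 else 0 := fun a =>
    Finset.prod_nonneg fun _ _ => by split_ifs <;> norm_num
  have φ0 : ∀ a, 0 ≤ φ a := fun a => mul_nonneg (p0 a) (by split_ifs <;> norm_num)
  have φm : ∀ a a', 0 ≤ a → a ≤ a' → φ a ≤ φ a' := fun a a' k1 k2 => by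
    refine mul_le_mul (Finset.prod_le_prod (fun _ _ => by split_ifs <;> norm_num) fun x _ => ?_) ?_
      (by split_ifs <;> norm_num) (p0 _)
    · split_ifs with k3 k4
      exacts [le_rfl, absurd (k3.trans (k2 x)) k4, zero_le_one, le_rfl]
    · split_ifs with k3 k4
      exacts [le_rfl, absurd (fun s hs => k3 s (GS_anti L k1 k2 hs)) k4, zero_le_one, le_rfl]
  have e1 : ∀ E ⊆ L, ∑ k ∈ admG M L E, bs S b ε k = ∑ a ∈ abS M E, φ a * w a := fun E hE =>
    (sum_split M hE (fun a => ∏ x ∈ S, if b x ≤ a x then 1 else 0) S ε).trans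
      (Finset.sum_congr rfl fun a ha => by
        simp only [hφ, hw]
        rw [if_pos (show 0 ≤ a from fun x => ((mem_abS.1 ha).2.1 x).1)]
        ring)
  have e2 : ∀ E ⊆ L, ((admG M L E).card : ℝ) = ∑ a ∈ abS M E, w a := fun E hE => by
    have := sum_split M hE (fun _ => 1) ∅ ε
    simp only [chi, Finset.prod_empty, mul_one, Finset.sum_const, nsmul_eq_mul, implies_true,
      if_true, one_mul] at this
    exact this.trans (Finset.sum_congr rfl fun a ha => by
      simp only [hw]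
      rw [if_pos (show 0 ≤ a from fun x => ((mem_abS.1 ha).2.1 x).1)])
  have h1 := four_functions_theorem (fun a => φ a * w a) w w (fun a => φ a * w a)
    (fun a => mul_nonneg (φ0 a) (w0 a)) w0 w0 (fun a => mul_nonneg (φ0 a) (w0 a)) (fun a a' => by
      by_cases k1 : 0 ≤ a
      · by_cases k2 : 0 ≤ a'
        · have k3 : w a * w a' ≤ w (a ⊓ a') * w (a ⊔ a') := by
            simp only [hw]
            rw [if_pos k1, if_pos k2, if_pos (le_inf k1 k2), if_pos (k1.trans le_sup_left)]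
            exact wS_sup L k1 k2
          calc φ a * w a * w a' = φ a * (w a * w a') := by ring
            _ ≤ φ (a ⊔ a') * (w (a ⊓ a') * w (a ⊔ a')) :=
              mul_le_mul (φm _ _ k1 le_sup_left) k3 (mul_nonneg (w0 _) (w0 _)) (φ0 _)
            _ = _ := by ring
        · rw [show w a' = 0 from if_neg k2, mul_zero]
          exact mul_nonneg (w0 _) (mul_nonneg (φ0 _) (w0 _))
      · rw [show w a = 0 from if_neg k1, mul_zero, zero_mul]
        exact mul_nonneg (w0 _) (mul_nonneg (φ0 _) (w0 _))) (abS M D) (abS M D')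
  have h2 : abS M D ⊼ abS M D' ⊆ abS M D := fun z hz => by
    obtain ⟨f, hf, g, hg, rfl⟩ := Finset.mem_infs.1 hz
    rw [mem_abS] at hf hg ⊢
    refine ⟨(a7_inf hf.1 hg.1).1, fun x => ?_, fun x k => ?_⟩ <;> have k1 := hf.2.1 x <;>
      have k2 := hg.2.1 x <;> simp only [Pi.inf_apply]
    · omega
    · have := hf.2.2 x k
      omega
  have h3 : abS M D ⊻ abS M D' ⊆ abS M D' := fun z hz => by
    obtain ⟨f, hf, g, hg, rfl⟩ := Finset.mem_sups.1 hz
    rw [mem_abS] at hf hg ⊢
    refine ⟨(a7_inf hf.1 hg.1).2, fun x => ?_, fun x k => ?_⟩ <;> have k1 := hf.2.1 x <;>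
      have k2 := hg.2.1 x <;> simp only [Pi.sup_apply]
    · omega
    · rw [hf.2.2 x fun k' => k (h k'), hg.2.2 x k, max_self]
  have h4 := h1.trans (mul_le_mul (Finset.sum_le_sum_of_subset_of_nonneg h2 fun a _ _ => w0 a)
    (Finset.sum_le_sum_of_subset_of_nonneg h3 fun a _ _ => mul_nonneg (φ0 a) (w0 a))
    (Finset.sum_nonneg fun a _ => mul_nonneg (φ0 a) (w0 a)) (Finset.sum_nonneg fun a _ => w0 a))
  rw [avG, avG, div_le_div_iff₀ (Nat.cast_pos.2 (card_admG _ _ _)) (Nat.cast_pos.2 (card_admG _ _ _)),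
    e1 D (h.trans h'), e1 D' h', e2 D (h.trans h'), e2 D' h']
  exact h4.trans_eq (mul_comm _ _)

end Vale.Agent.P153
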