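import Vale.Agent.P153.H1

/-! The hat functions sum to one. -/

open MeasureTheory Filter Topology

noncomputable section

namespace Vale.Agent.P153

/-- The hat function in lattice coordinates. -/
def h1s_T (u v : ℝ) : ℝ := max 0 (1 - max |u| (max |v| |u + v|))

theorem h1s_coord (z : ℂ) (x : ℤ × ℤ) :
    hat (z - pos x) = h1s_T (z.re - z.im / √3 - x.1) (2 * z.im / √3 - x.2) := by
  have h3 : (√3 : ℝ) ≠ 0 := by positivity
  have e1 : (z - pos x).re - (z - pos x).im / √3 = z.re - z.im / √3 - x.1 := by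
    rw [Complex.sub_re, Complex.sub_im, pos_re, pos_im]
    field_simp
    ring
  have e2 : 2 * (z - pos x).im / √3 = 2 * z.im / √3 - x.2 := by
    rw [Complex.sub_im, pos_im]
    field_simp
  have e3 : (z - pos x).re + (z - pos x).im / √3 =
      (z.re - z.im / √3 - x.1) + (2 * z.im / √3 - x.2) := by
    rw [Complex.sub_re, Complex.sub_im, pos_re, pos_im]
    field_simp
    ring
  unfold hat h1s_T
  rw [e1, e2, e3]

theorem h1s_supp {u v : ℝ} (h : h1s_T u v ≠ 0) : |u| < 1 ∧ |v| < 1 := by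
  unfold h1s_T at h
  have h1 : 0 < 1 - max |u| (max |v| |u + v|) := by
    by_contra hc
    exact h (max_eq_left (not_lt.1 hc))
  have h2 := le_max_left |u| (max |v| |u + v|)
  have h3 := (le_max_left |v| |u + v|).trans (le_max_right |u| (max |v| |u + v|))
  constructor <;> linarith

theorem h1s_near {u : ℝ} {k : ℤ} (h : |u - k| < 1) : k = ⌊u⌋ ∨ k = ⌊u⌋ + 1 := by
  have h1 := Int.floor_le u
  have h2 := Int.lt_floor_add_one u
  obtain ⟨h3, h4⟩ := abs_lt.1 h
  have h5 : ((⌊u⌋ - 1 : ℤ) : ℝ) < k := by push_cast; linarith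
  have h6 : (k : ℝ) < ((⌊u⌋ + 2 : ℤ) : ℝ) := by push_cast; linarith
  have h7 := Int.cast_lt.1 h5
  have h8 := Int.cast_lt.1 h6
  omega

theorem h1s_four {s t : ℝ} (hs : 0 ≤ s) (hs1 : s < 1) (ht : 0 ≤ t) (ht1 : t < 1) :
    h1s_T s t + h1s_T s (t - 1) + (h1s_T (s - 1) t + h1s_T (s - 1) (t - 1)) = 1 := by
  have a1 : |s| = s := abs_of_nonneg hs
  have a2 : |t| = t := abs_of_nonneg ht
  have a3 : |s - 1| = 1 - s := by rw [abs_of_nonpos (by linarith)]; ring
  have a4 : |t - 1| = 1 - t := by rw [abs_of_nonpos (by linarith)]; ring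
  have a5 : |s + t| = s + t := abs_of_nonneg (by linarith)
  have a6 : |s - 1 + (t - 1)| = 2 - s - t := by rw [abs_of_nonpos (by linarith)]; ring
  have m1 : max s (max t (s + t)) = s + t := by
    rw [max_eq_right (by linarith : t ≤ s + t), max_eq_right (by linarith)]
  have m2 : max (1 - s) (max (1 - t) (2 - s - t)) = 2 - s - t := by
    rw [max_eq_right (by linarith : 1 - t ≤ 2 - s - t), max_eq_right (by linarith)]
  unfold h1s_T
  rw [a1, a2, a3, a4, a5, a6, m1, m2]
  rcases le_total (s + t) 1 with h | h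
  · have a7 : |s + (t - 1)| = 1 - s - t := by rw [abs_of_nonpos (by linarith)]; ring
    have a8 : |s - 1 + t| = 1 - s - t := by rw [abs_of_nonpos (by linarith)]; ring
    have m3 : max s (max (1 - t) (1 - s - t)) = 1 - t := by
      rw [max_eq_left (by linarith : 1 - s - t ≤ 1 - t), max_eq_right (by linarith)]
    have m4 : max (1 - s) (max t (1 - s - t)) = 1 - s :=
      max_eq_left (max_le (by linarith) (by linarith))
    rw [a7, a8, m3, m4, max_eq_right (by linarith : (0 : ℝ) ≤ 1 - (s + t)),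
      max_eq_right (by linarith : (0 : ℝ) ≤ 1 - (1 - t)),
      max_eq_right (by linarith : (0 : ℝ) ≤ 1 - (1 - s)),
      max_eq_left (by linarith : 1 - (2 - s - t) ≤ (0 : ℝ))]
    ring
  · have a7 : |s + (t - 1)| = s + t - 1 := by rw [abs_of_nonneg (by linarith)]; ring
    have a8 : |s - 1 + t| = s + t - 1 := by rw [abs_of_nonneg (by linarith)]; ring
    have m3 : max s (max (1 - t) (s + t - 1)) = s :=
      max_eq_left (max_le (by linarith) (by linarith))
    have m4 : max (1 - s) (max t (s + t - 1)) = t := by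
      rw [max_eq_left (by linarith : s + t - 1 ≤ t), max_eq_right (by linarith)]
    rw [a7, a8, m3, m4, max_eq_left (by linarith : 1 - (s + t) ≤ (0 : ℝ)),
      max_eq_right (by linarith : (0 : ℝ) ≤ 1 - s),
      max_eq_right (by linarith : (0 : ℝ) ≤ 1 - t),
      max_eq_right (by linarith : (0 : ℝ) ≤ 1 - (2 - s - t))]
    ring

theorem h1s_sum (u v : ℝ) : ∑ᶠ x : ℤ × ℤ, h1s_T (u - x.1) (v - x.2) = 1 := by
  have hsub : (Function.support fun x : ℤ × ℤ => h1s_T (u - x.1) (v - x.2)) ⊆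
      ((({⌊u⌋, ⌊u⌋ + 1} : Finset ℤ) ×ˢ ({⌊v⌋, ⌊v⌋ + 1} : Finset ℤ) : Finset (ℤ × ℤ)) :
        Set (ℤ × ℤ)) := by
    intro x hx
    obtain ⟨h1, h2⟩ := h1s_supp hx
    rw [Finset.mem_coe, Finset.mem_product, Finset.mem_insert, Finset.mem_singleton,
      Finset.mem_insert, Finset.mem_singleton]
    exact ⟨h1s_near h1, h1s_near h2⟩
  rw [finsum_eq_sum_of_support_subset _ hsub, Finset.sum_product,
    Finset.sum_pair (by omega), Finset.sum_pair (by omega), Finset.sum_pair (by omega)]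
  have e1 : u - ((⌊u⌋ + 1 : ℤ) : ℝ) = u - ⌊u⌋ - 1 := by push_cast; ring
  have e2 : v - ((⌊v⌋ + 1 : ℤ) : ℝ) = v - ⌊v⌋ - 1 := by push_cast; ring
  simp only [e1, e2]
  exact h1s_four (by linarith [Int.floor_le u]) (by linarith [Int.lt_floor_add_one u])
    (by linarith [Int.floor_le v]) (by linarith [Int.lt_floor_add_one v])

/-- Write `z = u + v ω`, `a = ⌊u⌋`, `b = ⌊v⌋`; only the four corners `(a, b), (a + 1, b),
(a, b + 1), (a + 1, b + 1)` can contribute (`finsum_eq_sum_of_support_subset`); with fractional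
parts `s, t` the values are `1 - s - t, s, t, 0` if `s + t ≤ 1` and `0, 1 - t, 1 - s, s + t - 1`
otherwise. -/
theorem hat_sum (z : ℂ) : ∑ᶠ x : ℤ × ℤ, hat (z - pos x) = 1 := by
  simp only [h1s_coord]
  exact h1s_sum _ _

end Vale.Agent.P153

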